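import Vale.Agent.H22.InfHarm.TestFun

/-!
# Convex viscosity supersolutions of the infinity-Laplace equation are `C^{1,1}`
-/

namespace Vale.Agent.H22.InfHarm

open Filter Topology Set Metric
open scoped RealInnerProductSpace

variable {E : Type*} [NormedAddCommGroup E] [InnerProductSpace ℝ E]

/-- `p` is a subgradient of `u` at `x` relative to `Ω`. -/
def IsSubgrad (u : E → ℝ) (Ω : Set E) (p x : E) : Prop := ∀ y ∈ Ω, u x + ⟪p, y - x⟫ ≤ u y

theorem norm_add_le_quadratic {a w : E} (ha : a ≠ 0) :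
    ‖a + w‖ ≤ ‖a‖ + ⟪a, w⟫ / ‖a‖ + ‖w‖ ^ 2 / (2 * ‖a‖) := by
  have hpos : 0 < ‖a‖ := norm_pos_iff.2 ha
  have h1 : ‖a + w‖ ^ 2 = ‖a‖ ^ 2 + 2 * ⟪a, w⟫ + ‖w‖ ^ 2 := norm_add_sq_real a w
  have h2 : 2 * ‖a‖ * ‖a + w‖ ≤ ‖a‖ ^ 2 + ‖a + w‖ ^ 2 := two_mul_le_add_sq _ _
  have h3 : ‖a‖ + ⟪a, w⟫ / ‖a‖ + ‖w‖ ^ 2 / (2 * ‖a‖)
      = (‖a‖ ^ 2 + ‖a + w‖ ^ 2) / (2 * ‖a‖) := by
    rw [h1]; field_simp; ring
  rw [h3, le_div_iff₀ (by positivity)]
  linarith

variable [CompleteSpace E]

/-- Comparison with cones from below, on balls centred at the vertex. -/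
theorem cone_comparison [FiniteDimensional ℝ E] {u : E → ℝ} {Ω : Set E}
    (hcont : ContinuousOn u Ω) (hsuper : IsInfSuperharmonicOn u Ω)
    {x : E} {r s : ℝ} (hr : 0 < r) (hs : 0 ≤ s) (hball : closedBall x r ⊆ Ω)
    (hsph : ∀ y ∈ sphere x r, u x - s * r ≤ u y) :
    ∀ y ∈ closedBall x r, u x - s * ‖y - x‖ ≤ u y := by
  by_contra hcon
  push Not at hcon
  obtain ⟨y0, hy0, hlt⟩ := hcon
  have hρ0r : ‖y0 - x‖ ≤ r := by simpa [dist_eq_norm] using hy0
  have hδpos : 0 < u x - s * ‖y0 - x‖ - u y0 := by linarith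
  set δ := u x - s * ‖y0 - x‖ - u y0 with hδ
  obtain ⟨γ, hγ, hγδ, hγs⟩ : ∃ γ : ℝ, 0 < γ ∧ γ * r ^ 2 < δ ∧
      ∀ ρ, 0 < ρ → ρ ≤ r → 2 * γ * ρ ≠ s := by
    rcases hs.eq_or_lt with hs0 | hspos
    · refine ⟨δ / (2 * r ^ 2), by positivity, ?_, ?_⟩
      · have : δ / (2 * r ^ 2) * r ^ 2 = δ / 2 := by field_simp
        rw [this]; linarith
      · intro ρ hρ _
        rw [← hs0]
        positivity
    · refine ⟨min (δ / (2 * r ^ 2)) (s / (4 * r)), by positivity, ?_, ?_⟩
      · calc min (δ / (2 * r ^ 2)) (s / (4 * r)) * r ^ 2 ≤ δ / (2 * r ^ 2) * r ^ 2 := by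
              gcongr; exact min_le_left _ _
          _ = δ / 2 := by field_simp
          _ < δ := by linarith
      · intro ρ hρ hρr
        have h1 : 2 * min (δ / (2 * r ^ 2)) (s / (4 * r)) * ρ ≤ 2 * (s / (4 * r)) * r := by
          gcongr; exact min_le_right _ _
        have h2 : 2 * (s / (4 * r)) * r = s / 2 := by field_simp; ring
        intro h
        linarith
  set G : E → ℝ := fun y => (u x - γ * r ^ 2) - s * ‖y - x‖ + γ * ‖y - x‖ ^ 2 with hG
  have hGcont : Continuous G := by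
    rw [hG]; fun_prop
  have hFcont : ContinuousOn (fun y => u y - G y) (closedBall x r) :=
    (hcont.mono hball).sub hGcont.continuousOn
  obtain ⟨ystar, hystar, hmin⟩ :=
    (isCompact_closedBall x r).exists_isMinOn (nonempty_closedBall.2 hr.le) hFcont
  have hF0 : u y0 - G y0 < 0 := by
    simp only [hG]
    have : γ * ‖y0 - x‖ ^ 2 ≥ 0 := by positivity
    nlinarith
  have hFstar : u ystar - G ystar < 0 := lt_of_le_of_lt (hmin hy0) hF0
  have hne : ystar ≠ x := by
    rintro rfl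
    simp only [hG, sub_self, norm_zero, mul_zero, sub_zero] at hFstar
    nlinarith
  have hnsph : ‖ystar - x‖ < r := by
    have h1 : ‖ystar - x‖ ≤ r := by simpa [dist_eq_norm] using hystar
    rcases h1.eq_or_lt with h | h
    · exfalso
      have h2 := hsph ystar (by simpa [dist_eq_norm] using h)
      simp only [hG, h] at hFstar
      nlinarith
    · exact h
  have hloc : IsLocalMin (fun y => u y - G y) ystar := by
    have h1 : ball x r ∈ 𝓝 ystar :=
      isOpen_ball.mem_nhds (by simpa [dist_eq_norm] using hnsph)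
    filter_upwards [h1] with y hy using hmin (ball_subset_closedBall hy)
  obtain ⟨hsm, hlap⟩ := radial_test (u x - γ * r ^ 2) s γ x ystar hne
  have h3 := hsuper ystar (hball hystar) G hsm hloc
  rw [hlap] at h3
  have hρs : 0 < ‖ystar - x‖ := norm_pos_iff.2 (sub_ne_zero.2 hne)
  have hne2 := hγs _ hρs hnsph.le
  have h4 : 0 < 2 * (γ * (2 * γ * ‖ystar - x‖ - s) ^ 2) := by
    have : (2 * γ * ‖ystar - x‖ - s) ≠ 0 := sub_ne_zero.2 hne2
    positivity
  linarith

omit [CompleteSpace E] in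
/-- If a cone with vertex `x` and slope `s` lies below the convex function `u` near `ym ≠ x`
and touches it at `ym`, then the gradient of the cone at `ym` is a subgradient of `u`. -/
theorem subgrad_of_cone_touch {u : E → ℝ} {Ω : Set E} (hu : ConvexOn ℝ Ω u)
    {x ym : E} {s R : ℝ} (hs : 0 ≤ s) (hR : 0 < R) (hne : ym ≠ x) (hym : ym ∈ Ω)
    (hcone : ∀ w ∈ closedBall ym R, u x - s * ‖w - x‖ ≤ u w)
    (htouch : u ym = u x - s * ‖ym - x‖) :
    IsSubgrad u Ω ((-(s / ‖ym - x‖)) • (ym - x)) ym := by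
  intro y hy
  set a := ym - x with ha
  have ha0 : a ≠ 0 := sub_ne_zero.2 hne
  have hapos : 0 < ‖a‖ := norm_pos_iff.2 ha0
  set k := y - ym with hk
  rw [inner_smul_left]
  simp only [conj_trivial]
  by_contra hcon
  push Not at hcon
  -- gap
  set gap := u ym + -(s / ‖a‖) * ⟪a, k⟫ - u y with hgap
  have hgappos : 0 < gap := by linarith
  -- choose small t
  set t := min 1 (min (R / (‖k‖ + 1)) (gap * ‖a‖ / (s * ‖k‖ ^ 2 + 1))) with ht
  have ht0 : 0 < t := by positivity
  have ht1 : t ≤ 1 := min_le_left _ _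
  have ht2 : t * ‖k‖ ≤ R := by
    have h1 : t ≤ R / (‖k‖ + 1) := (min_le_right _ _).trans (min_le_left _ _)
    have h2 : t * (‖k‖ + 1) ≤ R := by rwa [le_div_iff₀ (by positivity)] at h1
    nlinarith [norm_nonneg k]
  have ht3 : t * (s * ‖k‖ ^ 2) < 2 * (gap * ‖a‖) := by
    have h1 : t ≤ gap * ‖a‖ / (s * ‖k‖ ^ 2 + 1) := (min_le_right _ _).trans (min_le_right _ _)
    have h2 : t * (s * ‖k‖ ^ 2 + 1) ≤ gap * ‖a‖ := by rwa [le_div_iff₀ (by positivity)] at h1
    have h3 : 0 < gap * ‖a‖ := by positivity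
    nlinarith
  -- the point w = ym + t k
  set w := ym + t • k with hw
  have hwball : w ∈ closedBall ym R := by
    rw [mem_closedBall, dist_eq_norm, hw, add_sub_cancel_left, norm_smul, Real.norm_eq_abs,
      abs_of_pos ht0]
    exact ht2
  have hwconv : u w ≤ (1 - t) * u ym + t * u y := by
    have h1 := hu.2 hym hy (by linarith : (0:ℝ) ≤ 1 - t) ht0.le (by ring)
    have h2 : (1 - t) • ym + t • y = w := by
      rw [hw, hk, smul_sub, sub_smul, one_smul]; abel
    rw [h2] at h1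
    simpa [smul_eq_mul] using h1
  have hwcone := hcone w hwball
  have hwx : w - x = a + t • k := by rw [hw, ha]; abel
  have hnorm : ‖w - x‖ ≤ ‖a‖ + ⟪a, t • k⟫ / ‖a‖ + ‖t • k‖ ^ 2 / (2 * ‖a‖) := by
    rw [hwx]; exact norm_add_le_quadratic ha0
  rw [inner_smul_right, norm_smul, Real.norm_eq_abs, abs_of_pos ht0] at hnorm
  -- combine
  have h5 : s * ‖w - x‖ ≤ s * (‖a‖ + t * ⟪a, k⟫ / ‖a‖ + (t * ‖k‖) ^ 2 / (2 * ‖a‖)) := by
    gcongr
  have h6 : u x - s * ‖a‖ - s * (t * ⟪a, k⟫ / ‖a‖) - s * ((t * ‖k‖) ^ 2 / (2 * ‖a‖))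
      ≤ (1 - t) * u ym + t * u y := by
    have : s * (‖a‖ + t * ⟪a, k⟫ / ‖a‖ + (t * ‖k‖) ^ 2 / (2 * ‖a‖)) =
      s * ‖a‖ + s * (t * ⟪a, k⟫ / ‖a‖) + s * ((t * ‖k‖) ^ 2 / (2 * ‖a‖)) := by ring
    linarith
  -- u ym = u x - s ‖a‖
  have h7 : t * gap ≤ s * ((t * ‖k‖) ^ 2 / (2 * ‖a‖)) := by
    have e1 : t * gap = t * u ym - t * (s / ‖a‖ * ⟪a, k⟫) - t * u y := by rw [hgap]; ring
    have e2 : s * (t * ⟪a, k⟫ / ‖a‖) = t * (s / ‖a‖ * ⟪a, k⟫) := by ring
    rw [e1]
    linarith
  have h8 : s * ((t * ‖k‖) ^ 2 / (2 * ‖a‖)) = t * (t * (s * ‖k‖ ^ 2)) / (2 * ‖a‖) := by ring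
  rw [h8, le_div_iff₀ (by positivity)] at h7
  have h9 : t * (t * (s * ‖k‖ ^ 2)) < t * (2 * (gap * ‖a‖)) := by
    exact mul_lt_mul_of_pos_left ht3 ht0
  nlinarith

/-- Existence of a subgradient, the cone below, and the affine backward ray. -/
theorem exists_subgrad [FiniteDimensional ℝ E] {u : E → ℝ} {Ω : Set E} (hΩ : IsOpen Ω)
    (hu : ConvexOn ℝ Ω u) (hsuper : IsInfSuperharmonicOn u Ω) {x : E} {r : ℝ} (hr : 0 < r)
    (hball : closedBall x r ⊆ Ω) :
    ∃ p : E, IsSubgrad u Ω p x ∧ (∀ y ∈ closedBall x r, u x - ‖p‖ * ‖y - x‖ ≤ u y) ∧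
      ∀ t ∈ Icc 0 r, u (x - t • (‖p‖⁻¹ • p)) = u x - t * ‖p‖ := by
  have hcont : ContinuousOn u Ω := hu.continuousOn hΩ
  have hxΩ : x ∈ Ω := hball (mem_closedBall_self hr.le)
  rcases subsingleton_or_nontrivial E with hE | hE
  · refine ⟨0, ?_, ?_, ?_⟩
    · intro y _; rw [Subsingleton.elim y x]; simp
    · intro y _; rw [Subsingleton.elim y x]; simp
    · intro t _; simp
  · obtain ⟨ystar, hystar, hmin⟩ := (isCompact_sphere x r).exists_isMinOn
      (NormedSpace.sphere_nonempty.2 hr.le) (hcont.mono (sphere_subset_closedBall.trans hball))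
    have hnormstar : ‖ystar - x‖ = r := by simpa [dist_eq_norm] using hystar
    by_cases hcase : u x ≤ u ystar
    · -- flat case
      have hcone := cone_comparison hcont hsuper hr le_rfl hball (s := 0) (by
        intro y hy
        have := hmin hy
        simp only [zero_mul, sub_zero]
        exact hcase.trans this)
      simp only [zero_mul, sub_zero] at hcone
      refine ⟨0, ?_, ?_, ?_⟩
      · intro y hy
        simp only [inner_zero_left, add_zero]
        set θ := r / (r + ‖y - x‖) with hθ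
        have hden : 0 < r + ‖y - x‖ := by positivity
        have hθ0 : 0 < θ := by positivity
        have hθ1 : θ ≤ 1 := by
          rw [hθ, div_le_one hden]; linarith [norm_nonneg (y - x)]
        set w := (1 - θ) • x + θ • y with hw
        have hwx : w - x = θ • (y - x) := by
          rw [hw, smul_sub, sub_smul, one_smul]; abel
        have hwball : w ∈ closedBall x r := by
          rw [mem_closedBall, dist_eq_norm, hwx, norm_smul, Real.norm_eq_abs, abs_of_pos hθ0,
            hθ, div_mul_eq_mul_div, div_le_iff₀ hden]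
          nlinarith [norm_nonneg (y - x)]
        have h1 := hcone w hwball
        have h2 := hu.2 hxΩ hy (by linarith : (0:ℝ) ≤ 1 - θ) hθ0.le (by ring)
        simp only [smul_eq_mul] at h2
        nlinarith
      · intro y hy
        simpa using hcone y hy
      · intro t _
        simp
    · -- steep case
      push Not at hcase
      set s := (u x - u ystar) / r with hs
      have hspos : 0 < s := div_pos (sub_pos.2 hcase) hr
      have hsr : s * r = u x - u ystar := by rw [hs]; field_simp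
      have hcone := cone_comparison hcont hsuper hr hspos.le hball (s := s) (by
        intro y hy
        have h0 : u ystar ≤ u y := hmin hy
        rw [hsr]; linarith)
      obtain ⟨v, hv⟩ : ∃ v : E, v = r⁻¹ • (ystar - x) := ⟨_, rfl⟩
      have hvnorm : ‖v‖ = 1 := by
        rw [hv, norm_smul, hnormstar, Real.norm_eq_abs, abs_of_pos (inv_pos.2 hr)]
        field_simp
      have hray : ∀ t ∈ Icc 0 r, u (x + t • v) = u x - t * s := by
        intro t ht
        apply le_antisymm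
        · have hθ0 : 0 ≤ t / r := div_nonneg ht.1 hr.le
          have hθ1 : t / r ≤ 1 := by rw [div_le_one hr]; exact ht.2
          have h2 := hu.2 hxΩ (hball (sphere_subset_closedBall hystar))
            (by linarith : (0:ℝ) ≤ 1 - t / r) hθ0 (by ring)
          have e : (1 - t / r) • x + (t / r) • ystar = x + t • v := by
            rw [hv, smul_smul, sub_smul, one_smul, smul_sub, div_eq_mul_inv]; abel
          rw [e] at h2
          simp only [smul_eq_mul] at h2
          have : (1 - t / r) * u x + t / r * u ystar = u x - t * s := by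
            rw [hs]; field_simp; ring
          linarith
        · have hmem : x + t • v ∈ closedBall x r := by
            rw [mem_closedBall, dist_eq_norm, add_sub_cancel_left, norm_smul, hvnorm, mul_one,
              Real.norm_eq_abs, abs_of_nonneg ht.1]
            exact ht.2
          have := hcone _ hmem
          rw [add_sub_cancel_left, norm_smul, hvnorm, mul_one, Real.norm_eq_abs,
            abs_of_nonneg ht.1] at this
          linarith
      have hn : ‖(-s) • v‖ = s := by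
        rw [norm_smul, hvnorm, mul_one, norm_neg, Real.norm_eq_abs, abs_of_pos hspos]
      refine ⟨(-s) • v, ?_, ?_, ?_⟩
      · -- subgradient at x
        set ym := x + (r / 2) • v with hym
        have hymx : ym - x = (r / 2) • v := by rw [hym, add_sub_cancel_left]
        have hymnorm : ‖ym - x‖ = r / 2 := by
          rw [hymx, norm_smul, hvnorm, mul_one, Real.norm_eq_abs, abs_of_pos (by positivity)]
        have hymne : ym ≠ x := by
          intro h
          rw [h, sub_self, norm_zero] at hymnorm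
          linarith
        have hymΩ : ym ∈ Ω := hball (by
          rw [mem_closedBall, dist_eq_norm, hymnorm]; linarith)
        have htouch : u ym = u x - s * ‖ym - x‖ := by
          rw [hymnorm, hym, hray (r / 2) ⟨by positivity, by linarith⟩]; ring
        have hsub := subgrad_of_cone_touch hu hspos.le (R := r / 2) (by positivity) hymne hymΩ (by
          intro w hw
          apply hcone
          rw [mem_closedBall, dist_eq_norm] at hw ⊢
          calc ‖w - x‖ = ‖(w - ym) + (ym - x)‖ := by congr 1; abel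
            _ ≤ ‖w - ym‖ + ‖ym - x‖ := norm_add_le _ _
            _ ≤ r / 2 + r / 2 := by rw [hymnorm]; linarith
            _ = r := by ring) htouch
        intro y hy
        have h1 := hsub y hy
        rw [hymnorm, hymx] at h1
        have e1 : (-(s / (r / 2))) • (r / 2) • v = (-s) • v := by
          rw [smul_smul]; congr 1; field_simp
        rw [e1] at h1
        have e2 : y - ym = (y - x) - (r / 2) • v := by rw [hym]; abel
        have e3 : ⟪(-s) • v, y - ym⟫ = -s * ⟪v, y - x⟫ + s * (r / 2) := by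
          rw [e2, inner_sub_right, real_inner_smul_left, real_inner_smul_left,
            real_inner_smul_right, real_inner_self_eq_norm_sq, hvnorm]
          ring
        rw [e3, htouch, hymnorm] at h1
        rw [real_inner_smul_left]
        linarith
      · intro y hy
        rw [hn]; exact hcone y hy
      · intro t ht
        rw [hn]
        have e : x - t • (s⁻¹ • (-s) • v) = x + t • v := by
          rw [smul_smul, smul_smul, mul_assoc, mul_neg, inv_mul_cancel₀ hspos.ne', mul_neg,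
            mul_one, neg_smul, sub_neg_eq_add]
        rw [e, hray t ht]

/-- A viscosity supersolution has at most one subgradient at each point. -/
theorem subgrad_unique {u : E → ℝ} {Ω : Set E} (hΩ : IsOpen Ω)
    (hsuper : IsInfSuperharmonicOn u Ω) {z p q : E} (hz : z ∈ Ω)
    (hp : IsSubgrad u Ω p z) (hq : IsSubgrad u Ω q z) : p = q := by
  have key : ∀ t : ℝ, 0 < t → t < 1 → ⟪p - q, t • p + (1 - t) • q⟫ = 0 := by
    intro t ht0 ht1
    obtain ⟨e, he⟩ : ∃ e : E, e = p - q := ⟨_, rfl⟩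
    obtain ⟨r, hr⟩ : ∃ r : E, r = t • p + (1 - t) • q := ⟨_, rfl⟩
    rw [← he, ← hr]
    set m := min t (1 - t) with hm
    have hm0 : 0 < m := lt_min ht0 (by linarith)
    obtain ⟨hsm, hlap⟩ := quadratic_test (u z) r e z 1
    have hloc : IsLocalMin (fun y => u y - (u z + ⟪r, y - z⟫ + 1 * ⟪e, y - z⟫ ^ 2)) z := by
      have h1 : Ω ∈ 𝓝 z := hΩ.mem_nhds hz
      have h2 : ball z (m / (‖e‖ + 1)) ∈ 𝓝 z := ball_mem_nhds z (by positivity)
      filter_upwards [h1, h2] with y hy hy2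
      have hz0 : u z - (u z + ⟪r, z - z⟫ + 1 * ⟪e, z - z⟫ ^ 2) = 0 := by simp
      change u z - (u z + ⟪r, z - z⟫ + 1 * ⟪e, z - z⟫ ^ 2)
        ≤ u y - (u z + ⟪r, y - z⟫ + 1 * ⟪e, y - z⟫ ^ 2)
      rw [hz0]
      have hpy := hp y hy
      have hqy := hq y hy
      obtain ⟨a, ha⟩ : ∃ a : ℝ, a = ⟪e, y - z⟫ := ⟨_, rfl⟩
      have habs : |a| ≤ m := by
        have h3 : |a| ≤ ‖e‖ * ‖y - z‖ := by rw [ha]; exact abs_real_inner_le_norm e (y - z)
        have h4 : ‖y - z‖ < m / (‖e‖ + 1) := by simpa [dist_eq_norm] using hy2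
        have h5 : ‖y - z‖ * (‖e‖ + 1) < m := by rwa [lt_div_iff₀ (by positivity)] at h4
        nlinarith [norm_nonneg e, norm_nonneg (y - z)]
      have hrr : ⟪r, y - z⟫ = t * ⟪p, y - z⟫ + (1 - t) * ⟪q, y - z⟫ := by
        rw [hr, inner_add_left, real_inner_smul_left, real_inner_smul_left]
      have haa : a = ⟪p, y - z⟫ - ⟪q, y - z⟫ := by rw [ha, he, inner_sub_left]
      have hmt : m ≤ t := min_le_left _ _
      have hmt' : m ≤ 1 - t := min_le_right _ _
      rw [hrr, ← ha]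
      rcases abs_le.1 habs with ⟨hlo, hhi⟩
      rcases le_total 0 a with h0 | h0
      · have := mul_nonneg h0 (by linarith : (0:ℝ) ≤ 1 - t - a)
        nlinarith
      · have := mul_nonneg (by linarith : (0:ℝ) ≤ -a) (by linarith : (0:ℝ) ≤ t + a)
        nlinarith
    have h3 := hsuper z hz _ hsm hloc
    rw [hlap] at h3
    have h4 : ⟪e, r⟫ ^ 2 ≤ 0 := by linarith
    exact pow_eq_zero_iff (two_ne_zero) |>.1 (le_antisymm h4 (sq_nonneg _))
  have k1 := key (1 / 3) (by norm_num) (by norm_num)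
  have k2 := key (2 / 3) (by norm_num) (by norm_num)
  rw [inner_add_right, real_inner_smul_right, real_inner_smul_right] at k1 k2
  have h1 : ⟪p - q, p⟫ = 0 := by linarith
  have h2 : ⟪p - q, q⟫ = 0 := by linarith
  have h3 : ⟪p - q, p - q⟫ = 0 := by rw [inner_sub_right, h1, h2]; ring
  exact sub_eq_zero.1 (inner_self_eq_zero.1 h3)

/-- The gradient field of a convex viscosity supersolution, with its basic properties. -/
theorem exists_grad_field [FiniteDimensional ℝ E] {u : E → ℝ} {Ω : Set E} (hΩ : IsOpen Ω)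
    (hu : ConvexOn ℝ Ω u) (hsuper : IsInfSuperharmonicOn u Ω) :
    ∃ g : E → E, (∀ x ∈ Ω, IsSubgrad u Ω (g x) x) ∧
      ∀ x r, 0 < r → closedBall x r ⊆ Ω →
        (∀ y ∈ closedBall x r, u x - ‖g x‖ * ‖y - x‖ ≤ u y) ∧
        ∀ t ∈ Icc 0 r, u (x - t • (‖g x‖⁻¹ • g x)) = u x - t * ‖g x‖ := by
  classical
  have hex : ∀ x ∈ Ω, ∃ p, IsSubgrad u Ω p x := by
    intro x hx
    obtain ⟨r, hr, hball⟩ := Metric.nhds_basis_closedBall.mem_iff.1 (hΩ.mem_nhds hx)
    obtain ⟨p, hp, _⟩ := exists_subgrad hΩ hu hsuper hr hball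
    exact ⟨p, hp⟩
  refine ⟨fun x => if h : ∃ p, IsSubgrad u Ω p x then h.choose else 0, ?_, ?_⟩
  · intro x hx
    have h := hex x hx
    simp only [dif_pos h]
    exact h.choose_spec
  · intro x r hr hball
    have hx : x ∈ Ω := hball (mem_closedBall_self hr.le)
    have h := hex x hx
    obtain ⟨p, hp, hp2, hp3⟩ := exists_subgrad hΩ hu hsuper hr hball
    have e : (if h : ∃ p, IsSubgrad u Ω p x then h.choose else 0) = p := by
      rw [dif_pos h]
      exact subgrad_unique hΩ hsuper hx h.choose_spec hp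
    simp only [e]
    exact ⟨hp2, hp3⟩

omit [CompleteSpace E] in
/-- Comparison of the gradient norms at two nearby points. -/
theorem norm_grad_compare {u : E → ℝ} {Ω : Set E} {g : E → E}
    (hg : ∀ x ∈ Ω, IsSubgrad u Ω (g x) x)
    (hg2 : ∀ x r, 0 < r → closedBall x r ⊆ Ω →
        (∀ y ∈ closedBall x r, u x - ‖g x‖ * ‖y - x‖ ≤ u y) ∧
        ∀ t ∈ Icc 0 r, u (x - t • (‖g x‖⁻¹ • g x)) = u x - t * ‖g x‖)
    {x x' : E} {r : ℝ} (hr : 0 < r) (hx : closedBall x r ⊆ Ω)
    (hx' : closedBall x' (r + ‖x' - x‖) ⊆ Ω) (hh : ‖x' - x‖ ≤ r) :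
    ‖g x'‖ * √(r ^ 2 - ‖x' - x‖ ^ 2) ≤ r * ‖g x‖ := by
  rcases eq_or_ne (g x') 0 with h0 | h0
  · rw [h0, norm_zero, zero_mul]; positivity
  obtain ⟨N', hN'def⟩ : ∃ N' : ℝ, N' = ‖g x'‖ := ⟨_, rfl⟩
  have hN' : 0 < N' := by rw [hN'def]; exact norm_pos_iff.2 h0
  obtain ⟨gh, hgh⟩ : ∃ gh : E, gh = ‖g x'‖⁻¹ • g x' := ⟨_, rfl⟩
  have hghnorm : ‖gh‖ = 1 := by
    rw [hgh, norm_smul, norm_inv, norm_norm, ← hN'def, inv_mul_cancel₀ hN'.ne']
  have hgx' : g x' = N' • gh := by
    rw [hgh, ← hN'def, smul_smul, mul_inv_cancel₀ hN'.ne', one_smul]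
  obtain ⟨h, hh'⟩ : ∃ h : E, h = x' - x := ⟨_, rfl⟩
  rw [← hh'] at hh hx' ⊢
  rw [← hN'def]
  obtain ⟨β, hβ⟩ : ∃ β : ℝ, β = ⟪h, gh⟫ := ⟨_, rfl⟩
  have hβabs : |β| ≤ ‖h‖ := by
    have h1 := abs_real_inner_le_norm h gh
    rw [hghnorm, mul_one] at h1
    rw [hβ]; exact h1
  have hβsq : β ^ 2 ≤ ‖h‖ ^ 2 := by
    have := sq_le_sq' (abs_le.1 hβabs).1 (abs_le.1 hβabs).2
    exact this
  have hhsq : ‖h‖ ^ 2 ≤ r ^ 2 := by
    have := norm_nonneg h
    nlinarith
  obtain ⟨S, hS⟩ : ∃ S : ℝ, S = √(r ^ 2 - ‖h‖ ^ 2 + β ^ 2) := ⟨_, rfl⟩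
  have hSsq : S ^ 2 = r ^ 2 - ‖h‖ ^ 2 + β ^ 2 := by
    rw [hS]; exact Real.sq_sqrt (by nlinarith [sq_nonneg β])
  have hS0 : 0 ≤ S := by rw [hS]; exact Real.sqrt_nonneg _
  have hSβ : |β| ≤ S := by
    rw [hS]; exact Real.abs_le_sqrt (by nlinarith)
  have hSr : S ≤ r := by
    rw [hS]; exact Real.sqrt_le_iff.2 ⟨hr.le, by nlinarith⟩
  obtain ⟨ρ, hρ⟩ : ∃ ρ : ℝ, ρ = β + S := ⟨_, rfl⟩
  have hρ0 : 0 ≤ ρ := by
    have := neg_abs_le β
    linarith
  have hρle : ρ ≤ r + ‖h‖ := by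
    have := le_abs_self β
    linarith
  obtain ⟨z, hz⟩ : ∃ z : E, z = x' - ρ • gh := ⟨_, rfl⟩
  have hzx : z - x = h - ρ • gh := by rw [hz, hh']; abel
  have hznorm : ‖z - x‖ ^ 2 = r ^ 2 := by
    rw [hzx, norm_sub_sq_real, real_inner_smul_right, norm_smul, Real.norm_eq_abs, hghnorm,
      mul_one, sq_abs, ← hβ, hρ]
    nlinarith [hSsq]
  have hznorm' : ‖z - x‖ = r := by
    have h1 : |‖z - x‖| = |r| := sq_eq_sq_iff_abs_eq_abs _ _ |>.1 hznorm
    rwa [abs_of_nonneg (norm_nonneg _), abs_of_pos hr] at h1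
  have hzmem : z ∈ closedBall x r := by rw [mem_closedBall, dist_eq_norm, hznorm']
  have hx'Ω : x' ∈ Ω := hx' (mem_closedBall_self (by positivity))
  have hxΩ : x ∈ Ω := hx (mem_closedBall_self hr.le)
  have f1 := (hg2 x r hr hx).1 z hzmem
  have f2 := (hg2 x' (r + ‖h‖) (by positivity) hx').2 ρ ⟨hρ0, hρle⟩
  rw [← hgh, ← hz, ← hN'def] at f2
  have f3 := hg x' hx'Ω x hxΩ
  have e3 : ⟪g x', x - x'⟫ = -(N' * β) := by
    have e4 : x - x' = -h := by rw [hh']; abel
    rw [e4, inner_neg_right, hgx', real_inner_smul_left, hβ, real_inner_comm]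
  rw [e3] at f3
  rw [hznorm'] at f1
  have hmain : N' * S ≤ r * ‖g x‖ := by
    have : N' * S = N' * ρ - N' * β := by rw [hρ]; ring
    nlinarith
  have hsqrt : √(r ^ 2 - ‖h‖ ^ 2) ≤ S := by
    rw [hS]; exact Real.sqrt_le_sqrt (by nlinarith [sq_nonneg β])
  calc N' * √(r ^ 2 - ‖h‖ ^ 2) ≤ N' * S := by gcongr
    _ ≤ r * ‖g x‖ := hmain

end Vale.Agent.H22.InfHarm
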