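import Vale.Agent.H22.InfHarm.Convex

/-!
# Convex viscosity supersolutions of the infinity-Laplace equation are `C^{1,1}` (part 2)
-/

namespace Vale.Agent.H22.InfHarm

open Filter Topology Set Metric
open scoped RealInnerProductSpace

variable {E : Type*} [NormedAddCommGroup E] [InnerProductSpace ℝ E]

/-- The norm of the gradient field is constant on a convex open set. -/
theorem norm_grad_const {u : E → ℝ} {Ω : Set E} {g : E → E} (hΩ : IsOpen Ω)
    (hconv : Convex ℝ Ω)
    (hg : ∀ x ∈ Ω, IsSubgrad u Ω (g x) x)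
    (hg2 : ∀ x r, 0 < r → closedBall x r ⊆ Ω →
        (∀ y ∈ closedBall x r, u x - ‖g x‖ * ‖y - x‖ ≤ u y) ∧
        ∀ t ∈ Icc 0 r, u (x - t • (‖g x‖⁻¹ • g x)) = u x - t * ‖g x‖) :
    ∀ x ∈ Ω, ∀ y ∈ Ω, ‖g x‖ = ‖g y‖ := by
  have hderiv : ∀ y ∈ Ω, HasFDerivAt (fun y => ‖g y‖) (0 : E →L[ℝ] ℝ) y := by
    intro y hy
    obtain ⟨R3, hR3, hball⟩ := Metric.nhds_basis_closedBall.mem_iff.1 (hΩ.mem_nhds hy)
    obtain ⟨R, hR⟩ : ∃ R : ℝ, R = R3 / 3 := ⟨_, rfl⟩
    have hRpos : 0 < R := by rw [hR]; positivity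
    have hR3' : R3 = 3 * R := by rw [hR]; ring
    rw [hR3'] at hball
    apply hasFDerivAt_of_sq_bound (C := (4 / 3) * ‖g y‖ / R ^ 2)
    have hnb : ball y (R / 2) ∈ 𝓝 y := ball_mem_nhds y (by positivity)
    filter_upwards [hnb] with y' hy'
    simp only [zero_apply, sub_zero]
    have hd : ‖y' - y‖ < R / 2 := by simpa [dist_eq_norm] using hy'
    have hd2 : ‖y - y'‖ = ‖y' - y‖ := norm_sub_rev _ _
    obtain ⟨d, hd'⟩ : ∃ d : ℝ, d = ‖y' - y‖ := ⟨_, rfl⟩
    have hd0 : 0 ≤ d := by rw [hd']; exact norm_nonneg _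
    rw [← hd'] at hd hd2 ⊢
    have hsub1 : closedBall y R ⊆ Ω :=
      (closedBall_subset_closedBall (by linarith)).trans hball
    have hsub2 : closedBall y' (R + d) ⊆ Ω := by
      refine (closedBall_subset_closedBall' ?_).trans hball
      rw [dist_eq_norm, ← hd']; linarith
    have hsub3 : closedBall y' R ⊆ Ω := by
      refine (closedBall_subset_closedBall' ?_).trans hball
      rw [dist_eq_norm, ← hd']; linarith
    have hsub4 : closedBall y (R + d) ⊆ Ω :=
      (closedBall_subset_closedBall (by linarith)).trans hball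
    have ha := norm_grad_compare hg hg2 (x := y) (x' := y') hRpos hsub1
      (by rw [← hd']; exact hsub2) (by rw [← hd']; linarith)
    have hb := norm_grad_compare hg hg2 (x := y') (x' := y) hRpos hsub3
      (by rw [hd2]; exact hsub4) (by rw [hd2]; linarith)
    rw [← hd'] at ha
    rw [hd2] at hb
    obtain ⟨q, hq⟩ : ∃ q : ℝ, q = d ^ 2 / R := ⟨_, rfl⟩
    have hq0 : 0 ≤ q := by rw [hq]; positivity
    have hqR : q * R = d ^ 2 := by rw [hq]; field_simp
    have hq4 : q ≤ R / 4 := by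
      have h1 : d ^ 2 ≤ (R / 2) ^ 2 := by nlinarith
      have h2 : q * R ≤ R / 4 * R := by rw [hqR]; nlinarith
      exact le_of_mul_le_mul_right h2 hRpos
    have hsq : R - q ≤ √(R ^ 2 - d ^ 2) := by
      apply Real.le_sqrt_of_sq_le
      nlinarith
    have hNy : 0 ≤ ‖g y‖ := norm_nonneg _
    have hNy' : 0 ≤ ‖g y'‖ := norm_nonneg _
    have ha' : ‖g y'‖ * (R - q) ≤ R * ‖g y‖ :=
      (mul_le_mul_of_nonneg_left hsq hNy').trans ha
    have hb' : ‖g y‖ * (R - q) ≤ R * ‖g y'‖ :=
      (mul_le_mul_of_nonneg_left hsq hNy).trans hb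
    have hC : (4 / 3) * ‖g y‖ / R ^ 2 * d ^ 2 = (4 / 3) * ‖g y‖ * q / R := by
      rw [← hqR]; field_simp
    rw [hC, abs_le]
    have h43 : ‖g y'‖ ≤ (4 / 3) * ‖g y‖ := by
      nlinarith
    constructor
    · rw [neg_le, div_eq_mul_inv, ← div_eq_mul_inv, le_div_iff₀ hRpos]
      nlinarith
    · rw [le_div_iff₀ hRpos]
      nlinarith
  intro x hx y hy
  refine hconv.is_const_of_fderivWithin_eq_zero (𝕜 := ℝ) (f := fun y => ‖g y‖)
    (fun z hz => (hderiv z hz).differentiableAt.differentiableWithinAt) (fun z hz => ?_) hx hy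
  rw [fderivWithin_of_isOpen hΩ hz]
  exact (hderiv z hz).fderiv

/-- Structure theorem for convex viscosity supersolutions of the infinity-Laplace equation:
there is a gradient field `g` of constant norm `L`, which is locally Lipschitz with explicit
interior bounds. -/
theorem convex_super_main [CompleteSpace E] [FiniteDimensional ℝ E] {u : E → ℝ} {Ω : Set E}
    (hΩ : IsOpen Ω) (hu : ConvexOn ℝ Ω u) (hsuper : IsInfSuperharmonicOn u Ω) :
    ∃ (g : E → E) (L : ℝ), (∀ x ∈ Ω, HasGradientAt u (g x) x) ∧ (∀ x ∈ Ω, ‖g x‖ = L) ∧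
      (∀ x y τ, 0 < τ → closedBall x τ ⊆ Ω → closedBall y τ ⊆ Ω →
        ‖g x - g y‖ ≤ 2 * L / τ * ‖x - y‖) ∧
      (∀ x τ M, 0 < τ → closedBall x τ ⊆ Ω → (∀ a ∈ Ω, ∀ b ∈ Ω, u a - u b ≤ M) →
        2 * τ * L ≤ M) := by
  obtain ⟨g, hg, hg2⟩ := exists_grad_field hΩ hu hsuper
  have hconst := norm_grad_const hΩ hu.1 hg hg2
  rcases Ω.eq_empty_or_nonempty with hempty | ⟨x0, hx0⟩
  · refine ⟨g, 0, ?_, ?_, ?_, ?_⟩
    · intro x hx; rw [hempty] at hx; exact absurd hx (notMem_empty x)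
    · intro x hx; rw [hempty] at hx; exact absurd hx (notMem_empty x)
    · intro x y τ hτ hbx _
      have := hbx (mem_closedBall_self hτ.le)
      rw [hempty] at this; exact absurd this (notMem_empty x)
    · intro x τ M hτ hbx _
      have := hbx (mem_closedBall_self hτ.le)
      rw [hempty] at this; exact absurd this (notMem_empty x)
  obtain ⟨L, hLdef⟩ : ∃ L : ℝ, L = ‖g x0‖ := ⟨_, rfl⟩
  have hL : ∀ x ∈ Ω, ‖g x‖ = L := fun x hx => by rw [hLdef]; exact hconst x hx x0 hx0
  have hL0 : 0 ≤ L := by rw [hLdef]; exact norm_nonneg _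
  -- Lipschitz bound
  have hlip : ∀ a ∈ Ω, ∀ b ∈ Ω, u a - u b ≤ L * ‖a - b‖ := by
    intro a ha b hb
    have h1 := hg a ha b hb
    have h2 : -(⟪g a, b - a⟫) ≤ ‖g a‖ * ‖b - a‖ := by
      have h3 := abs_real_inner_le_norm (g a) (b - a)
      have h4 := neg_abs_le ⟪g a, b - a⟫
      linarith
    rw [hL a ha, norm_sub_rev] at h2
    linarith
  -- unit vector in the direction of the gradient
  have hunit : 0 < L → ∀ x ∈ Ω, ‖L⁻¹ • g x‖ = 1 := by
    intro hLpos x hx
    rw [norm_smul, norm_inv, Real.norm_eq_abs, abs_of_pos hLpos, hL x hx,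
      inv_mul_cancel₀ hLpos.ne']
  -- semiconcavity
  have hsemi : ∀ x τ, 0 < τ → closedBall x τ ⊆ Ω → ∀ y ∈ Ω,
      u y ≤ u x + ⟪g x, y - x⟫ + L / (2 * τ) * ‖y - x‖ ^ 2 := by
    intro x τ hτ hball y hy
    have hx : x ∈ Ω := hball (mem_closedBall_self hτ.le)
    rcases eq_or_lt_of_le hL0 with hL00 | hLpos
    · have hgx : g x = 0 := norm_eq_zero.1 ((hL x hx).trans hL00.symm)
      have h1 := hlip y hy x hx
      rw [← hL00] at h1 ⊢
      simp only [hgx, inner_zero_left, zero_div, zero_mul, add_zero]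
      linarith
    · have hray := (hg2 x τ hτ hball).2 τ ⟨hτ.le, le_rfl⟩
      rw [hL x hx] at hray
      have hghnorm := hunit hLpos x hx
      obtain ⟨gh, hgh⟩ : ∃ gh : E, gh = L⁻¹ • g x := ⟨_, rfl⟩
      rw [← hgh] at hray hghnorm
      obtain ⟨b, hb⟩ : ∃ b : E, b = x - τ • gh := ⟨_, rfl⟩
      rw [← hb] at hray
      have hbmem : b ∈ closedBall x τ := by
        rw [mem_closedBall, dist_eq_norm, hb, sub_sub_cancel_left, norm_neg, norm_smul,
          hghnorm, mul_one, Real.norm_eq_abs, abs_of_pos hτ]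
      have h1 := hlip y hy b (hball hbmem)
      have e1 : y - b = τ • gh + (y - x) := by rw [hb]; abel
      have hne : τ • gh ≠ 0 := by
        intro h
        have h' := congrArg norm h
        rw [norm_smul, hghnorm, mul_one, norm_zero, Real.norm_eq_abs, abs_of_pos hτ] at h'
        linarith
      have h2 := norm_add_le_quadratic (a := τ • gh) (w := y - x) hne
      rw [norm_smul, hghnorm, mul_one, Real.norm_eq_abs, abs_of_pos hτ,
        real_inner_smul_left] at h2
      have e2 : ⟪g x, y - x⟫ = L * ⟪gh, y - x⟫ := by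
        rw [hgh, real_inner_smul_left, ← mul_assoc, mul_inv_cancel₀ hLpos.ne', one_mul]
      rw [e1] at h1
      have e3 : τ * ⟪gh, y - x⟫ / τ = ⟪gh, y - x⟫ := by field_simp
      rw [e3] at h2
      have h3 : L * ‖τ • gh + (y - x)‖ ≤
          L * (τ + ⟪gh, y - x⟫ + ‖y - x‖ ^ 2 / (2 * τ)) := by gcongr
      rw [e2]
      have e4 : L / (2 * τ) * ‖y - x‖ ^ 2 = L * (‖y - x‖ ^ 2 / (2 * τ)) := by ring
      rw [e4]
      nlinarith
  -- differentiability
  have hgrad : ∀ x ∈ Ω, HasGradientAt u (g x) x := by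
    intro x hx
    obtain ⟨τ, hτ, hball⟩ := Metric.nhds_basis_closedBall.mem_iff.1 (hΩ.mem_nhds hx)
    rw [hasGradientAt_iff_hasFDerivAt]
    apply hasFDerivAt_of_sq_bound (C := L / (2 * τ))
    filter_upwards [hΩ.mem_nhds hx] with y hy
    rw [InnerProductSpace.toDual_apply_apply]
    have h1 := hg x hx y hy
    have h2 := hsemi x τ hτ hball y hy
    have h3 : 0 ≤ L / (2 * τ) * ‖y - x‖ ^ 2 := by positivity
    rw [abs_le]
    constructor
    · linarith
    · linarith
  -- the C^{1,1} estimate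
  have hC11 : ∀ x y τ, 0 < τ → closedBall x τ ⊆ Ω → closedBall y τ ⊆ Ω →
      ‖g x - g y‖ ≤ 2 * L / τ * ‖x - y‖ := by
    intro x y τ hτ hbx hby
    have hx : x ∈ Ω := hbx (mem_closedBall_self hτ.le)
    have hy : y ∈ Ω := hby (mem_closedBall_self hτ.le)
    rcases le_or_gt ‖x - y‖ τ with hclose | hfar
    · rcases eq_or_ne (g x - g y) 0 with h0 | h0
      · rw [h0, norm_zero]; positivity
      obtain ⟨D, hD⟩ : ∃ D : ℝ, D = ‖g x - g y‖ := ⟨_, rfl⟩
      have hDpos : 0 < D := by rw [hD]; exact norm_pos_iff.2 h0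
      obtain ⟨k, hk⟩ : ∃ k : E, k = (‖x - y‖ / D) • (g x - g y) := ⟨_, rfl⟩
      have hknorm : ‖k‖ = ‖x - y‖ := by
        rw [hk, norm_smul, Real.norm_eq_abs, abs_of_nonneg (by positivity), ← hD]
        field_simp
      have hyk : y + k ∈ Ω := hby (by
        rw [mem_closedBall, dist_eq_norm, add_sub_cancel_left, hknorm]; exact hclose)
      have f1 := hg x hx (y + k) hyk
      have f2 := hsemi y τ hτ hby (y + k) hyk
      have f3 := hsemi x τ hτ hbx y hy
      rw [add_sub_cancel_left, hknorm] at f2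
      have e1 : ⟪g x, y + k - x⟫ = ⟪g x, y - x⟫ + ⟪g x, k⟫ := by
        rw [← inner_add_right]; congr 1; abel
      rw [e1] at f1
      have e2 : ⟪g x, k⟫ - ⟪g y, k⟫ = ‖x - y‖ * D := by
        rw [← inner_sub_left, hk, real_inner_smul_right, real_inner_self_eq_norm_sq, ← hD]
        field_simp
      rw [norm_sub_rev y x] at f3
      have f4 : ‖x - y‖ * D ≤ L / τ * ‖x - y‖ ^ 2 := by
        have e5 : L / (2 * τ) * ‖x - y‖ ^ 2 + L / (2 * τ) * ‖x - y‖ ^ 2
            = L / τ * ‖x - y‖ ^ 2 := by field_simp; ring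
        linarith
      rcases eq_or_lt_of_le (norm_nonneg (x - y)) with hz | hpos
      · exfalso
        have hxy : x = y := sub_eq_zero.1 (norm_eq_zero.1 hz.symm)
        rw [hxy, sub_self] at h0
        exact h0 rfl
      · have f5 : D ≤ L / τ * ‖x - y‖ := by
          by_contra hcon
          push Not at hcon
          have := mul_lt_mul_of_pos_left hcon hpos
          nlinarith
        rw [← hD]
        calc D ≤ L / τ * ‖x - y‖ := f5
          _ ≤ 2 * L / τ * ‖x - y‖ := by
            have : L / τ ≤ 2 * L / τ := by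
              apply div_le_div_of_nonneg_right _ hτ.le
              linarith
            gcongr
    · have h2L : 0 ≤ 2 * L / τ := by positivity
      calc ‖g x - g y‖ ≤ ‖g x‖ + ‖g y‖ := norm_sub_le _ _
        _ = 2 * L := by rw [hL x hx, hL y hy]; ring
        _ = 2 * L / τ * τ := by field_simp
        _ ≤ 2 * L / τ * ‖x - y‖ := mul_le_mul_of_nonneg_left hfar.le h2L
  -- the oscillation bound
  have hosc : ∀ x τ M, 0 < τ → closedBall x τ ⊆ Ω → (∀ a ∈ Ω, ∀ b ∈ Ω, u a - u b ≤ M) →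
      2 * τ * L ≤ M := by
    intro x τ M hτ hball hM
    have hx : x ∈ Ω := hball (mem_closedBall_self hτ.le)
    rcases eq_or_lt_of_le hL0 with hL00 | hLpos
    · rw [← hL00]
      have := hM x hx x hx
      simp only [sub_self] at this
      simpa using this
    · have hray := (hg2 x τ hτ hball).2 τ ⟨hτ.le, le_rfl⟩
      rw [hL x hx] at hray
      have hghnorm := hunit hLpos x hx
      obtain ⟨gh, hgh⟩ : ∃ gh : E, gh = L⁻¹ • g x := ⟨_, rfl⟩
      rw [← hgh] at hray hghnorm
      have hb1 : x - τ • gh ∈ closedBall x τ := by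
        rw [mem_closedBall, dist_eq_norm, sub_sub_cancel_left, norm_neg, norm_smul,
          hghnorm, mul_one, Real.norm_eq_abs, abs_of_pos hτ]
      have hb2 : x + τ • gh ∈ closedBall x τ := by
        rw [mem_closedBall, dist_eq_norm, add_sub_cancel_left, norm_smul,
          hghnorm, mul_one, Real.norm_eq_abs, abs_of_pos hτ]
      have f1 := hg x hx (x + τ • gh) (hball hb2)
      rw [add_sub_cancel_left] at f1
      have e : ⟪g x, τ • gh⟫ = τ * L := by
        have e0 : g x = L • gh := by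
          rw [hgh, smul_smul, mul_inv_cancel₀ hLpos.ne', one_smul]
        rw [e0, real_inner_smul_right, real_inner_smul_left, real_inner_self_eq_norm_sq,
          hghnorm]
        ring
      have f2 := hM _ (hball hb2) _ (hball hb1)
      rw [e] at f1
      linarith
  exact ⟨g, L, hgrad, hL, hC11, hosc⟩

end Vale.Agent.H22.InfHarm
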