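import Vale.Agent.H22.InfHarm.Convex2

/-!
# Convex or concave infinity-harmonic functions are `C^{1,1}`: final assembly
-/

namespace Vale.Agent.H22.InfHarm

open Filter Topology Set Metric
open scoped RealInnerProductSpace

variable {E : Type*} [NormedAddCommGroup E] [InnerProductSpace ℝ E] [CompleteSpace E]

theorem gradient_fun_neg (φ : E → ℝ) (z : E) :
    gradient (fun y => -φ y) z = -gradient φ z := by
  unfold gradient
  rw [fderiv_fun_neg, map_neg]

theorem infLaplacian_fun_neg (φ : E → ℝ) (z : E) :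
    infLaplacian (fun y => -φ y) z = -infLaplacian φ z := by
  unfold infLaplacian
  have h1 : fderiv ℝ (fun y => -φ y) = fun y => -fderiv ℝ φ y := by
    funext y; exact fderiv_fun_neg
  rw [h1, fderiv_fun_neg, gradient_fun_neg]
  simp

theorem IsInfSubharmonicOn.neg {u : E → ℝ} {Ω : Set E} (h : IsInfSubharmonicOn u Ω) :
    IsInfSuperharmonicOn (fun y => -u y) Ω := by
  intro z hz φ hφ hloc
  have h1 : IsLocalMax (fun y => u y - (fun y => -φ y) y) z := by
    have h2 := hloc.neg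
    refine h2.congr ?_
    filter_upwards with y
    ring
  have h3 := h z hz (fun y => -φ y) hφ.neg h1
  rw [infLaplacian_fun_neg] at h3
  linarith

/-- From a gradient field of constant norm with the interior Lipschitz bounds to the final
statement. -/
theorem c11_of_grad_field {u : E → ℝ} {Ω : Set E} (hΩ : IsOpen Ω) (g : E → E) (L : ℝ)
    (hgrad : ∀ x ∈ Ω, HasGradientAt u (g x) x) (hL : ∀ x ∈ Ω, ‖g x‖ = L)
    (hC11 : ∀ x y τ, 0 < τ → closedBall x τ ⊆ Ω → closedBall y τ ⊆ Ω →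
        ‖g x - g y‖ ≤ 2 * L / τ * ‖x - y‖)
    (hosc : ∀ x τ M, 0 < τ → closedBall x τ ⊆ Ω → (∀ a ∈ Ω, ∀ b ∈ Ω, u a - u b ≤ M) →
        2 * τ * L ≤ M) :
    ContDiffOn ℝ 1 u Ω ∧
    (∃ L : ℝ, ∀ x ∈ Ω, ‖gradient u x‖ = L) ∧
    (∀ (M τ : ℝ), 0 < τ → (∀ a ∈ Ω, ∀ b ∈ Ω, u a - u b ≤ M) →
      ∀ x y, closedBall x τ ⊆ Ω → closedBall y τ ⊆ Ω →
        ‖gradient u x - gradient u y‖ ≤ M / τ ^ 2 * ‖x - y‖) ∧
    (Ω = univ → ∃ (p : E) (c : ℝ), ∀ x, u x = ⟪p, x⟫ + c) := by
  have hgr : ∀ x ∈ Ω, gradient u x = g x := fun x hx => (hgrad x hx).gradient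
  have hgcont : ContinuousOn g Ω := by
    intro x hx
    obtain ⟨τ2, hτ2, hball⟩ := Metric.nhds_basis_closedBall.mem_iff.1 (hΩ.mem_nhds hx)
    apply ContinuousAt.continuousWithinAt
    apply continuousAt_of_locally_lipschitz (r := τ2 / 2) (by positivity) (2 * L / (τ2 / 2))
    intro y hy
    have h1 : closedBall y (τ2 / 2) ⊆ Ω := by
      refine (closedBall_subset_closedBall' ?_).trans hball
      linarith
    have h2 : closedBall x (τ2 / 2) ⊆ Ω :=
      (closedBall_subset_closedBall (by linarith)).trans hball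
    have := hC11 y x (τ2 / 2) (by positivity) h1 h2
    rwa [dist_eq_norm, dist_eq_norm]
  refine ⟨?_, ⟨L, fun x hx => by rw [hgr x hx]; exact hL x hx⟩, ?_, ?_⟩
  · rw [show (1 : WithTop ℕ∞) = 0 + 1 from (zero_add 1).symm,
      contDiffOn_succ_iff_fderiv_of_isOpen hΩ]
    refine ⟨fun x hx => (hgrad x hx).differentiableAt.differentiableWithinAt, by simp, ?_⟩
    rw [contDiffOn_zero]
    have h1 : ContinuousOn (fun y => InnerProductSpace.toDual ℝ E (g y)) Ω :=
      (LinearIsometryEquiv.continuous _).comp_continuousOn hgcont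
    exact h1.congr (fun y hy => (hasGradientAt_iff_hasFDerivAt.1 (hgrad y hy)).fderiv)
  · intro M τ hτ hM x y hbx hby
    have hx : x ∈ Ω := hbx (mem_closedBall_self hτ.le)
    have hy : y ∈ Ω := hby (mem_closedBall_self hτ.le)
    rw [hgr x hx, hgr y hy]
    have h1 := hC11 x y τ hτ hbx hby
    have h2 := hosc x τ M hτ hbx hM
    have h3 : 2 * L / τ ≤ M / τ ^ 2 := by
      rw [div_le_div_iff₀ hτ (by positivity)]
      nlinarith
    exact h1.trans (mul_le_mul_of_nonneg_right h3 (norm_nonneg _))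
  · intro hΩu
    have hmem : ∀ x : E, x ∈ Ω := fun x => by rw [hΩu]; exact mem_univ x
    have hsub : ∀ (x : E) (τ : ℝ), closedBall x τ ⊆ Ω := fun x τ y _ => hmem y
    have hgconst : ∀ x y, g x = g y := by
      intro x y
      by_contra hne
      have hD : 0 < ‖g x - g y‖ := norm_pos_iff.2 (sub_ne_zero.2 hne)
      have hL0 : 0 ≤ L := by rw [← hL x (hmem x)]; exact norm_nonneg _
      have hτ : 0 < (2 * L * ‖x - y‖ + 1) / ‖g x - g y‖ := by positivity
      have h1 := hC11 x y _ hτ (hsub _ _) (hsub _ _)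
      have h2 : 2 * L / ((2 * L * ‖x - y‖ + 1) / ‖g x - g y‖) * ‖x - y‖
          = ‖g x - g y‖ * (2 * L * ‖x - y‖) / (2 * L * ‖x - y‖ + 1) := by
        field_simp
      rw [h2, le_div_iff₀ (by positivity)] at h1
      nlinarith
    refine ⟨g 0, u 0, fun x => ?_⟩
    have hd : ∀ y, HasFDerivAt (fun y => u y - ⟪g 0, y⟫) (0 : E →L[ℝ] ℝ) y := by
      intro y
      have h1 := hasGradientAt_iff_hasFDerivAt.1 (hgrad y (hmem y))
      rw [hgconst y 0] at h1
      have h2 : HasFDerivAt (fun y : E => ⟪g 0, y⟫) (InnerProductSpace.toDual ℝ E (g 0)) y :=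
        (InnerProductSpace.toDual ℝ E (g 0)).hasFDerivAt
      have h3 := h1.sub h2
      rwa [sub_self] at h3
    have h4 := is_const_of_fderiv_eq_zero (𝕜 := ℝ) (f := fun y => u y - ⟪g 0, y⟫)
      (fun y => (hd y).differentiableAt) (fun y => (hd y).fderiv) x 0
    simp only [inner_zero_right, sub_zero] at h4
    linarith

/-- **Main theorem.** A convex or concave viscosity solution of the infinity-Laplace equation
on an open set is `C^1`, its gradient has constant norm and satisfies an interior Lipschitz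
estimate in terms of the oscillation; entire such solutions are affine. -/
theorem convex_or_concave_main [FiniteDimensional ℝ E] {u : E → ℝ} {Ω : Set E} (hΩ : IsOpen Ω)
    (hu : IsInfHarmonicOn u Ω) (hc : ConvexOn ℝ Ω u ∨ ConcaveOn ℝ Ω u) :
    ContDiffOn ℝ 1 u Ω ∧
    (∃ L : ℝ, ∀ x ∈ Ω, ‖gradient u x‖ = L) ∧
    (∀ (M τ : ℝ), 0 < τ → (∀ a ∈ Ω, ∀ b ∈ Ω, u a - u b ≤ M) →
      ∀ x y, closedBall x τ ⊆ Ω → closedBall y τ ⊆ Ω →
        ‖gradient u x - gradient u y‖ ≤ M / τ ^ 2 * ‖x - y‖) ∧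
    (Ω = univ → ∃ (p : E) (c : ℝ), ∀ x, u x = ⟪p, x⟫ + c) := by
  rcases hc with hc | hc
  · obtain ⟨g, L, h1, h2, h3, h4⟩ := convex_super_main hΩ hc hu.2.2
    exact c11_of_grad_field hΩ g L h1 h2 h3 h4
  · have hc' : ConvexOn ℝ Ω (fun y => -u y) := hc.neg
    obtain ⟨g, L, h1, h2, h3, h4⟩ := convex_super_main hΩ hc' hu.2.1.neg
    refine c11_of_grad_field hΩ (fun x => -g x) L ?_ ?_ ?_ ?_
    · intro x hx
      have h5 := (hasGradientAt_iff_hasFDerivAt.1 (h1 x hx)).neg
      rw [hasGradientAt_iff_hasFDerivAt, map_neg]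
      have e : (-fun y => -u y) = u := by funext y; simp
      rw [e] at h5
      exact h5
    · intro x hx
      rw [norm_neg]; exact h2 x hx
    · intro x y τ hτ hbx hby
      have h5 := h3 x y τ hτ hbx hby
      have h6 : -g x - -g y = -(g x - g y) := by abel
      rw [h6, norm_neg]; exact h5
    · intro x τ M hτ hbx hM
      refine h4 x τ M hτ hbx (fun a ha b hb => ?_)
      have := hM b hb a ha
      linarith

end Vale.Agent.H22.InfHarm
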