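import Mathlib

/-!
# Viscosity solutions of the infinity-Laplace equation

Definitions used by the hand-ins for problem P080.  `E` is a real Hilbert space
(in the hand-ins: `EuclideanSpace ℝ (Fin d)`).
-/

namespace Vale.Agent.H22.InfHarm

variable {E : Type*} [NormedAddCommGroup E] [InnerProductSpace ℝ E] [CompleteSpace E]

/-- The (unnormalised) infinity Laplacian `Δ_∞ φ (z) = ⟨D²φ(z) ∇φ(z), ∇φ(z)⟩`
(in coordinates: the sum over `i, j` of `φ_i φ_j φ_ij`). Here `fderiv ℝ (fderiv ℝ φ) z`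
is the second derivative (Hessian) of `φ` at `z`, seen as a bilinear form. -/
noncomputable def infLaplacian (φ : E → ℝ) (z : E) : ℝ :=
  fderiv ℝ (fderiv ℝ φ) z (gradient φ z) (gradient φ z)

/-- `u` is a viscosity subsolution of `Δ_∞ u = 0` on `Ω`: whenever `φ` is `C²` near a point
`z ∈ Ω` and `u - φ` has a local maximum at `z`, then `Δ_∞ φ (z) ≥ 0`. -/
def IsInfSubharmonicOn (u : E → ℝ) (Ω : Set E) : Prop :=
  ∀ z ∈ Ω, ∀ φ : E → ℝ, ContDiffAt ℝ 2 φ z →
    IsLocalMax (fun y => u y - φ y) z → 0 ≤ infLaplacian φ z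

/-- `u` is a viscosity supersolution of `Δ_∞ u = 0` on `Ω`: whenever `φ` is `C²` near a point
`z ∈ Ω` and `u - φ` has a local minimum at `z`, then `Δ_∞ φ (z) ≤ 0`. -/
def IsInfSuperharmonicOn (u : E → ℝ) (Ω : Set E) : Prop :=
  ∀ z ∈ Ω, ∀ φ : E → ℝ, ContDiffAt ℝ 2 φ z →
    IsLocalMin (fun y => u y - φ y) z → infLaplacian φ z ≤ 0

/-- `u` is infinity-harmonic on `Ω`: continuous on `Ω` and a viscosity solution of
`Δ_∞ u = 0` there (all `C²` test functions are used, including those with vanishing gradient). -/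
def IsInfHarmonicOn (u : E → ℝ) (Ω : Set E) : Prop :=
  ContinuousOn u Ω ∧ IsInfSubharmonicOn u Ω ∧ IsInfSuperharmonicOn u Ω

end Vale.Agent.H22.InfHarm
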