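import Vale.Agent.H22.InfHarm.Convex3

/-!
# P080, dense-points project, row DEN-A

Lipschitz estimate from the oscillation on a sphere (comparison with cones from above and from
below): if `u` is infinity-harmonic on `Ω`, the closed ball of radius `ρ` around `c` lies in
`Ω` and `|u y - u c| ≤ K` on the sphere of radius `ρ` around `c`, then
`|u y - u c| ≤ K / ρ * ‖y - c‖` on the closed ball.
-/

namespace Vale.Agent.H22.InfHarm

open Filter Topology Set Metric
open scoped RealInnerProductSpace

variable {E : Type*} [NormedAddCommGroup E] [InnerProductSpace ℝ E] [CompleteSpace E]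

theorem osc_lip [FiniteDimensional ℝ E] {u : E → ℝ} {Ω : Set E} (hu : IsInfHarmonicOn u Ω)
    {c : E} {ρ K : ℝ} (hρ : 0 < ρ) (hK0 : 0 ≤ K) (hball : closedBall c ρ ⊆ Ω)
    (hK : ∀ y ∈ sphere c ρ, |u y - u c| ≤ K) :
    ∀ y ∈ closedBall c ρ, |u y - u c| ≤ K / ρ * ‖y - c‖ := by
  obtain ⟨hcont, hsub, hsuper⟩ := hu
  have hs : 0 ≤ K / ρ := div_nonneg hK0 hρ.le
  have hKρ : K / ρ * ρ = K := by field_simp
  intro y hy
  have h1 := cone_comparison hcont hsuper hρ hs hball
    (fun z hz => by
      have := (abs_le.1 (hK z hz)).1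
      rw [hKρ]; linarith) y hy
  have hcn : ContinuousOn (fun y => -u y) Ω := hcont.neg
  have h2 := cone_comparison (u := fun y => -u y) hcn hsub.neg hρ hs hball
    (fun z hz => by
      have := (abs_le.1 (hK z hz)).2
      rw [hKρ]; linarith) y hy
  rw [abs_le]
  constructor <;> linarith

end Vale.Agent.H22.InfHarm
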