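import Vale.Agent.H22.InfHarm.Defs

/-!
# P080, dense-points project, row DEN-B

The pointwise Lipschitz constant `lipConst u x` of a function `u` at a point `x`: the infimum
of all `m ≥ 0` with `|u y - u x| ≤ m * ‖y - x‖` for all `y` near `x` (and `0` if there is no
such `m`).  This file proves the two halves of the characterisation
`lipConst u x = limsup_{y → x} |u y - u x| / ‖y - x‖`.

Proof sketches.
* `lipConst_nonneg`: `Real.sInf_nonneg`, every member of the set is `≥ 0`.
* `lipConst_le`: `csInf_le`, the set is bounded below by `0`.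
* `lipConst_upper`: the set is not empty, so there is a member `m < lipConst u x + ε`
  (`exists_lt_of_csInf_lt`); then `m * ‖y - x‖ ≤ (lipConst u x + ε) * ‖y - x‖`.
* `lipConst_lower`: by contradiction.  If not, then for all `y ≠ x` near `x`:
  `|u y - u x| < (lipConst u x - ε) * ‖y - x‖`.  If `lipConst u x - ε ≤ 0` this is impossible
  since the punctured neighbourhood filter is not trivial (`E` is nontrivial, so there are
  such `y`, and the right side is `≤ 0`).  Otherwise `m = lipConst u x - ε` is a member of the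
  set (at `y = x` both sides vanish; use `eventually_nhdsWithin_iff` or
  `Filter.Eventually` on `𝓝[≠] x` together with the point `x`), so `lipConst u x ≤ m` by
  `lipConst_le`, a contradiction.
-/

namespace Vale.Agent.H22.InfHarm

open Filter Topology Set Metric

variable {E : Type*} [NormedAddCommGroup E] [NormedSpace ℝ E]

/-- The pointwise Lipschitz constant of `u` at `x`: the infimum of all `m ≥ 0` such that
`|u y - u x| ≤ m * ‖y - x‖` for all `y` in a neighbourhood of `x`. -/
noncomputable def lipConst (u : E → ℝ) (x : E) : ℝ :=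
  sInf {m : ℝ | 0 ≤ m ∧ ∀ᶠ y in 𝓝 x, |u y - u x| ≤ m * ‖y - x‖}

theorem lipConst_nonneg (u : E → ℝ) (x : E) : 0 ≤ lipConst u x := by
  apply Real.sInf_nonneg
  intro m hm
  exact hm.1

theorem lipConst_le {u : E → ℝ} {x : E} {m : ℝ} (hm : 0 ≤ m)
    (h : ∀ᶠ y in 𝓝 x, |u y - u x| ≤ m * ‖y - x‖) : lipConst u x ≤ m := by
  apply csInf_le
  · exact ⟨0, fun m' hm' => hm'.1⟩
  · exact ⟨hm, h⟩

theorem lipConst_upper {u : E → ℝ} {x : E} {m : ℝ} (hm : 0 ≤ m)
    (h : ∀ᶠ y in 𝓝 x, |u y - u x| ≤ m * ‖y - x‖) :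
    ∀ ε > 0, ∀ᶠ y in 𝓝 x, |u y - u x| ≤ (lipConst u x + ε) * ‖y - x‖ := by
  intro ε hε
  have hne : {m : ℝ | 0 ≤ m ∧ ∀ᶠ y in 𝓝 x, |u y - u x| ≤ m * ‖y - x‖}.Nonempty := ⟨m, hm, h⟩
  have hlt : sInf {m : ℝ | 0 ≤ m ∧ ∀ᶠ y in 𝓝 x, |u y - u x| ≤ m * ‖y - x‖}
      < lipConst u x + ε := by
    have h1 : lipConst u x < lipConst u x + ε := by linarith
    exact h1
  obtain ⟨m', hm', hm'lt⟩ := exists_lt_of_csInf_lt hne hlt
  filter_upwards [hm'.2] with y hy
  exact hy.trans (mul_le_mul_of_nonneg_right hm'lt.le (norm_nonneg _))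

theorem lipConst_lower [Nontrivial E] (u : E → ℝ) (x : E) :
    ∀ ε > 0, ∃ᶠ y in 𝓝[≠] x, (lipConst u x - ε) * ‖y - x‖ ≤ |u y - u x| := by
  intro ε hε
  by_contra hcon
  rw [Filter.not_frequently] at hcon
  have hlt : ∀ᶠ y in 𝓝[≠] x, |u y - u x| < (lipConst u x - ε) * ‖y - x‖ := by
    filter_upwards [hcon] with y hy
    exact not_le.mp hy
  have hNe : (𝓝[≠] x).NeBot := Module.punctured_nhds_neBot ℝ E x
  by_cases hpos : lipConst u x - ε ≤ 0
  · have hfalse : ∀ᶠ y in 𝓝[≠] x, False := by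
      filter_upwards [hlt] with y hy
      have h1 : (lipConst u x - ε) * ‖y - x‖ ≤ 0 :=
        mul_nonpos_of_nonpos_of_nonneg hpos (norm_nonneg _)
      have h2 : 0 ≤ |u y - u x| := abs_nonneg _
      linarith
    exact (Filter.eventually_false_iff_eq_bot.mp hfalse ▸ hNe).ne rfl
  · have hm : 0 ≤ lipConst u x - ε := (not_le.mp hpos).le
    have hev : ∀ᶠ y in 𝓝 x, |u y - u x| ≤ (lipConst u x - ε) * ‖y - x‖ := by
      have h1 := eventually_nhdsWithin_iff.mp hlt
      filter_upwards [h1] with y hy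
      by_cases hyx : y = x
      · subst hyx
        simp
      · exact (hy hyx).le
    have h2 := lipConst_le hm hev
    linarith

end Vale.Agent.H22.InfHarm
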