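import Vale.Agent.H22.InfHarm.DenA
import Vale.Agent.H22.InfHarm.DenB

/-!
# P080, dense-points project, row DEN-C

The pointwise Lipschitz constant of an infinity-harmonic function is locally bounded and upper
semicontinuous.

Proof sketches.
* `lipConst_le_of_osc`: by `osc_lip` (DenA), `|u y - u z| ≤ K / ρ * ‖y - z‖` on
  `closedBall z ρ`, a neighbourhood of `z`; conclude by `lipConst_le` (DenB).
* `lipConst_usc`: let `c ∈ Ω`, `l = lipConst u c` and `ε > 0`; we need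
  `∀ᶠ z in 𝓝 c, lipConst u z < l + ε`.
  Take `ρ0 > 0` with `closedBall c (2 * ρ0) ⊆ Ω` and a bound `|u| ≤ K0` on this compact ball
  (`IsCompact.exists_bound_of_continuousOn`).  By `osc_lip` at the centre `c`, radius `ρ0`
  (`K = 2 * K0`): `|u z - u c| ≤ Λ * ‖z - c‖` on `closedBall c ρ0`, where `Λ = 2 * K0 / ρ0`.
  So `lipConst_upper` (DenB) applies at `c`: there is `δ0 > 0` with
  `|u y - u c| ≤ (l + ε / 3) * ‖y - c‖` on `ball c δ0`.  Let `R = min ρ0 δ0 / 2` and let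
  `0 < η < R` be so small that `(l + ε / 3 + Λ) * η ≤ ε / 3 * R`.  For `z ∈ ball c η`:
  `closedBall z R ⊆ closedBall c (2 * R) ⊆ Ω`, and every `y ∈ sphere z R` has
  `‖y - c‖ ≤ R + η < δ0`, so
  `|u y - u z| ≤ |u y - u c| + |u z - u c| ≤ (l + ε / 3) * (R + η) + Λ * η =: K`.
  By `lipConst_le_of_osc` at the centre `z`, radius `R`:
  `lipConst u z ≤ K / R ≤ l + 2 * ε / 3 < l + ε`.
-/

namespace Vale.Agent.H22.InfHarm

open Filter Topology Set Metric
open scoped RealInnerProductSpace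

variable {E : Type*} [NormedAddCommGroup E] [InnerProductSpace ℝ E] [CompleteSpace E]

theorem lipConst_le_of_osc [FiniteDimensional ℝ E] {u : E → ℝ} {Ω : Set E}
    (hu : IsInfHarmonicOn u Ω) {z : E} {ρ K : ℝ} (hρ : 0 < ρ) (hK0 : 0 ≤ K)
    (hball : closedBall z ρ ⊆ Ω) (hK : ∀ y ∈ sphere z ρ, |u y - u z| ≤ K) :
    lipConst u z ≤ K / ρ := by
  have h := osc_lip hu hρ hK0 hball hK
  apply lipConst_le (div_nonneg hK0 hρ.le)
  filter_upwards [closedBall_mem_nhds z hρ] with y hy using h y hy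

theorem lipConst_usc [FiniteDimensional ℝ E] {u : E → ℝ} {Ω : Set E} (hΩ : IsOpen Ω)
    (hu : IsInfHarmonicOn u Ω) {c : E} (hc : c ∈ Ω) :
    ∀ ε > 0, ∀ᶠ z in 𝓝 c, lipConst u z < lipConst u c + ε := by
  intro ε hε
  have hcont : ContinuousOn u Ω := hu.1
  obtain ⟨r, hr, hrΩ⟩ := Metric.isOpen_iff.1 hΩ c hc
  have hρ0 : 0 < r / 4 := by positivity
  have hb2 : closedBall c (2 * (r / 4)) ⊆ Ω :=
    (closedBall_subset_ball (by linarith)).trans hrΩ
  obtain ⟨C, hC⟩ :=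
    (isCompact_closedBall c (2 * (r / 4))).exists_bound_of_continuousOn (hcont.mono hb2)
  have hcc : c ∈ closedBall c (2 * (r / 4)) := mem_closedBall_self (by linarith)
  have hC0 : 0 ≤ C := le_trans (norm_nonneg _) (hC c hcc)
  have hb1 : closedBall c (r / 4) ⊆ Ω :=
    (closedBall_subset_closedBall (by linarith)).trans hb2
  have hΛ := osc_lip hu hρ0 (K := 2 * C) (by linarith) hb1 (fun y hy => by
    have h1 := hC y ((closedBall_subset_closedBall (by linarith : r / 4 ≤ 2 * (r / 4)))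
      (sphere_subset_closedBall hy))
    have h2 := hC c hcc
    rw [Real.norm_eq_abs] at h1 h2
    rw [abs_le] at h1 h2 ⊢
    constructor <;> linarith)
  obtain ⟨Λ, hΛdef⟩ : ∃ Λ : ℝ, Λ = 2 * C / (r / 4) := ⟨_, rfl⟩
  rw [← hΛdef] at hΛ
  have hΛ0 : 0 ≤ Λ := by rw [hΛdef]; positivity
  have hl0 := lipConst_nonneg u c
  have hev : ∀ᶠ y in 𝓝 c, |u y - u c| ≤ Λ * ‖y - c‖ := by
    filter_upwards [closedBall_mem_nhds c hρ0] with y hy using hΛ y hy
  obtain ⟨δ0, hδ0, hδ⟩ :=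
    Metric.eventually_nhds_iff.1 (lipConst_upper hΛ0 hev (ε / 3) (by positivity))
  obtain ⟨R, hRdef⟩ : ∃ R : ℝ, R = min (r / 4) δ0 / 2 := ⟨_, rfl⟩
  have hR : 0 < R := by rw [hRdef]; exact half_pos (lt_min hρ0 hδ0)
  have hR1 : 2 * R ≤ r / 4 := by rw [hRdef]; linarith [min_le_left (r / 4) δ0]
  have hR2 : 2 * R ≤ δ0 := by rw [hRdef]; linarith [min_le_right (r / 4) δ0]
  obtain ⟨S, hSdef⟩ : ∃ S : ℝ, S = lipConst u c + ε / 3 + Λ := ⟨_, rfl⟩
  have hS : 0 < S := by rw [hSdef]; linarith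
  obtain ⟨η, hη0, hηR, hηS⟩ : ∃ η : ℝ, 0 < η ∧ η < R ∧ S * η ≤ ε / 3 * R := by
    refine ⟨min (R / 2) (ε / 3 * R / S), lt_min (by positivity) (by positivity), ?_, ?_⟩
    · exact lt_of_le_of_lt (min_le_left _ _) (by linarith)
    · calc S * min (R / 2) (ε / 3 * R / S) ≤ S * (ε / 3 * R / S) :=
            mul_le_mul_of_nonneg_left (min_le_right _ _) hS.le
        _ = ε / 3 * R := by field_simp
  filter_upwards [ball_mem_nhds c hη0] with z hz
  have hzc : ‖z - c‖ < η := by simpa [dist_eq_norm] using hz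
  have hzb : z ∈ closedBall c (r / 4) := by
    rw [mem_closedBall, dist_eq_norm]; linarith
  have hzΛ := hΛ z hzb
  have hballz : closedBall z R ⊆ Ω := by
    refine Subset.trans ?_ hb1
    intro y hy
    rw [mem_closedBall, dist_eq_norm] at hy ⊢
    calc ‖y - c‖ = ‖(y - z) + (z - c)‖ := by rw [sub_add_sub_cancel]
      _ ≤ ‖y - z‖ + ‖z - c‖ := norm_add_le _ _
      _ ≤ r / 4 := by linarith
  have hKbound : ∀ y ∈ sphere z R,
      |u y - u z| ≤ (lipConst u c + ε / 3) * (R + η) + Λ * η := by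
    intro y hy
    rw [mem_sphere, dist_eq_norm] at hy
    have hyc : ‖y - c‖ ≤ R + η := by
      calc ‖y - c‖ = ‖(y - z) + (z - c)‖ := by rw [sub_add_sub_cancel]
        _ ≤ ‖y - z‖ + ‖z - c‖ := norm_add_le _ _
        _ ≤ R + η := by linarith
    have hyd : dist y c < δ0 := by rw [dist_eq_norm]; linarith
    have h1 := hδ hyd
    have h2 : (lipConst u c + ε / 3) * ‖y - c‖ ≤ (lipConst u c + ε / 3) * (R + η) :=
      mul_le_mul_of_nonneg_left hyc (by linarith)
    have h3 : Λ * ‖z - c‖ ≤ Λ * η := mul_le_mul_of_nonneg_left hzc.le hΛ0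
    have h4 := abs_sub_le (u y) (u c) (u z)
    rw [abs_sub_comm (u c) (u z)] at h4
    linarith
  have hK0 : 0 ≤ (lipConst u c + ε / 3) * (R + η) + Λ * η :=
    add_nonneg (mul_nonneg (by linarith) (by linarith)) (mul_nonneg hΛ0 hη0.le)
  have hle := lipConst_le_of_osc hu hR hK0 hballz hKbound
  have hfin : ((lipConst u c + ε / 3) * (R + η) + Λ * η) / R ≤ lipConst u c + 2 * ε / 3 := by
    rw [div_le_iff₀ hR]
    have e1 : (lipConst u c + ε / 3) * (R + η) + Λ * η
        = (lipConst u c + ε / 3) * R + S * η := by rw [hSdef]; ring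
    have e2 : (lipConst u c + 2 * ε / 3) * R = (lipConst u c + ε / 3) * R + ε / 3 * R := by
      ring
    rw [e1, e2]
    linarith
  linarith

end Vale.Agent.H22.InfHarm
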