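import Mathlib

/-!
# P080, dense-points project, row DEN-D

A bounded upper semicontinuous function on a closed ball is touched from above by a cone of
any sufficiently large opening at some point of the concentric ball of half the radius.

Proof sketch.  If `H = 0` then `Λ ≤ 0`, so `f = 0` on the ball and `x = z0` works.  Let
`H > 0`.  The function `z ↦ f z - H * ‖z - z0‖` is upper semicontinuous on the compact set
`closedBall z0 r`, so it has a maximum point `x` there
(`UpperSemicontinuousOn.exists_isMaxOn`; the difference of an upper semicontinuous and a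
continuous function is upper semicontinuous, directly from the definition
`∀ y > f x, ∀ᶠ z in 𝓝[s] x, f z < y`).  Comparing with `z0`:
`H * ‖x - z0‖ ≤ f x - f z0 ≤ Λ ≤ H * (r / 2)`, so `‖x - z0‖ ≤ r / 2` and
`closedBall x (r / 2) ⊆ closedBall z0 r`.  For `z` in it,
`f z ≤ f x + H * (‖z - z0‖ - ‖x - z0‖) ≤ f x + H * ‖z - x‖`.
-/

namespace Vale.Agent.H22.InfHarm

open Filter Topology Set Metric

variable {E : Type*} [NormedAddCommGroup E] [NormedSpace ℝ E]

theorem exists_cone_contact [ProperSpace E] {f : E → ℝ} {z0 : E} {r Λ H : ℝ} (hr : 0 < r)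
    (husc : ∀ c ∈ closedBall z0 r, ∀ ε > 0, ∀ᶠ z in 𝓝 c, f z < f c + ε)
    (h0 : ∀ z ∈ closedBall z0 r, 0 ≤ f z) (hΛ : ∀ z ∈ closedBall z0 r, f z ≤ Λ)
    (hH0 : 0 ≤ H) (hH : Λ ≤ H * (r / 2)) :
    ∃ x ∈ closedBall z0 (r / 2), ∀ z ∈ closedBall x (r / 2), f z ≤ f x + H * ‖z - x‖ := by
  have hz0 : z0 ∈ closedBall z0 r := mem_closedBall_self hr.le
  have hsub : closedBall z0 (r / 2) ⊆ closedBall z0 r :=
    closedBall_subset_closedBall (by linarith)
  rcases hH0.eq_or_lt with hH0' | hHpos
  · subst hH0'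
    have hf0 : ∀ z ∈ closedBall z0 r, f z = 0 := fun z hz =>
      le_antisymm (by have := hΛ z hz; linarith) (h0 z hz)
    refine ⟨z0, mem_closedBall_self (by linarith), fun z hz => ?_⟩
    rw [hf0 z (hsub hz), hf0 z0 hz0]
    simp
  · have husc_g : UpperSemicontinuousOn (fun z => f z - H * ‖z - z0‖) (closedBall z0 r) := by
      rw [upperSemicontinuousOn_iff]
      intro c hc
      rw [upperSemicontinuousWithinAt_iff]
      intro y hy
      have hy' : f c - H * ‖c - z0‖ < y := hy
      have hε : 0 < (y - (f c - H * ‖c - z0‖)) / 2 := by linarith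
      have h1 := husc c hc _ hε
      have hcont : Continuous fun z : E => H * ‖z - z0‖ := by fun_prop
      have hlt : H * ‖c - z0‖ - (y - (f c - H * ‖c - z0‖)) / 2 < H * ‖c - z0‖ := by linarith
      have h2 : ∀ᶠ z in 𝓝 c, H * ‖c - z0‖ - (y - (f c - H * ‖c - z0‖)) / 2 < H * ‖z - z0‖ :=
        (hcont.tendsto c).eventually (lt_mem_nhds hlt)
      apply Filter.Eventually.filter_mono nhdsWithin_le_nhds
      filter_upwards [h1, h2] with z hz1 hz2
      linarith
    obtain ⟨x, hx, hmax⟩ := husc_g.exists_isMaxOn ⟨z0, hz0⟩ (isCompact_closedBall z0 r)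
    have hmax' := isMaxOn_iff.mp hmax
    have hxz0 : f z0 - H * ‖z0 - z0‖ ≤ f x - H * ‖x - z0‖ := hmax' z0 hz0
    rw [sub_self, norm_zero, mul_zero, sub_zero] at hxz0
    have hxn : ‖x - z0‖ ≤ r / 2 := by
      have h3 : H * ‖x - z0‖ ≤ H * (r / 2) := by
        have := h0 z0 hz0
        have := hΛ x hx
        linarith
      exact le_of_mul_le_mul_left h3 hHpos
    refine ⟨x, by rw [mem_closedBall, dist_eq_norm]; exact hxn, fun z hz => ?_⟩
    rw [mem_closedBall, dist_eq_norm] at hz
    have htri : ‖z - z0‖ ≤ ‖z - x‖ + ‖x - z0‖ := by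
      have e : z - z0 = (z - x) + (x - z0) := by abel
      rw [e]
      exact norm_add_le _ _
    have hzball : z ∈ closedBall z0 r := by
      rw [mem_closedBall, dist_eq_norm]
      linarith
    have hzx : f z - H * ‖z - z0‖ ≤ f x - H * ‖x - z0‖ := hmax' z hzball
    have hmul : H * ‖z - z0‖ ≤ H * (‖z - x‖ + ‖x - z0‖) := mul_le_mul_of_nonneg_left htri hH0
    linarith

end Vale.Agent.H22.InfHarm
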