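import Vale.Agent.H22.InfHarm.LipD

/-!
# P080, dense-points project, row DEN-E

Scale-invariant form of `expansion_of_two_sided` (LipD) for the exponent `β = 1`: two-sided
bounds by affine functions with errors `A * ‖w‖ ^ 2 / R + B * R ^ 2` at all scales `R ≤ R0`
(no restriction on `R0`) give a first-order expansion with remainder
`100 * (A + B * R0) * R0 * (‖w‖ / R0) ^ (4 / 3)` on the ball of radius `R0`.

Proof sketch.  Apply `expansion_of_two_sided` with `β = 1`, `R0 = 1`, the point `0`, the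
constants `A` and `B * R0`, and the function `v y = u (x + R0 • y) / R0`.  Its hypothesis at
the scale `R' ≤ 1`: take `a, b` from `h` at the scale `R = R0 * R'`; for `‖w'‖ ≤ R'` put
`w = R0 • w'`, so `‖w‖ = R0 * ‖w'‖ ≤ R`, `⟪a, w⟫ / R0 = ⟪a, w'⟫`,
`A * ‖w‖ ^ 2 / R / R0 = A * ‖w'‖ ^ 2 / R'` and `B * R ^ 2 / R0 = B * R0 * R' ^ 2`
(`R' ^ (1 + (1 : ℝ)) = R' ^ 2` by `Real.rpow_two` or `Real.rpow_natCast`).  The conclusion
gives `p` with `|v w' - v 0 - ⟪p, w'⟫| ≤ 100 / 1 * (A + B * R0) * ‖w'‖ ^ (1 + 1 / (2 + 1))` for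
`‖w'‖ ≤ 1 ^ ((2 + 1) / 2) = 1`.  For `‖w‖ ≤ R0` put `w' = R0⁻¹ • w` and multiply by `R0`.
-/

namespace Vale.Agent.H22.InfHarm

open Filter Topology Set Metric
open scoped RealInnerProductSpace

variable {E : Type*} [NormedAddCommGroup E] [InnerProductSpace ℝ E] [CompleteSpace E]

theorem expansion_scaled {u : E → ℝ} {x : E} {A B R0 : ℝ} (hA : 0 ≤ A) (hB : 0 ≤ B)
    (hR0 : 0 < R0)
    (h : ∀ R, 0 < R → R ≤ R0 → ∃ a b : E, ∀ w : E, ‖w‖ ≤ R →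
      u (x + w) - u x ≤ ⟪a, w⟫ + A * ‖w‖ ^ 2 / R + B * R ^ 2 ∧
      ⟪b, w⟫ - A * ‖w‖ ^ 2 / R - B * R ^ 2 ≤ u (x + w) - u x) :
    ∃ p : E, ∀ w : E, ‖w‖ ≤ R0 →
      |u (x + w) - u x - ⟪p, w⟫| ≤ 100 * (A + B * R0) * R0 * (‖w‖ / R0) ^ (4 / 3 : ℝ) := by
  have hyp : ∀ R, 0 < R → R ≤ 1 → ∃ a b : E, ∀ w : E, ‖w‖ ≤ R →
      (fun y : E => u (x + R0 • y) / R0) (0 + w) - (fun y : E => u (x + R0 • y) / R0) 0
        ≤ ⟪a, w⟫ + A * ‖w‖ ^ 2 / R + (B * R0) * R ^ (1 + (1 : ℝ)) ∧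
      ⟪b, w⟫ - A * ‖w‖ ^ 2 / R - (B * R0) * R ^ (1 + (1 : ℝ))
        ≤ (fun y : E => u (x + R0 • y) / R0) (0 + w) - (fun y : E => u (x + R0 • y) / R0) 0 := by
    intro R' hR' hR'1
    obtain ⟨a, b, hab⟩ := h (R0 * R') (by positivity) (by nlinarith)
    refine ⟨a, b, fun w' hw' => ?_⟩
    have hn : ‖R0 • w'‖ = R0 * ‖w'‖ := by rw [norm_smul, Real.norm_of_nonneg hR0.le]
    have h0 := hab (R0 • w') (by rw [hn]; exact mul_le_mul_of_nonneg_left hw' hR0.le)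
    rw [hn, real_inner_smul_right, real_inner_smul_right] at h0
    simp only [zero_add, smul_zero, add_zero]
    have hpow : R' ^ (1 + (1 : ℝ)) = R' ^ 2 := by
      rw [show (1 + (1 : ℝ)) = ((2 : ℕ) : ℝ) by norm_num, Real.rpow_natCast]
    rw [hpow]
    have e1 : A * (R0 * ‖w'‖) ^ 2 / (R0 * R') = R0 * (A * ‖w'‖ ^ 2 / R') := by
      field_simp
    have e2 : B * (R0 * R') ^ 2 = R0 * (B * R0 * R' ^ 2) := by ring
    rw [e1, e2] at h0
    obtain ⟨t1, t2⟩ := h0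
    constructor
    · rw [← sub_div, div_le_iff₀ hR0]
      linarith
    · rw [← sub_div, le_div_iff₀ hR0]
      linarith
  obtain ⟨p, hp⟩ := expansion_of_two_sided (u := fun y : E => u (x + R0 • y) / R0) (x := (0 : E))
    (A := A) (B := B * R0) (β := 1) (R0 := 1) hA (mul_nonneg hB hR0.le) one_pos le_rfl one_pos
    le_rfl hyp
  refine ⟨p, fun w hw => ?_⟩
  have hw' : ‖R0⁻¹ • w‖ = ‖w‖ / R0 := by
    rw [norm_smul, Real.norm_of_nonneg (inv_nonneg.mpr hR0.le), inv_mul_eq_div]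
  have h1 := hp (R0⁻¹ • w) (by
    rw [Real.one_rpow, hw']
    exact (div_le_one hR0).mpr hw)
  simp only [zero_add, smul_zero, add_zero] at h1
  rw [smul_smul, mul_inv_cancel₀ hR0.ne', one_smul, hw', real_inner_smul_right] at h1
  have h2 : (1 + 1 / (2 + 1) : ℝ) = 4 / 3 := by norm_num
  rw [h2] at h1
  have h3 : u (x + w) - u x - ⟪p, w⟫ = R0 * (u (x + w) / R0 - u x / R0 - R0⁻¹ * ⟪p, w⟫) := by
    field_simp
  rw [h3, abs_mul, abs_of_pos hR0]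
  calc R0 * |u (x + w) / R0 - u x / R0 - R0⁻¹ * ⟪p, w⟫|
      ≤ R0 * (100 / 1 * (A + B * R0) * (‖w‖ / R0) ^ (4 / 3 : ℝ)) :=
        mul_le_mul_of_nonneg_left h1 hR0.le
    _ = 100 * (A + B * R0) * R0 * (‖w‖ / R0) ^ (4 / 3 : ℝ) := by ring

end Vale.Agent.H22.InfHarm
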