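import Vale.Agent.H22.InfHarm.LipB

/-!
# P080, Lipschitz-constant project, row LIP-C

Two-sided paraboloid bounds at scale `R` with the defect `M - L x` times `R`.

Proof sketch.  If `L x = 0` take `a = b = 0`: `|u (x + w) - u x| ≤ M ‖w‖ ≤ M R`.  If `L x > 0`
take `yp, ym` on `sphere x R` from `exists_ascent_descent` and `a = (M / R) • (x - ym)`,
`b = (M / R) • (yp - x)`.  Then `u (x + w) ≤ u ym + M ‖(x - ym) + w‖` and
`u (x + w) ≥ u yp - M ‖(x - yp) + w‖` by `hLip`, `u ym ≤ u x - R * L x`,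
`u yp ≥ u x + R * L x`, and `norm_add_le_quadratic` (in `Convex.lean`) gives
`‖(x - ym) + w‖ ≤ R + ⟪x - ym, w⟫ / R + ‖w‖ ^ 2 / (2 R)`, the same for `yp`.
-/

namespace Vale.Agent.H22.InfHarm

open Filter Topology Set Metric
open scoped RealInnerProductSpace

variable {E : Type*} [NormedAddCommGroup E] [InnerProductSpace ℝ E] [CompleteSpace E]

theorem two_sided_bound [FiniteDimensional ℝ E] {u : E → ℝ} {Ω : Set E}
    (hu : IsInfHarmonicOn u Ω) {L : E → ℝ} {x : E} {R M : ℝ} (hR : 0 < R)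
    (hball : closedBall x (2 * R) ⊆ Ω)
    (hL2 : ∀ ε > 0, ∃ᶠ y in 𝓝[≠] x, (L x - ε) * ‖y - x‖ ≤ |u y - u x|)
    (hL0 : 0 ≤ L x) (hM : L x ≤ M)
    (hLip : ∀ z ∈ closedBall x (2 * R), ∀ z' ∈ closedBall x (2 * R),
      |u z - u z'| ≤ M * ‖z - z'‖) :
    ∃ a b : E, ∀ w : E, ‖w‖ ≤ R →
      u (x + w) - u x ≤ ⟪a, w⟫ + M * ‖w‖ ^ 2 / (2 * R) + (M - L x) * R ∧
      ⟪b, w⟫ - M * ‖w‖ ^ 2 / (2 * R) - (M - L x) * R ≤ u (x + w) - u x := by
  have hM0 : 0 ≤ M := hL0.trans hM
  have hxw : ∀ w : E, ‖w‖ ≤ R → x + w ∈ closedBall x (2 * R) := by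
    intro w hw
    rw [mem_closedBall, dist_eq_norm, add_sub_cancel_left]
    linarith
  rcases hL0.eq_or_lt with h0 | hpos
  · refine ⟨0, 0, fun w hw => ?_⟩
    have hx : x ∈ closedBall x (2 * R) := mem_closedBall_self (by linarith)
    have h1 := hLip (x + w) (hxw w hw) x hx
    rw [add_sub_cancel_left] at h1
    have h2 : M * ‖w‖ ≤ M * R := mul_le_mul_of_nonneg_left hw hM0
    have h3 : 0 ≤ M * ‖w‖ ^ 2 / (2 * R) := by positivity
    have h4 := abs_le.1 h1
    rw [inner_zero_left, ← h0]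
    constructor
    · linarith [h4.2]
    · linarith [h4.1]
  · obtain ⟨⟨yp, hyp, hup⟩, ⟨ym, hym, hum⟩⟩ :=
      exists_ascent_descent hu hR hball hL2 hpos hLip
    have hdp : dist yp x = R := mem_sphere.1 hyp
    have hdm : dist ym x = R := mem_sphere.1 hym
    have hnp : ‖x - yp‖ = R := by rw [← dist_eq_norm, dist_comm]; exact hdp
    have hnm : ‖x - ym‖ = R := by rw [← dist_eq_norm, dist_comm]; exact hdm
    have hypb : yp ∈ closedBall x (2 * R) := by
      rw [mem_closedBall, hdp]; linarith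
    have hymb : ym ∈ closedBall x (2 * R) := by
      rw [mem_closedBall, hdm]; linarith
    have hne_m : x - ym ≠ 0 := by
      intro h
      rw [h, norm_zero] at hnm
      linarith
    have hne_p : x - yp ≠ 0 := by
      intro h
      rw [h, norm_zero] at hnp
      linarith
    refine ⟨(M / R) • (x - ym), (M / R) • (yp - x), fun w hw => ?_⟩
    have q_m := norm_add_le_quadratic (a := x - ym) (w := w) hne_m
    have q_p := norm_add_le_quadratic (a := x - yp) (w := w) hne_p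
    rw [hnm] at q_m
    rw [hnp] at q_p
    have l_m := abs_le.1 (hLip (x + w) (hxw w hw) ym hymb)
    have l_p := abs_le.1 (hLip (x + w) (hxw w hw) yp hypb)
    have e_m : x + w - ym = (x - ym) + w := by abel
    have e_p : x + w - yp = (x - yp) + w := by abel
    rw [e_m] at l_m
    rw [e_p] at l_p
    have k_m : M * ‖x - ym + w‖ ≤ M * (R + ⟪x - ym, w⟫ / R + ‖w‖ ^ 2 / (2 * R)) :=
      mul_le_mul_of_nonneg_left q_m hM0
    have k_p : M * ‖x - yp + w‖ ≤ M * (R + ⟪x - yp, w⟫ / R + ‖w‖ ^ 2 / (2 * R)) :=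
      mul_le_mul_of_nonneg_left q_p hM0
    have i_a : ⟪(M / R) • (x - ym), w⟫ = M * (⟪x - ym, w⟫ / R) := by
      rw [real_inner_smul_left]; ring
    have i_b : ⟪(M / R) • (yp - x), w⟫ = -(M * (⟪x - yp, w⟫ / R)) := by
      rw [real_inner_smul_left, ← neg_sub x yp, inner_neg_left]; ring
    have t : M * ‖w‖ ^ 2 / (2 * R) = M * (‖w‖ ^ 2 / (2 * R)) := by ring
    rw [i_a, i_b, t]
    constructor
    · linarith [l_m.2]
    · linarith [l_p.1]

end Vale.Agent.H22.InfHarm
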