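import Mathlib

/-!
# P080, Lipschitz-constant project, row LIP-E

Uniform first-order expansions with remainder `C ‖w‖ ^ (1 + γ)` on a set give
differentiability and a Hölder bound of exponent `γ` for the gradient field.

Proof sketch.  Differentiability: the remainder is `o(‖w‖)`.  Hölder bound: for `x ≠ y` in `S`
with `δ = ‖x - y‖ ≤ ρ / 2`, `v = g x - g y ≠ 0`, `w = (δ / ‖v‖) • v`: use the expansion at `x`
with `w`, at `y` with `x - y + w` (norm at most `2 δ`) and at `y` with `x - y`;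
`⟪v, w⟫ = δ ‖v‖` equals a combination of the three remainders, at most
`(1 + 2 ^ (1 + γ) + 1) C δ ^ (1 + γ) ≤ 6 C δ ^ (1 + γ)`.
-/

namespace Vale.Agent.H22.InfHarm

open Filter Topology Set Metric
open scoped RealInnerProductSpace

variable {E : Type*} [NormedAddCommGroup E] [InnerProductSpace ℝ E] [CompleteSpace E]

theorem holder_of_expansion {u : E → ℝ} {S : Set E} {ρ C γ : ℝ} (hρ : 0 < ρ) (hC : 0 ≤ C)
    (hγ : 0 < γ) (hγ1 : γ ≤ 1) (g : E → E)
    (h : ∀ x ∈ S, ∀ w : E, ‖w‖ ≤ ρ →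
      |u (x + w) - u x - ⟪g x, w⟫| ≤ C * ‖w‖ ^ (1 + γ)) :
    (∀ x ∈ S, HasGradientAt u (g x) x) ∧
    ∀ x ∈ S, ∀ y ∈ S, ‖x - y‖ ≤ ρ / 2 → ‖g x - g y‖ ≤ 6 * C * ‖x - y‖ ^ γ := by
  constructor
  · intro x hx
    rw [hasGradientAt_iff_isLittleO_nhds_zero, Asymptotics.isLittleO_iff]
    intro c hc
    have hC1 : 0 < C + 1 := by linarith
    have hq : 0 < c / (C + 1) := div_pos hc hC1
    have hd0 : 0 < (c / (C + 1)) ^ (1 / γ) := Real.rpow_pos_of_pos hq _
    have hball : Metric.ball (0 : E) (min ρ ((c / (C + 1)) ^ (1 / γ))) ∈ 𝓝 (0 : E) :=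
      Metric.ball_mem_nhds _ (lt_min hρ hd0)
    filter_upwards [hball] with w hw
    rw [Metric.mem_ball, dist_zero_right] at hw
    have hw1 : ‖w‖ ≤ ρ := (hw.trans_le (min_le_left _ _)).le
    have hw2 : ‖w‖ ≤ (c / (C + 1)) ^ (1 / γ) := (hw.trans_le (min_le_right _ _)).le
    have h1 := h x hx w hw1
    rw [Real.norm_eq_abs]
    refine h1.trans ?_
    by_cases hw0 : ‖w‖ = 0
    · rw [hw0, Real.zero_rpow (by linarith)]
      simp
    · have hwpos : 0 < ‖w‖ := lt_of_le_of_ne (norm_nonneg _) (Ne.symm hw0)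
      have e : ‖w‖ ^ (1 + γ) = ‖w‖ * ‖w‖ ^ γ := by
        rw [Real.rpow_add hwpos, Real.rpow_one]
      have hpow : ‖w‖ ^ γ ≤ c / (C + 1) := by
        calc ‖w‖ ^ γ ≤ ((c / (C + 1)) ^ (1 / γ)) ^ γ :=
              Real.rpow_le_rpow (norm_nonneg _) hw2 hγ.le
          _ = c / (C + 1) := by
            rw [← Real.rpow_mul hq.le, one_div, inv_mul_cancel₀ hγ.ne', Real.rpow_one]
      have hCc : C * (c / (C + 1)) ≤ c := by
        rw [mul_div_assoc', div_le_iff₀ hC1]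
        nlinarith
      rw [e]
      calc C * (‖w‖ * ‖w‖ ^ γ) = ‖w‖ * (C * ‖w‖ ^ γ) := by ring
        _ ≤ ‖w‖ * (C * (c / (C + 1))) := by gcongr
        _ ≤ ‖w‖ * c := by gcongr
        _ = c * ‖w‖ := by ring
  · intro x hx y hy hxy
    by_cases hv0 : g x - g y = 0
    · rw [hv0, norm_zero]
      have hnn : 0 ≤ ‖x - y‖ ^ γ := Real.rpow_nonneg (norm_nonneg _) _
      positivity
    have hvpos : 0 < ‖g x - g y‖ := norm_pos_iff.2 hv0
    have hδpos : 0 < ‖x - y‖ := by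
      rw [norm_pos_iff, sub_ne_zero]
      intro hxy'
      apply hv0
      rw [hxy', sub_self]
    obtain ⟨δ, hδ⟩ : ∃ δ : ℝ, δ = ‖x - y‖ := ⟨_, rfl⟩
    obtain ⟨v, hv⟩ : ∃ v : E, v = g x - g y := ⟨_, rfl⟩
    rw [← hδ] at hδpos hxy
    rw [← hv] at hvpos
    rw [← hδ, ← hv]
    obtain ⟨w, hw⟩ : ∃ w : E, w = (δ / ‖v‖) • v := ⟨_, rfl⟩
    have hwn : ‖w‖ = δ := by
      rw [hw, norm_smul, Real.norm_eq_abs, abs_of_pos (div_pos hδpos hvpos)]
      field_simp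
    have h1 := h x hx w (by rw [hwn]; linarith)
    have hw2n : ‖x - y + w‖ ≤ 2 * δ := by
      calc ‖x - y + w‖ ≤ ‖x - y‖ + ‖w‖ := norm_add_le _ _
        _ = 2 * δ := by rw [hwn, ← hδ]; ring
    have h2 := h y hy (x - y + w) (by linarith)
    have h3 := h y hy (x - y) (by rw [← hδ]; linarith)
    have e2 : y + (x - y + w) = x + w := by abel
    have e3 : y + (x - y) = x := by abel
    rw [e2] at h2
    rw [e3, ← hδ] at h3
    rw [hwn] at h1
    have hδγ : δ ^ (1 + γ) = δ * δ ^ γ := by rw [Real.rpow_add hδpos, Real.rpow_one]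
    have hnn : 0 ≤ δ ^ (1 + γ) := Real.rpow_nonneg hδpos.le _
    have h2' : |u (x + w) - u y - ⟪g y, x - y + w⟫| ≤ 4 * C * δ ^ (1 + γ) := by
      refine h2.trans ?_
      have h24 : (2 : ℝ) ^ (1 + γ) ≤ 4 := by
        calc (2 : ℝ) ^ (1 + γ) ≤ (2 : ℝ) ^ (2 : ℝ) :=
              Real.rpow_le_rpow_of_exponent_le (by norm_num) (by linarith)
          _ = 4 := by rw [Real.rpow_two]; norm_num
      have hle : ‖x - y + w‖ ^ (1 + γ) ≤ 4 * δ ^ (1 + γ) := by
        calc ‖x - y + w‖ ^ (1 + γ) ≤ (2 * δ) ^ (1 + γ) :=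
              Real.rpow_le_rpow (norm_nonneg _) hw2n (by linarith)
          _ = 2 ^ (1 + γ) * δ ^ (1 + γ) := Real.mul_rpow (by norm_num) hδpos.le
          _ ≤ 4 * δ ^ (1 + γ) := by gcongr
      calc C * ‖x - y + w‖ ^ (1 + γ) ≤ C * (4 * δ ^ (1 + γ)) := by gcongr
        _ = 4 * C * δ ^ (1 + γ) := by ring
    have hin : ⟪v, w⟫ = δ * ‖v‖ := by
      rw [hw, inner_smul_right, real_inner_self_eq_norm_sq]
      field_simp
    have hid : ⟪v, w⟫ = -(u (x + w) - u x - ⟪g x, w⟫)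
        + (u (x + w) - u y - ⟪g y, x - y + w⟫) - (u x - u y - ⟪g y, x - y⟫) := by
      rw [hv, inner_sub_left, inner_add_right]
      ring
    have hb : δ * ‖v‖ ≤ 6 * C * δ ^ (1 + γ) := by
      rw [← hin, hid]
      have a1 := abs_le.1 h1
      have a2 := abs_le.1 h2'
      have a3 := abs_le.1 h3
      linarith [a1.1, a1.2, a2.1, a2.2, a3.1, a3.2]
    rw [hδγ] at hb
    have hfin : δ * ‖v‖ ≤ δ * (6 * C * δ ^ γ) := by linarith
    exact le_of_mul_le_mul_left hfin hδpos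

end Vale.Agent.H22.InfHarm
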