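import Vale.Agent.H22.InfHarm.LipA
import Vale.Agent.H22.InfHarm.LipC
import Vale.Agent.H22.InfHarm.LipE
import Vale.Agent.H22.InfHarm.DenC
import Vale.Agent.H22.InfHarm.DenD
import Vale.Agent.H22.InfHarm.DenE

/-!
# P080: points with a `C^{1,1/3}` expansion are dense, with a universal estimate

Assembly of the rows `DenA` - `DenE`.  Every infinity-harmonic function has, in every ball, a
point where it has a first-order expansion with remainder of order `4 / 3`, with a universal,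
scale-invariant constant times the oscillation.
-/

namespace Vale.Agent.H22.InfHarm

open Filter Topology Set Metric
open scoped RealInnerProductSpace

variable {E : Type*} [NormedAddCommGroup E] [InnerProductSpace ℝ E] [CompleteSpace E]

theorem IsInfHarmonicOn.mono {u : E → ℝ} {Ω Ω' : Set E} (hu : IsInfHarmonicOn u Ω)
    (h : Ω' ⊆ Ω) : IsInfHarmonicOn u Ω' :=
  ⟨hu.1.mono h, fun z hz => hu.2.1 z (h hz), fun z hz => hu.2.2 z (h hz)⟩

/-- The pointwise statement: at a point `x` where the pointwise Lipschitz constant is touched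
from above by a cone of opening `H`, the function has a first-order expansion with remainder
of order `4 / 3`. -/
theorem expansion_at_cone_contact [FiniteDimensional ℝ E] [Nontrivial E] {u : E → ℝ}
    {Ω : Set E} (hu : IsInfHarmonicOn u Ω) {x : E} {r Λ H : ℝ} (hr : 0 < r) (hH0 : 0 ≤ H)
    (hballΩ : closedBall x (r / 2) ⊆ Ω)
    (hlip : ∀ z ∈ closedBall x (r / 2), ∃ m, 0 ≤ m ∧
      ∀ᶠ y in 𝓝 z, |u y - u z| ≤ m * ‖y - z‖)
    (hΛ : lipConst u x ≤ Λ)
    (hcone : ∀ z ∈ closedBall x (r / 2), lipConst u z ≤ lipConst u x + H * ‖z - x‖) :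
    ∃ p : E, ∀ w : E, ‖w‖ ≤ r / 4 →
      |u (x + w) - u x - ⟪p, w⟫|
        ≤ 100 * ((Λ + H * (r / 2)) / 2 + 2 * H * (r / 4)) * (r / 4)
          * (‖w‖ / (r / 4)) ^ (4 / 3 : ℝ) := by
  have hL0 : 0 ≤ lipConst u x := lipConst_nonneg u x
  have hΛ0 : 0 ≤ Λ := hL0.trans hΛ
  have hA : 0 ≤ (Λ + H * (r / 2)) / 2 := by positivity
  have hB : 0 ≤ 2 * H := by positivity
  have hR0 : 0 < r / 4 := by positivity
  refine expansion_scaled hA hB hR0 ?_
  intro R hR hRr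
  have hsub : closedBall x (2 * R) ⊆ closedBall x (r / 2) :=
    closedBall_subset_closedBall (by linarith)
  have hsubΩ : closedBall x (2 * R) ⊆ Ω := hsub.trans hballΩ
  set M := lipConst u x + H * (2 * R) with hM
  have hLM : ∀ z ∈ closedBall x (2 * R), lipConst u z ≤ M := by
    intro z hz
    have h1 := hcone z (hsub hz)
    have h2 : ‖z - x‖ ≤ 2 * R := by simpa [dist_eq_norm] using hz
    have h3 : H * ‖z - x‖ ≤ H * (2 * R) := mul_le_mul_of_nonneg_left h2 hH0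
    rw [hM]; linarith
  have hL1 : ∀ z ∈ closedBall x (2 * R), ∀ ε > 0,
      ∀ᶠ y in 𝓝 z, |u y - u z| ≤ (lipConst u z + ε) * ‖y - z‖ := by
    intro z hz
    obtain ⟨m, hm, hmz⟩ := hlip z (hsub hz)
    exact lipConst_upper hm hmz
  have hLip := lip_on_convex (convex_closedBall x (2 * R)) (hu.1.mono hsubΩ) hL1 hLM
  have hMx : lipConst u x ≤ M := by
    have h1 : 0 ≤ H * (2 * R) := by positivity
    rw [hM]; linarith
  obtain ⟨a, b, hab⟩ := two_sided_bound hu hR hsubΩ (lipConst_lower u x) hL0 hMx hLip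
  refine ⟨a, b, fun w hw => ?_⟩
  obtain ⟨h1, h2⟩ := hab w hw
  have hM2 : M / 2 ≤ (Λ + H * (r / 2)) / 2 := by
    have h3 : H * (2 * R) ≤ H * (r / 2) := mul_le_mul_of_nonneg_left (by linarith) hH0
    rw [hM]; linarith
  have e1 : M * ‖w‖ ^ 2 / (2 * R) ≤ (Λ + H * (r / 2)) / 2 * ‖w‖ ^ 2 / R := by
    have h3 : M * ‖w‖ ^ 2 / (2 * R) = (M / 2) * ‖w‖ ^ 2 / R := by field_simp
    rw [h3]
    gcongr
  have e2 : (M - lipConst u x) * R = 2 * H * R ^ 2 := by rw [hM]; ring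
  constructor <;> linarith

theorem four_rpow_le : (4 : ℝ) ^ (4 / 3 : ℝ) ≤ 6.4 := by
  have h : ((4 : ℝ) ^ (4 / 3 : ℝ)) ^ (3 : ℕ) = 256 := by
    rw [← Real.rpow_natCast, ← Real.rpow_mul (by norm_num)]
    norm_num
  by_contra hcon
  rw [not_le] at hcon
  have h1 : (6.4 : ℝ) ^ (3 : ℕ) < ((4 : ℝ) ^ (4 / 3 : ℝ)) ^ (3 : ℕ) :=
    pow_lt_pow_left₀ hcon (by norm_num) (by norm_num)
  rw [h] at h1
  norm_num at h1

/-- In every ball `closedBall z0 (3 * r) ⊆ Ω` there is a point `x`, at distance at most `r / 2`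
from `z0`, with a first-order expansion with remainder `160 * K * (‖w‖ / r) ^ (4 / 3)`, where
`K` bounds the oscillation of `u` on the ball. -/
theorem dense_holder_ball [FiniteDimensional ℝ E] {u : E → ℝ} {Ω : Set E}
    (hu : IsInfHarmonicOn u Ω) {z0 : E} {r K : ℝ} (hr : 0 < r)
    (hball : closedBall z0 (3 * r) ⊆ Ω)
    (hK : ∀ y ∈ closedBall z0 (3 * r), ∀ z ∈ closedBall z0 (3 * r), |u y - u z| ≤ K) :
    ∃ x ∈ closedBall z0 (r / 2), ∃ p : E, ∀ w : E, ‖w‖ ≤ r / 4 →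
      |u (x + w) - u x - ⟪p, w⟫| ≤ 160 * K * (‖w‖ / r) ^ (4 / 3 : ℝ) := by
  have hz0 : z0 ∈ closedBall z0 (3 * r) := mem_closedBall_self (by positivity)
  have hK0 : 0 ≤ K := (abs_nonneg _).trans (hK z0 hz0 z0 hz0)
  rcases subsingleton_or_nontrivial E with hE | hE
  · refine ⟨z0, mem_closedBall_self (by positivity), 0, fun w _ => ?_⟩
    have hw : w = 0 := Subsingleton.elim w 0
    subst hw
    have h1 : 0 ≤ ((‖(0 : E)‖) / r) ^ (4 / 3 : ℝ) := Real.rpow_nonneg (by positivity) _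
    simp only [add_zero, sub_self, inner_zero_right, abs_zero]
    positivity
  -- the ball `ball z0 (3 r)` as the open domain
  have hu' : IsInfHarmonicOn u (ball z0 (3 * r)) :=
    hu.mono (ball_subset_closedBall.trans hball)
  have hsub1 : ∀ z ∈ closedBall z0 r, closedBall z (2 * r) ⊆ closedBall z0 (3 * r) := by
    intro z hz y hy
    rw [mem_closedBall] at hz hy ⊢
    calc dist y z0 ≤ dist y z + dist z z0 := dist_triangle _ _ _
      _ ≤ 3 * r := by linarith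
  have hzmem : ∀ z ∈ closedBall z0 r, z ∈ closedBall z0 (3 * r) :=
    fun z hz => closedBall_subset_closedBall (by linarith) hz
  set Λ := K / (2 * r) with hΛdef
  set H := K / r ^ 2 with hHdef
  have hH0 : 0 ≤ H := by positivity
  have hΛ : ∀ z ∈ closedBall z0 r, lipConst u z ≤ Λ := by
    intro z hz
    exact lipConst_le_of_osc hu (by positivity) hK0 ((hsub1 z hz).trans hball)
      (fun y hy => hK y (hsub1 z hz (sphere_subset_closedBall hy)) z (hzmem z hz))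
  have hlip : ∀ z ∈ closedBall z0 r, ∃ m, 0 ≤ m ∧
      ∀ᶠ y in 𝓝 z, |u y - u z| ≤ m * ‖y - z‖ := by
    intro z hz
    refine ⟨K / (2 * r), by positivity, ?_⟩
    have h1 := osc_lip hu (c := z) (ρ := 2 * r) (K := K) (by positivity) hK0
      ((hsub1 z hz).trans hball)
      (fun y hy => hK y (hsub1 z hz (sphere_subset_closedBall hy)) z (hzmem z hz))
    filter_upwards [closedBall_mem_nhds z (by positivity : (0 : ℝ) < 2 * r)] with y hy
    exact h1 y hy
  have husc : ∀ c ∈ closedBall z0 r, ∀ ε > 0,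
      ∀ᶠ z in 𝓝 c, lipConst u z < lipConst u c + ε := by
    intro c hc
    exact lipConst_usc isOpen_ball hu'
      (closedBall_subset_ball (by linarith) hc)
  have hHΛ : Λ ≤ H * (r / 2) := by
    rw [hΛdef, hHdef]
    apply le_of_eq
    field_simp
  obtain ⟨x, hx, hcone⟩ := exists_cone_contact hr husc
    (fun z _ => lipConst_nonneg u z) hΛ hH0 hHΛ
  have hsub2 : closedBall x (r / 2) ⊆ closedBall z0 r := by
    intro y hy
    rw [mem_closedBall] at hx hy ⊢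
    calc dist y z0 ≤ dist y x + dist x z0 := dist_triangle _ _ _
      _ ≤ r := by linarith
  have hxr : x ∈ closedBall z0 r := hsub2 (mem_closedBall_self (by positivity))
  obtain ⟨p, hp⟩ := expansion_at_cone_contact hu hr hH0
    (fun y hy => hball (hzmem y (hsub2 hy)))
    (fun z hz => hlip z (hsub2 hz)) (hΛ x hxr) hcone
  refine ⟨x, hx, p, fun w hw => ?_⟩
  refine (hp w hw).trans ?_
  have hc1 : (Λ + H * (r / 2)) / 2 + 2 * H * (r / 4) = K / r := by
    rw [hΛdef, hHdef]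
    field_simp
    ring
  have hc2 : ‖w‖ / (r / 4) = 4 * (‖w‖ / r) := by field_simp
  have hq : 0 ≤ ‖w‖ / r := by positivity
  rw [hc1, hc2, Real.mul_rpow (by norm_num) hq]
  have hq' : 0 ≤ (‖w‖ / r) ^ (4 / 3 : ℝ) := Real.rpow_nonneg hq _
  have h4 := four_rpow_le
  have h5 : 100 * (K / r) * (r / 4) = 25 * K := by field_simp; ring
  calc 100 * (K / r) * (r / 4) * ((4 : ℝ) ^ (4 / 3 : ℝ) * (‖w‖ / r) ^ (4 / 3 : ℝ))
      = 25 * K * (4 : ℝ) ^ (4 / 3 : ℝ) * (‖w‖ / r) ^ (4 / 3 : ℝ) := by rw [h5]; ring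
    _ ≤ 25 * K * 6.4 * (‖w‖ / r) ^ (4 / 3 : ℝ) := by gcongr
    _ = 160 * K * (‖w‖ / r) ^ (4 / 3 : ℝ) := by ring

/-- **Main theorem.**  (1) In every closed ball `closedBall z0 (3 * r) ⊆ Ω` an infinity-harmonic
function has a point `x` with `‖x - z0‖ ≤ r / 2` where it is differentiable with the
expansion `|u (x + w) - u x - ⟪∇u x, w⟫| ≤ 160 * K * (‖w‖ / r) ^ (4 / 3)` for `‖w‖ ≤ r / 4`,
`K` a bound for the oscillation of `u` on the ball.  (2) Points with such an expansion are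
dense in `Ω`. -/
theorem dense_holder_main [FiniteDimensional ℝ E] {u : E → ℝ} {Ω : Set E} (hΩ : IsOpen Ω)
    (hu : IsInfHarmonicOn u Ω) :
    (∀ (z0 : E) (r K : ℝ), 0 < r → closedBall z0 (3 * r) ⊆ Ω →
      (∀ y ∈ closedBall z0 (3 * r), ∀ z ∈ closedBall z0 (3 * r), |u y - u z| ≤ K) →
      ∃ x ∈ closedBall z0 (r / 2), DifferentiableAt ℝ u x ∧ ∀ w : E, ‖w‖ ≤ r / 4 →
        |u (x + w) - u x - ⟪gradient u x, w⟫| ≤ 160 * K * (‖w‖ / r) ^ (4 / 3 : ℝ)) ∧
    (∀ z0 ∈ Ω, ∀ ε > 0, ∃ x ∈ Ω, dist x z0 < ε ∧ DifferentiableAt ℝ u x ∧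
      ∃ C ρ : ℝ, 0 < ρ ∧ ∀ w : E, ‖w‖ ≤ ρ →
        |u (x + w) - u x - ⟪gradient u x, w⟫| ≤ C * ‖w‖ ^ (4 / 3 : ℝ)) := by
  have part1 : ∀ (z0 : E) (r K : ℝ), 0 < r → closedBall z0 (3 * r) ⊆ Ω →
      (∀ y ∈ closedBall z0 (3 * r), ∀ z ∈ closedBall z0 (3 * r), |u y - u z| ≤ K) →
      ∃ x ∈ closedBall z0 (r / 2), DifferentiableAt ℝ u x ∧ ∀ w : E, ‖w‖ ≤ r / 4 →
        |u (x + w) - u x - ⟪gradient u x, w⟫| ≤ 160 * K * (‖w‖ / r) ^ (4 / 3 : ℝ) := by
    intro z0 r K hr hball hK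
    have hz0 : z0 ∈ closedBall z0 (3 * r) := mem_closedBall_self (by positivity)
    have hK0 : 0 ≤ K := (abs_nonneg _).trans (hK z0 hz0 z0 hz0)
    obtain ⟨x, hx, p, hp⟩ := dense_holder_ball hu hr hball hK
    have hrpow : 0 < r ^ (4 / 3 : ℝ) := Real.rpow_pos_of_pos hr _
    have hexp : ∀ y ∈ ({x} : Set E), ∀ w : E, ‖w‖ ≤ r / 4 →
        |u (y + w) - u y - ⟪(fun _ : E => p) y, w⟫|
          ≤ 160 * K / r ^ (4 / 3 : ℝ) * ‖w‖ ^ (1 + (1 / 3 : ℝ)) := by
      intro y hy w hw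
      rw [mem_singleton_iff] at hy
      subst hy
      have h1 := hp w hw
      rw [Real.div_rpow (norm_nonneg _) hr.le] at h1
      have h2 : (1 + (1 / 3 : ℝ)) = 4 / 3 := by norm_num
      rw [h2]
      calc |u (y + w) - u y - ⟪p, w⟫| ≤ 160 * K * (‖w‖ ^ (4 / 3 : ℝ) / r ^ (4 / 3 : ℝ)) := h1
        _ = 160 * K / r ^ (4 / 3 : ℝ) * ‖w‖ ^ (4 / 3 : ℝ) := by ring
    obtain ⟨hgrad, -⟩ := holder_of_expansion (u := u) (S := {x}) (ρ := r / 4)
      (C := 160 * K / r ^ (4 / 3 : ℝ)) (γ := 1 / 3) (by positivity) (by positivity)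
      (by norm_num) (by norm_num) (fun _ => p) hexp
    have hg : HasGradientAt u p x := hgrad x (mem_singleton x)
    refine ⟨x, hx, hg.differentiableAt, fun w hw => ?_⟩
    rw [hg.gradient]
    exact hp w hw
  refine ⟨part1, ?_⟩
  intro z0 hz0 ε hε
  obtain ⟨ρΩ, hρΩ, hballΩ⟩ := Metric.nhds_basis_closedBall.mem_iff.1 (hΩ.mem_nhds hz0)
  set r := min (ρΩ / 3) ε with hrdef
  have hr : 0 < r := lt_min (by positivity) hε
  have hr1 : 3 * r ≤ ρΩ := by
    have := min_le_left (ρΩ / 3) ε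
    rw [hrdef]; linarith
  have hr2 : r ≤ ε := min_le_right _ _
  have hball : closedBall z0 (3 * r) ⊆ Ω := (closedBall_subset_closedBall hr1).trans hballΩ
  obtain ⟨K0, hK0⟩ := (isCompact_closedBall z0 (3 * r)).exists_bound_of_continuousOn
    (hu.1.mono hball)
  have hK : ∀ y ∈ closedBall z0 (3 * r), ∀ z ∈ closedBall z0 (3 * r),
      |u y - u z| ≤ 2 * K0 := by
    intro y hy z hz
    have h1 := hK0 y hy
    have h2 := hK0 z hz
    rw [Real.norm_eq_abs] at h1 h2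
    have h3 := abs_sub (u y) (u z)
    linarith
  obtain ⟨x, hx, hdiff, hexp⟩ := part1 z0 r (2 * K0) hr hball hK
  have hxd : dist x z0 ≤ r / 2 := hx
  refine ⟨x, hball (closedBall_subset_closedBall (by linarith) hx), by linarith, hdiff,
    160 * (2 * K0) / r ^ (4 / 3 : ℝ), r / 4, by positivity, fun w hw => ?_⟩
  have h1 := hexp w hw
  rw [Real.div_rpow (norm_nonneg _) hr.le] at h1
  calc |u (x + w) - u x - ⟪gradient u x, w⟫|
      ≤ 160 * (2 * K0) * (‖w‖ ^ (4 / 3 : ℝ) / r ^ (4 / 3 : ℝ)) := h1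
    _ = 160 * (2 * K0) / r ^ (4 / 3 : ℝ) * ‖w‖ ^ (4 / 3 : ℝ) := by ring

end Vale.Agent.H22.InfHarm
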