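import Mathlib

/-!
# P080, Lipschitz-constant project, row LIP-A

A continuous function whose pointwise Lipschitz constant is at most `M` at every point of a
convex set is `M`-Lipschitz on that set.

Proof sketch.  Fix `z, z'` in `C`, `z ≠ z'`, and put `f t = u (z + t • (z' - z))` on `[0,1]`.
For `t` in `[0,1)` and `ε > 0` the hypothesis at the point `z + t • (z' - z)` gives
`f s - f t ≤ (M + ε) ‖z' - z‖ (s - t)` for `s > t` close to `t`, so the right lower slopes of
`f` are below `(M + 2 ε) ‖z' - z‖`; the mean value inequality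
`image_le_of_liminf_slope_right_lt_deriv_boundary` (Mathlib, `Analysis/Calculus/MeanValue`)
with `B t = f 0 + (M + 2 ε) ‖z' - z‖ t` gives `f 1 ≤ f 0 + (M + 2 ε) ‖z' - z‖`; let `ε → 0`
and exchange `z` and `z'`.
-/

namespace Vale.Agent.H22.InfHarm

open Filter Topology Set Metric

variable {E : Type*} [NormedAddCommGroup E] [NormedSpace ℝ E]

/-- One-sided estimate with a loss `2 ε`. -/
theorem lipa_one_sided {u : E → ℝ} {L : E → ℝ} {C : Set E} {M : ℝ} (hC : Convex ℝ C)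
    (hcont : ContinuousOn u C)
    (hL1 : ∀ x ∈ C, ∀ ε > 0, ∀ᶠ y in 𝓝 x, |u y - u x| ≤ (L x + ε) * ‖y - x‖)
    (hM : ∀ x ∈ C, L x ≤ M) {z z' : E} (hz : z ∈ C) (hz' : z' ∈ C) {ε : ℝ} (hε : 0 < ε) :
    u z' ≤ u z + (M + 2 * ε) * ‖z' - z‖ := by
  by_cases hzz : z' = z
  · subst hzz
    simp
  have hD : 0 < ‖z' - z‖ := norm_pos_iff.mpr (sub_ne_zero.mpr hzz)
  set D : ℝ := ‖z' - z‖ with hDdef
  let γ : ℝ → E := fun t => z + t • (z' - z)
  have hγcont : Continuous γ := by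
    fun_prop
  have hγmem : ∀ t ∈ Icc (0 : ℝ) 1, γ t ∈ C := fun t ht =>
    hC.add_smul_sub_mem hz hz' ht
  let f : ℝ → ℝ := fun t => u (γ t)
  have hf : ContinuousOn f (Icc 0 1) :=
    hcont.comp hγcont.continuousOn (fun t ht => hγmem t ht)
  have hγdist : ∀ s t : ℝ, ‖γ s - γ t‖ = |s - t| * D := by
    intro s t
    have h1 : γ s - γ t = (s - t) • (z' - z) := by
      simp only [γ]
      rw [sub_smul]
      abel
    rw [h1, norm_smul, Real.norm_eq_abs]
  have hslope : ∀ t ∈ Ico (0 : ℝ) 1, ∀ r, (M + ε) * D < r →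
      ∃ᶠ s in 𝓝[>] t, slope f t s < r := by
    intro t ht r hr
    have hx : γ t ∈ C := hγmem t (Ico_subset_Icc_self ht)
    have h1 := hL1 (γ t) hx ε hε
    have h2 : ∀ᶠ s in 𝓝 t, |u (γ s) - u (γ t)| ≤ (L (γ t) + ε) * ‖γ s - γ t‖ :=
      hγcont.continuousAt.eventually h1
    have h3 : ∀ᶠ s in 𝓝[>] t, |u (γ s) - u (γ t)| ≤ (L (γ t) + ε) * ‖γ s - γ t‖ :=
      nhdsWithin_le_nhds h2
    have h4 : ∀ᶠ s in 𝓝[>] t, slope f t s < r := by
      filter_upwards [h3, self_mem_nhdsWithin] with s hs hst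
      have hst' : 0 < s - t := sub_pos.mpr hst
      rw [hγdist, abs_of_pos hst'] at hs
      have h5 : f s - f t ≤ (M + ε) * D * (s - t) := by
        have h6 : f s - f t ≤ |u (γ s) - u (γ t)| := le_abs_self _
        have h7 : (L (γ t) + ε) * ((s - t) * D) ≤ (M + ε) * ((s - t) * D) := by
          apply mul_le_mul_of_nonneg_right _ (by positivity)
          linarith [hM (γ t) hx]
        calc f s - f t ≤ (L (γ t) + ε) * ((s - t) * D) := h6.trans hs
          _ ≤ (M + ε) * ((s - t) * D) := h7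
          _ = (M + ε) * D * (s - t) := by ring
      have h8 : slope f t s ≤ (M + ε) * D := by
        rw [slope_def_field, div_le_iff₀ hst']
        exact h5
      exact lt_of_le_of_lt h8 hr
    exact h4.frequently
  have hB : ∀ t : ℝ, HasDerivAt (fun t : ℝ => f 0 + (M + 2 * ε) * D * t) ((M + 2 * ε) * D) t := by
    intro t
    have h1 := ((hasDerivAt_id t).const_mul ((M + 2 * ε) * D)).const_add (f 0)
    simpa using h1
  have hbound : ∀ t ∈ Ico (0 : ℝ) 1, f t = f 0 + (M + 2 * ε) * D * t →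
      (M + ε) * D < (M + 2 * ε) * D := by
    intro t _ _
    apply mul_lt_mul_of_pos_right _ hD
    linarith
  have hmain := image_le_of_liminf_slope_right_lt_deriv_boundary (f := f)
    (f' := fun _ => (M + ε) * D) (a := 0) (b := 1) hf hslope
    (B := fun t : ℝ => f 0 + (M + 2 * ε) * D * t) (B' := fun _ => (M + 2 * ε) * D)
    (by simp) hB hbound
  have h1 := hmain (right_mem_Icc.mpr zero_le_one)
  have hf1 : f 1 = u z' := by
    simp [f, γ]
  have hf0 : f 0 = u z := by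
    simp [f, γ]
  rw [hf1, hf0] at h1
  simpa using h1

theorem lip_on_convex {u : E → ℝ} {L : E → ℝ} {C : Set E} {M : ℝ} (hC : Convex ℝ C)
    (hcont : ContinuousOn u C)
    (hL1 : ∀ x ∈ C, ∀ ε > 0, ∀ᶠ y in 𝓝 x, |u y - u x| ≤ (L x + ε) * ‖y - x‖)
    (hM : ∀ x ∈ C, L x ≤ M) :
    ∀ z ∈ C, ∀ z' ∈ C, |u z - u z'| ≤ M * ‖z - z'‖ := by
  have key : ∀ z ∈ C, ∀ z' ∈ C, u z' ≤ u z + M * ‖z' - z‖ := by
    intro z hz z' hz'
    apply le_of_forall_pos_le_add
    intro δ hδ
    have hpos : 0 < 2 * (‖z' - z‖ + 1) := by positivity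
    have hε : 0 < δ / (2 * (‖z' - z‖ + 1)) := div_pos hδ hpos
    have h1 := lipa_one_sided hC hcont hL1 hM hz hz' hε
    have h2 : 2 * (δ / (2 * (‖z' - z‖ + 1))) * ‖z' - z‖ ≤ δ := by
      have h3 : 2 * (δ / (2 * (‖z' - z‖ + 1))) * ‖z' - z‖
          = δ * (‖z' - z‖ / (‖z' - z‖ + 1)) := by
        field_simp
      rw [h3]
      have h4 : ‖z' - z‖ / (‖z' - z‖ + 1) ≤ 1 := by
        rw [div_le_one (by positivity)]
        linarith
      calc δ * (‖z' - z‖ / (‖z' - z‖ + 1)) ≤ δ * 1 :=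
            mul_le_mul_of_nonneg_left h4 hδ.le
        _ = δ := mul_one δ
    have h5 : (M + 2 * (δ / (2 * (‖z' - z‖ + 1)))) * ‖z' - z‖
        = M * ‖z' - z‖ + 2 * (δ / (2 * (‖z' - z‖ + 1))) * ‖z' - z‖ := by ring
    rw [h5] at h1
    linarith
  intro z hz z' hz'
  rw [abs_le]
  constructor
  · have h1 := key z hz z' hz'
    rw [norm_sub_rev] at h1
    linarith
  · have h1 := key z' hz' z hz
    linarith

end Vale.Agent.H22.InfHarm
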