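import Vale.Agent.H22.InfHarm.Convex3

/-!
# P080, Lipschitz-constant project, row LIP-B

Ascent and descent points: if `u` is infinity-harmonic, `L x > 0` is the pointwise Lipschitz
constant of `u` at `x` (only the lower half of its definition is used) and `u` is `M`-Lipschitz
on the closed ball of radius `2 R` around `x`, then the sphere of radius `R` around `x` holds a
point `y` with `u y - u x ≥ R * L x` and a point `y` with `u x - u y ≥ R * L x`.

Proof sketch (Crandall-Evans-Gariepy).  For a centre `c` and a radius `ρ` with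
`closedBall c ρ ⊆ Ω` let `mp c ρ` be the maximum of `u - u c` over `sphere c ρ` and `mm c ρ` the
maximum of `u c - u` (compactness; the sphere is not empty since `E` is not trivial, by `hL2`).
(A) Cone comparison (`cone_comparison` for `u`, and for `-u` through `IsInfSubharmonicOn.neg`)
with the slopes `max (mp c ρ) 0 / ρ` and `max (mm c ρ) 0 / ρ`:
`u y - u c ≤ max (mp c ρ) 0 / ρ * ‖y - c‖` and `u c - u y ≤ max (mm c ρ) 0 / ρ * ‖y - c‖` on
`closedBall c ρ`.
(B) For `0 < ρ ≤ R` and `0 < ε < L x`, `hL2` gives a point `y ≠ x` of `ball x ρ` with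
`(L x - ε) ‖y - x‖ ≤ |u y - u x|`; by (A), `mp x ρ ≥ ρ (L x - ε)` or `mm x ρ ≥ ρ (L x - ε)`.
(C) If `mp x ρ ≥ ρ (L x - ε)`, take `y1` on `sphere x ρ` with `u y1 - u x ≥ ρ (L x - ε)`.
By (A) at the centre `x`, radius `R`: `mp x R ≥ R (L x - ε)`.  By (A) at the centre `y1`,
radius `R` (`closedBall y1 R ⊆ closedBall x (2 R)`), applied to the point `x`:
`mm y1 R ≥ R (L x - ε)`, so there is `z` on `sphere y1 R` with `u y1 - u z ≥ R (L x - ε)`; the
point `w = z - y1 + x` lies on `sphere x R` and, by `hLip` (twice, distances `ρ`),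
`u x - u w ≥ R (L x - ε) - 2 M ρ`.  The other case is symmetric.
(D) So for all small `ρ` and `ε`: `mp x R ≥ R (L x - ε) - 2 M ρ` and
`mm x R ≥ R (L x - ε) - 2 M ρ`; let `ρ, ε → 0`.
-/

namespace Vale.Agent.H22.InfHarm

open Filter Topology Set Metric
open scoped RealInnerProductSpace

variable {E : Type*} [NormedAddCommGroup E] [InnerProductSpace ℝ E] [CompleteSpace E]

/-- Contrapositive of the cone comparison from below: a point of the closed ball where `u` lies
strictly below the cone forces a point of the sphere with the same property. -/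
theorem lipb_down [FiniteDimensional ℝ E] {u : E → ℝ} {Ω : Set E}
    (hcont : ContinuousOn u Ω) (hsuper : IsInfSuperharmonicOn u Ω)
    {c : E} {r s : ℝ} (hr : 0 < r) (hs : 0 ≤ s) (hball : closedBall c r ⊆ Ω)
    {y : E} (hy : y ∈ closedBall c r) (hlt : s * ‖y - c‖ < u c - u y) :
    ∃ z ∈ sphere c r, s * r < u c - u z := by
  by_contra hcon
  push Not at hcon
  have h1 := cone_comparison hcont hsuper hr hs hball
    (fun z hz => by linarith [hcon z hz]) y hy
  linarith

/-- The same for cones from above (through `-u`). -/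
theorem lipb_up [FiniteDimensional ℝ E] {u : E → ℝ} {Ω : Set E}
    (hcont : ContinuousOn u Ω) (hsub : IsInfSubharmonicOn u Ω)
    {c : E} {r s : ℝ} (hr : 0 < r) (hs : 0 ≤ s) (hball : closedBall c r ⊆ Ω)
    {y : E} (hy : y ∈ closedBall c r) (hlt : s * ‖y - c‖ < u y - u c) :
    ∃ z ∈ sphere c r, s * r < u z - u c := by
  have hcn : ContinuousOn (fun y => -u y) Ω := hcont.neg
  obtain ⟨z, hz, hzlt⟩ := lipb_down (u := fun y => -u y) hcn hsub.neg hr hs hball hy
    (by linarith)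
  exact ⟨z, hz, by linarith⟩

/-- The approximate statement: ascent and descent up to an arbitrary error `η`. -/
theorem lipb_eta [FiniteDimensional ℝ E] {u : E → ℝ} {Ω : Set E}
    (hu : IsInfHarmonicOn u Ω) {L : E → ℝ} {x : E} {R M : ℝ} (hR : 0 < R)
    (hball : closedBall x (2 * R) ⊆ Ω)
    (hL2 : ∀ ε > 0, ∃ᶠ y in 𝓝[≠] x, (L x - ε) * ‖y - x‖ ≤ |u y - u x|)
    (hpos : 0 < L x)
    (hLip : ∀ z ∈ closedBall x (2 * R), ∀ z' ∈ closedBall x (2 * R),
      |u z - u z'| ≤ M * ‖z - z'‖) (η : ℝ) (hη : 0 < η) :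
    (∃ y ∈ sphere x R, R * L x - η < u y - u x) ∧
      (∃ y ∈ sphere x R, R * L x - η < u x - u y) := by
  obtain ⟨hcont, hsub, hsuper⟩ := hu
  obtain ⟨ε, hε0, hε1, hε3⟩ : ∃ ε : ℝ, 0 < ε ∧ ε ≤ L x / 4 ∧ ε * R ≤ η / 4 := by
    refine ⟨min (L x / 4) (η / (4 * R)), lt_min (by positivity) (by positivity),
      min_le_left _ _, ?_⟩
    calc min (L x / 4) (η / (4 * R)) * R ≤ η / (4 * R) * R := by
          gcongr; exact min_le_right _ _
      _ = η / 4 := by field_simp
  obtain ⟨ρ, hρ0, hρ1, hρ3⟩ : ∃ ρ : ℝ, 0 < ρ ∧ ρ ≤ R ∧ |M| * ρ ≤ η / 4 := by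
    have hM : 0 < |M| + 1 := by positivity
    refine ⟨min R (η / (4 * (|M| + 1))), lt_min hR (by positivity), min_le_left _ _, ?_⟩
    calc |M| * min R (η / (4 * (|M| + 1))) ≤ (|M| + 1) * (η / (4 * (|M| + 1))) := by
          apply mul_le_mul (by linarith) (min_le_right _ _) _ hM.le
          exact le_min hR.le (by positivity)
      _ = η / 4 := by field_simp
  have hs0 : 0 ≤ L x - 2 * ε := by linarith
  have hev : ∀ᶠ y in 𝓝[≠] x, y ∈ ball x ρ ∧ y ≠ x := by
    refine Filter.Eventually.and ?_ ?_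
    · exact nhdsWithin_le_nhds (ball_mem_nhds x hρ0)
    · exact eventually_mem_nhdsWithin
  obtain ⟨y, hy1, hyρ, hyne⟩ := ((hL2 ε hε0).and_eventually hev).exists
  have hd0 : 0 < ‖y - x‖ := norm_pos_iff.2 (sub_ne_zero.2 hyne)
  have hdρ : ‖y - x‖ < ρ := by simpa [dist_eq_norm] using hyρ
  have hyR : y ∈ closedBall x R := by
    rw [mem_closedBall, dist_eq_norm]; linarith
  have hxy : x ∈ closedBall y R := by
    rw [mem_closedBall, dist_eq_norm, norm_sub_rev]; linarith
  have hRR : R ≤ 2 * R := by linarith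
  have hbx : closedBall x R ⊆ Ω := (closedBall_subset_closedBall hRR).trans hball
  have hfar : ∀ z : E, ‖z - y‖ ≤ R → z ∈ closedBall x (2 * R) := by
    intro z hz
    rw [mem_closedBall, dist_eq_norm]
    calc ‖z - x‖ = ‖(z - y) + (y - x)‖ := by rw [sub_add_sub_cancel]
      _ ≤ ‖z - y‖ + ‖y - x‖ := norm_add_le _ _
      _ ≤ 2 * R := by linarith
  have hby : closedBall y R ⊆ Ω := by
    refine Subset.trans ?_ hball
    intro z hz
    rw [mem_closedBall, dist_eq_norm] at hz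
    exact hfar z hz
  have hstrict : (L x - 2 * ε) * ‖y - x‖ < (L x - ε) * ‖y - x‖ := by
    apply mul_lt_mul_of_pos_right _ hd0
    linarith
  have htr : ∀ z ∈ sphere y R,
      (z - y + x) ∈ sphere x R ∧ |u z - u (z - y + x)| ≤ M * ‖y - x‖ := by
    intro z hz
    rw [mem_sphere, dist_eq_norm] at hz
    refine ⟨?_, ?_⟩
    · rw [mem_sphere, dist_eq_norm, add_sub_cancel_right]; exact hz
    · have h1 : z ∈ closedBall x (2 * R) := hfar z hz.le
      have h2 : (z - y + x) ∈ closedBall x (2 * R) := by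
        rw [mem_closedBall, dist_eq_norm, add_sub_cancel_right]; linarith
      have h3 := hLip z h1 (z - y + x) h2
      have h4 : z - (z - y + x) = y - x := by abel
      rwa [h4] at h3
  have hxy' : |u x - u y| ≤ M * ‖y - x‖ := by
    have h1 := hLip x (mem_closedBall_self (by linarith)) y
      ((closedBall_subset_closedBall hRR) hyR)
    rwa [norm_sub_rev] at h1
  have hMd : M * ‖y - x‖ ≤ η / 4 := by
    calc M * ‖y - x‖ ≤ |M| * ρ :=
          mul_le_mul (le_abs_self M) hdρ.le hd0.le (abs_nonneg M)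
      _ ≤ η / 4 := hρ3
  have hsR : R * L x - η / 2 ≤ (L x - 2 * ε) * R := by
    have h1 : (L x - 2 * ε) * R = R * L x - 2 * (ε * R) := by ring
    rw [h1]; linarith
  have hb1 := abs_le.1 hxy'
  rcases le_abs.1 hy1 with hup | hdown
  · have h1 : (L x - 2 * ε) * ‖y - x‖ < u y - u x := by linarith
    obtain ⟨z, hz, hzlt⟩ := lipb_up hcont hsub hR hs0 hbx hyR h1
    have h2 : (L x - 2 * ε) * ‖x - y‖ < u y - u x := by rw [norm_sub_rev]; exact h1
    obtain ⟨z', hz', hzlt'⟩ := lipb_down hcont hsuper hR hs0 hby hxy h2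
    obtain ⟨hw, hwl⟩ := htr z' hz'
    have hb2 := abs_le.1 hwl
    exact ⟨⟨z, hz, by linarith⟩, ⟨z' - y + x, hw, by linarith⟩⟩
  · have h1 : (L x - 2 * ε) * ‖y - x‖ < u x - u y := by linarith
    obtain ⟨z, hz, hzlt⟩ := lipb_down hcont hsuper hR hs0 hbx hyR h1
    have h2 : (L x - 2 * ε) * ‖x - y‖ < u x - u y := by rw [norm_sub_rev]; exact h1
    obtain ⟨z', hz', hzlt'⟩ := lipb_up hcont hsub hR hs0 hby hxy h2
    obtain ⟨hw, hwl⟩ := htr z' hz'
    have hb2 := abs_le.1 hwl
    exact ⟨⟨z' - y + x, hw, by linarith⟩, ⟨z, hz, by linarith⟩⟩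

theorem exists_ascent_descent [FiniteDimensional ℝ E] {u : E → ℝ} {Ω : Set E}
    (hu : IsInfHarmonicOn u Ω) {L : E → ℝ} {x : E} {R M : ℝ} (hR : 0 < R)
    (hball : closedBall x (2 * R) ⊆ Ω)
    (hL2 : ∀ ε > 0, ∃ᶠ y in 𝓝[≠] x, (L x - ε) * ‖y - x‖ ≤ |u y - u x|)
    (hpos : 0 < L x)
    (hLip : ∀ z ∈ closedBall x (2 * R), ∀ z' ∈ closedBall x (2 * R),
      |u z - u z'| ≤ M * ‖z - z'‖) :
    (∃ y ∈ sphere x R, R * L x ≤ u y - u x) ∧ (∃ y ∈ sphere x R, R * L x ≤ u x - u y) := by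
  have hsphΩ : sphere x R ⊆ Ω :=
    (sphere_subset_closedBall.trans (closedBall_subset_closedBall (by linarith))).trans hball
  have hne : (sphere x R).Nonempty := by
    obtain ⟨⟨y, hy, _⟩, _⟩ := lipb_eta hu hR hball hL2 hpos hLip 1 one_pos
    exact ⟨y, hy⟩
  have hcs : ContinuousOn u (sphere x R) := hu.1.mono hsphΩ
  obtain ⟨ymax, hymax, hmax⟩ := (isCompact_sphere x R).exists_isMaxOn hne hcs
  obtain ⟨ymin, hymin, hmin⟩ := (isCompact_sphere x R).exists_isMinOn hne hcs
  refine ⟨⟨ymax, hymax, ?_⟩, ⟨ymin, hymin, ?_⟩⟩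
  · apply le_of_forall_pos_lt_add
    intro η hη
    obtain ⟨⟨y, hy, hlt⟩, _⟩ := lipb_eta hu hR hball hL2 hpos hLip η hη
    have h1 : u y ≤ u ymax := hmax hy
    linarith
  · apply le_of_forall_pos_lt_add
    intro η hη
    obtain ⟨_, ⟨y, hy, hlt⟩⟩ := lipb_eta hu hR hball hL2 hpos hLip η hη
    have h1 : u ymin ≤ u y := hmin hy
    linarith

end Vale.Agent.H22.InfHarm
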