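import Mathlib

/-!
# P080, Lipschitz-constant project, row LIP-D

From two-sided paraboloid bounds with defect `B R ^ (1 + β)` at every scale `R ≤ R0` to a
first-order expansion with remainder `‖w‖ ^ (1 + β / (2 + β))`.  Pure analysis (no equation).

Proof sketch.  Choose `a R`, `b R` for every scale.  Put `eps R = (3 A / 2 + 4 B) R ^ (β / 2)`.
(1) For `0 < R ≤ R0` and `R / 2 ≤ R' ≤ R`: `‖b R - a R'‖ ≤ eps R` and `‖b R' - a R‖ ≤ eps R`
(in particular `‖b R - a R‖ ≤ eps R`).  Indeed for `‖w‖ = t := R ^ (1 + β / 2) / 2 ≤ R / 2`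
the lower bound at one scale and the upper bound at the other give
`⟪b R - a R', w⟫ ≤ 3 A t ^ 2 / R + 2 B R ^ (1 + β)`; take `w = (t / ‖v‖) • v`, `v = b R - a R'`.
(2) With `Rk k = R0 / 2 ^ k`: `‖a (Rk k) - a (Rk (k + 1))‖ ≤ 2 eps (Rk k)
= 2 (3 A / 2 + 4 B) R0 ^ (β / 2) q ^ k`, `q = 2 ^ (-β / 2) < 1`, `1 / (1 - q) ≤ 4 / β`; so
`a (Rk k)` converges to some `p` (`cauchySeq_of_le_geometric`) and
`‖a (Rk k) - p‖ ≤ 2 eps (Rk k) / (1 - q)` (`dist_le_of_le_geometric_of_tendsto`).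
(3) For `0 < t = ‖w‖ ≤ R0 ^ ((2 + β) / 2)` put `s = t ^ (2 / (2 + β)) ≤ R0`, take `k` with
`s ≤ Rk k < 2 s` (`exists_nat_pow_near_of_lt_one`), `R = Rk k ≥ s ≥ t`.  Then
`u (x + w) - u x - ⟪p, w⟫ ≤ ‖a R - p‖ t + A t ^ 2 / R + B R ^ (1 + β)` and each term is at
most a multiple of `t ^ (1 + β / (2 + β))`: `s ^ (β / 2) t = t ^ 2 / s = s ^ (1 + β)
= t ^ (1 + β / (2 + β))`.  The lower bound is the same with `b R` and
`‖b R - p‖ ≤ eps R + ‖a R - p‖`.  The constants add up to less than `60 / β * (A + B)`.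
-/

namespace Vale.Agent.H22.InfHarm

open Filter Topology Set Metric
open scoped RealInnerProductSpace

variable {E : Type*} [NormedAddCommGroup E] [InnerProductSpace ℝ E] [CompleteSpace E]

omit [CompleteSpace E] in
/-- The key test: a lower paraboloid with slope `b'` under an upper paraboloid with slope `a'`
on the ball of radius `R / 2` forces the slopes to be close. -/
theorem lipd_key {U : E → ℝ} {a' b' : E} {A B R β : ℝ} (hA : 0 ≤ A) (hB : 0 ≤ B)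
    (hR : 0 < R) (hR1 : R ≤ 1) (hβ : 0 < β)
    (hlo : ∀ w : E, ‖w‖ ≤ R / 2 → ⟪b', w⟫ - 2 * A * ‖w‖ ^ 2 / R - B * R ^ (1 + β) ≤ U w)
    (hup : ∀ w : E, ‖w‖ ≤ R / 2 → U w ≤ ⟪a', w⟫ + 2 * A * ‖w‖ ^ 2 / R + B * R ^ (1 + β)) :
    ‖b' - a'‖ ≤ (2 * A + 4 * B) * R ^ (β / 2) := by
  have hθpos : 0 < R ^ (β / 2) := Real.rpow_pos_of_pos hR _
  have hθ1 : R ^ (β / 2) ≤ 1 := Real.rpow_le_one hR.le hR1 (by positivity)
  have hpow : R ^ (1 + β) = R * (R ^ (β / 2)) ^ 2 := by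
    rw [Real.rpow_add hR, Real.rpow_one, ← Real.rpow_natCast, ← Real.rpow_mul hR.le]
    congr 2
    push_cast
    ring
  set θ : ℝ := R ^ (β / 2) with hθ
  by_cases hv : b' - a' = 0
  · rw [hv, norm_zero]
    positivity
  have hvn : 0 < ‖b' - a'‖ := norm_pos_iff.mpr hv
  set t : ℝ := R * θ / 2 with ht
  have htpos : 0 < t := by positivity
  have htR : t ≤ R / 2 := by
    rw [ht]
    have h0 := mul_le_mul_of_nonneg_left hθ1 hR.le
    linarith
  set w : E := (t / ‖b' - a'‖) • (b' - a') with hw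
  have hwn : ‖w‖ = t := by
    rw [hw, norm_smul, Real.norm_of_nonneg (by positivity), div_mul_cancel₀ _ hvn.ne']
  have h1 := hlo w (by rw [hwn]; exact htR)
  have h2 := hup w (by rw [hwn]; exact htR)
  have hin : ⟪b', w⟫ - ⟪a', w⟫ = t * ‖b' - a'‖ := by
    rw [← inner_sub_left, hw, real_inner_smul_right, real_inner_self_eq_norm_sq]
    field_simp
  rw [hwn, hpow] at h1 h2
  have h3 : t * ‖b' - a'‖ ≤ t * ((2 * A + 4 * B) * θ) := by
    have h4 : 2 * A * t ^ 2 / R = A * R * θ ^ 2 / 2 := by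
      rw [ht]
      field_simp
    have h5 : t * ((2 * A + 4 * B) * θ) = A * R * θ ^ 2 + 2 * B * (R * θ ^ 2) := by
      rw [ht]
      ring
    rw [h5, ← hin]
    linarith
  exact le_of_mul_le_mul_left h3 htpos

omit [CompleteSpace E] in
/-- Slopes at comparable scales are close. -/
theorem lipd_pair {U : E → ℝ} {a b : ℝ → E} {A B β R0 : ℝ} (hA : 0 ≤ A) (hB : 0 ≤ B)
    (hβ : 0 < β) (hR01 : R0 ≤ 1)
    (hab : ∀ R, 0 < R → R ≤ R0 → ∀ w : E, ‖w‖ ≤ R →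
      U w ≤ ⟪a R, w⟫ + A * ‖w‖ ^ 2 / R + B * R ^ (1 + β) ∧
      ⟪b R, w⟫ - A * ‖w‖ ^ 2 / R - B * R ^ (1 + β) ≤ U w)
    {R R' : ℝ} (hR : 0 < R) (hRR0 : R ≤ R0) (h1 : R / 2 ≤ R') (h2 : R' ≤ R) :
    ‖b R - a R'‖ ≤ (2 * A + 4 * B) * R ^ (β / 2) := by
  have hR' : 0 < R' := by linarith
  apply lipd_key (U := U) hA hB hR (hRR0.trans hR01) hβ
  · intro w hw
    have h3 := (hab R hR hRR0 w (by linarith)).2
    have h4 : 0 ≤ A * ‖w‖ ^ 2 / R := by positivity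
    have h5 : 2 * A * ‖w‖ ^ 2 / R = 2 * (A * ‖w‖ ^ 2 / R) := by ring
    rw [h5]
    linarith
  · intro w hw
    have h3 := (hab R' hR' (h2.trans hRR0) w (by linarith)).1
    have h4 : A * ‖w‖ ^ 2 / R' ≤ 2 * A * ‖w‖ ^ 2 / R := by
      have h6 : A * ‖w‖ ^ 2 / R' ≤ A * ‖w‖ ^ 2 / (R / 2) :=
        div_le_div_of_nonneg_left (by positivity) (by positivity) h1
      have h7 : A * ‖w‖ ^ 2 / (R / 2) = 2 * A * ‖w‖ ^ 2 / R := by
        field_simp
      rw [← h7]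
      exact h6
    have h5 : B * R' ^ (1 + β) ≤ B * R ^ (1 + β) :=
      mul_le_mul_of_nonneg_left (Real.rpow_le_rpow hR'.le h2 (by positivity)) hB
    linarith


theorem expansion_of_two_sided {u : E → ℝ} {x : E} {A B β R0 : ℝ} (hA : 0 ≤ A) (hB : 0 ≤ B)
    (hβ : 0 < β) (hβ1 : β ≤ 1) (hR0 : 0 < R0) (hR01 : R0 ≤ 1)
    (h : ∀ R, 0 < R → R ≤ R0 → ∃ a b : E, ∀ w : E, ‖w‖ ≤ R →
      u (x + w) - u x ≤ ⟪a, w⟫ + A * ‖w‖ ^ 2 / R + B * R ^ (1 + β) ∧
      ⟪b, w⟫ - A * ‖w‖ ^ 2 / R - B * R ^ (1 + β) ≤ u (x + w) - u x) :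
    ∃ p : E, ∀ w : E, ‖w‖ ≤ R0 ^ ((2 + β) / 2) →
      |u (x + w) - u x - ⟪p, w⟫| ≤ 100 / β * (A + B) * ‖w‖ ^ (1 + β / (2 + β)) := by
  classical
  choose! a b hab using h
  set c0 : ℝ := 2 * A + 4 * B with hc0
  have hc0nn : 0 ≤ c0 := by positivity
  set q : ℝ := (1 / 2 : ℝ) ^ (β / 2) with hq
  have hq0 : 0 < q := Real.rpow_pos_of_pos (by norm_num) _
  have hq1 : q ≤ 1 - β / 4 := by
    have h1 := rpow_one_add_le_one_add_mul_self (s := -1 / 2) (by norm_num) (p := β / 2)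
      (by positivity) (by linarith)
    have h2 : (1 + -1 / 2 : ℝ) = 1 / 2 := by norm_num
    rw [h2] at h1
    rw [hq]
    linarith
  have hqlt : q < 1 := by linarith
  set Rk : ℕ → ℝ := fun k => R0 * (1 / 2) ^ k with hRk
  have hRkpos : ∀ k, 0 < Rk k := fun k => by positivity
  have hRkle : ∀ k, Rk k ≤ R0 := fun k => by
    have h1 : ((1 : ℝ) / 2) ^ k ≤ 1 := pow_le_one₀ (by norm_num) (by norm_num)
    simp only [hRk]
    exact mul_le_of_le_one_right hR0.le h1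
  have hRksucc : ∀ k, Rk (k + 1) = Rk k / 2 := fun k => by
    simp only [hRk, pow_succ]
    ring
  have hRkθ : ∀ k, Rk k ^ (β / 2) = R0 ^ (β / 2) * q ^ k := fun k => by
    simp only [hRk]
    rw [Real.mul_rpow hR0.le (by positivity), hq, ← Real.rpow_natCast, ← Real.rpow_mul (by norm_num),
      ← Real.rpow_natCast, ← Real.rpow_mul (by norm_num), mul_comm (k : ℝ)]
  have hpair : ∀ R R' : ℝ, 0 < R → R ≤ R0 → R / 2 ≤ R' → R' ≤ R →
      ‖b R - a R'‖ ≤ c0 * R ^ (β / 2) := fun R R' hR hRR0 h1 h2 =>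
    lipd_pair (U := fun w => u (x + w) - u x) (a := a) (b := b) hA hB hβ hR01 hab hR hRR0 h1 h2
  have hstep : ∀ k, dist (a (Rk k)) (a (Rk (k + 1))) ≤ (2 * c0 * R0 ^ (β / 2)) * q ^ k := by
    intro k
    rw [dist_eq_norm]
    have h1 := hpair (Rk k) (Rk k) (hRkpos k) (hRkle k) (by linarith [hRkpos k]) le_rfl
    have h2 := hpair (Rk k) (Rk (k + 1)) (hRkpos k) (hRkle k) (by rw [hRksucc])
      (by rw [hRksucc]; linarith [hRkpos k])
    have h3 := norm_sub_le_norm_sub_add_norm_sub (a (Rk k)) (b (Rk k)) (a (Rk (k + 1)))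
    rw [norm_sub_rev (a (Rk k)) (b (Rk k))] at h3
    rw [hRkθ] at h1 h2
    calc ‖a (Rk k) - a (Rk (k + 1))‖ ≤ ‖b (Rk k) - a (Rk k)‖ + ‖b (Rk k) - a (Rk (k + 1))‖ := h3
      _ ≤ c0 * (R0 ^ (β / 2) * q ^ k) + c0 * (R0 ^ (β / 2) * q ^ k) := add_le_add h1 h2
      _ = (2 * c0 * R0 ^ (β / 2)) * q ^ k := by ring
  obtain ⟨p, hp⟩ := cauchySeq_tendsto_of_complete (cauchySeq_of_le_geometric q _ hqlt hstep)
  have hfp : ∀ k, ‖a (Rk k) - p‖ ≤ 8 * c0 * Rk k ^ (β / 2) / β := by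
    intro k
    have h1 := dist_le_of_le_geometric_of_tendsto q _ hqlt hstep hp k
    rw [dist_eq_norm] at h1
    refine h1.trans ?_
    rw [hRkθ]
    have h2 : β / 4 ≤ 1 - q := by linarith
    have h3 : 0 ≤ 2 * c0 * R0 ^ (β / 2) * q ^ k := by positivity
    calc 2 * c0 * R0 ^ (β / 2) * q ^ k / (1 - q) ≤ 2 * c0 * R0 ^ (β / 2) * q ^ k / (β / 4) :=
          div_le_div_of_nonneg_left h3 (by positivity) h2
      _ = 8 * c0 * (R0 ^ (β / 2) * q ^ k) / β := by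
          field_simp
          ring
  refine ⟨p, fun w hw => ?_⟩
  by_cases hw0 : w = 0
  · subst hw0
    simp only [add_zero, sub_self, inner_zero_right, abs_zero, norm_zero]
    have h1 : (0 : ℝ) ≤ (0 : ℝ) ^ (1 + β / (2 + β)) := Real.rpow_nonneg le_rfl _
    positivity
  have htpos : 0 < ‖w‖ := norm_pos_iff.mpr hw0
  set t : ℝ := ‖w‖ with ht
  set e : ℝ := 2 / (2 + β) with he
  have hepos : 0 < e := by positivity
  set s : ℝ := t ^ e with hs
  set σ : ℝ := s ^ (β / 2) with hσ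
  have hspos : 0 < s := Real.rpow_pos_of_pos htpos _
  have hσpos : 0 < σ := Real.rpow_pos_of_pos hspos _
  have hsR0 : s ≤ R0 := by
    have h1 : t ^ e ≤ (R0 ^ ((2 + β) / 2)) ^ e := Real.rpow_le_rpow htpos.le hw hepos.le
    rw [← Real.rpow_mul hR0.le] at h1
    have h2 : (2 + β) / 2 * e = 1 := by
      rw [he]
      field_simp
    rw [h2, Real.rpow_one] at h1
    exact h1
  have hs1 : s ≤ 1 := hsR0.trans hR01
  have hσ1 : σ ≤ 1 := Real.rpow_le_one hspos.le hs1 (by positivity)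
  have hσt : σ = t ^ (β / (2 + β)) := by
    rw [hσ, hs, ← Real.rpow_mul htpos.le]
    congr 1
    rw [he]
    field_simp
  have htsσ : t = s * σ := by
    rw [hσt, hs, ← Real.rpow_add htpos]
    have h2 : e + β / (2 + β) = 1 := by
      rw [he]
      field_simp
    rw [h2, Real.rpow_one]
  have hτ : t ^ (1 + β / (2 + β)) = t * σ := by
    rw [Real.rpow_add htpos, Real.rpow_one, hσt]
  have hts : t ≤ s := by
    have h1 : s * σ ≤ s * 1 := mul_le_mul_of_nonneg_left hσ1 hspos.le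
    linarith
  obtain ⟨k, hk1, hk2⟩ := exists_nat_pow_near_of_lt_one (x := s / R0) (y := (1 / 2 : ℝ))
    (by positivity) ((div_le_one hR0).mpr hsR0) (by norm_num) (by norm_num)
  have hsR : s ≤ Rk k := by
    have h1 := (div_le_iff₀ hR0).mp hk2
    simp only [hRk]
    linarith
  have hR2s : Rk k ≤ 2 * s := by
    have h1 := (lt_div_iff₀ hR0).mp hk1
    simp only [hRk]
    rw [pow_succ] at h1
    linarith
  have hRpos : 0 < Rk k := hRkpos k
  have hRR0 : Rk k ≤ R0 := hRkle k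
  set R : ℝ := Rk k with hR
  set θ : ℝ := R ^ (β / 2) with hθ
  have hθpos : 0 < θ := Real.rpow_pos_of_pos hRpos _
  have hθσ : θ ≤ 2 * σ := by
    have h1 : R ^ (β / 2) ≤ (2 * s) ^ (β / 2) := Real.rpow_le_rpow hRpos.le hR2s (by positivity)
    rw [Real.mul_rpow (by norm_num) hspos.le] at h1
    have h2 : (2 : ℝ) ^ (β / 2) ≤ 2 ^ (1 : ℝ) :=
      Real.rpow_le_rpow_of_exponent_le (by norm_num) (by linarith)
    rw [Real.rpow_one] at h2
    calc θ ≤ 2 ^ (β / 2) * σ := h1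
      _ ≤ 2 * σ := mul_le_mul_of_nonneg_right h2 hσpos.le
  have hpowR : R ^ (1 + β) = R * θ ^ 2 := by
    rw [Real.rpow_add hRpos, Real.rpow_one, hθ, ← Real.rpow_natCast, ← Real.rpow_mul hRpos.le]
    congr 2
    push_cast
    ring
  set τ : ℝ := t * σ with hτdef
  have hτpos : 0 < τ := by positivity
  have hB3 : B * R ^ (1 + β) ≤ 8 * B * τ := by
    rw [hpowR]
    have h1 : θ ^ 2 ≤ (2 * σ) ^ 2 := pow_le_pow_left₀ hθpos.le hθσ 2
    have h2 : R * θ ^ 2 ≤ 2 * s * (2 * σ) ^ 2 :=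
      mul_le_mul hR2s h1 (by positivity) (by positivity)
    have h3 : 2 * s * (2 * σ) ^ 2 = 8 * τ := by
      rw [hτdef, htsσ]
      ring
    rw [h3] at h2
    have h4 := mul_le_mul_of_nonneg_left h2 hB
    linarith
  have hA2 : A * t ^ 2 / R ≤ A * τ := by
    have h1 : A * t ^ 2 / R ≤ A * t ^ 2 / s :=
      div_le_div_of_nonneg_left (by positivity) hspos hsR
    have h2 : A * t ^ 2 / s = A * τ := by
      rw [hτdef, htsσ]
      field_simp
    linarith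
  have haRp : ‖a R - p‖ ≤ 16 * c0 * σ / β := by
    have h1 : ‖a R - p‖ ≤ 8 * c0 * θ / β := hfp k
    have h2 : 8 * c0 * θ / β ≤ 16 * c0 * σ / β := by
      apply div_le_div_of_nonneg_right _ hβ.le
      have h3 := mul_le_mul_of_nonneg_left hθσ (by positivity : (0 : ℝ) ≤ 8 * c0)
      linarith
    exact h1.trans h2
  have hbRa : ‖b R - a R‖ ≤ 2 * c0 * σ := by
    have h1 := hpair R R hRpos hRR0 (by linarith) le_rfl
    have h2 := mul_le_mul_of_nonneg_left hθσ hc0nn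
    calc ‖b R - a R‖ ≤ c0 * θ := h1
      _ ≤ 2 * c0 * σ := by linarith
  have hbRp : ‖b R - p‖ ≤ 2 * c0 * σ + 16 * c0 * σ / β := by
    have h1 := norm_sub_le_norm_sub_add_norm_sub (b R) (a R) p
    linarith
  have hwR : ‖w‖ ≤ R := hts.trans hsR
  obtain ⟨hup, hlo⟩ := hab R hRpos hRR0 w hwR
  have hi1 : ⟪a R, w⟫ - ⟪p, w⟫ ≤ ‖a R - p‖ * t := by
    rw [← inner_sub_left]
    exact real_inner_le_norm _ _
  have hi2 : -(‖b R - p‖ * t) ≤ ⟪b R, w⟫ - ⟪p, w⟫ := by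
    rw [← inner_sub_left]
    exact (abs_le.mp (abs_real_inner_le_norm (b R - p) w)).1
  have hι : 1 ≤ 1 / β := by
    rw [le_div_iff₀ hβ]
    linarith
  have hfinal : (2 * c0 * σ + 16 * c0 * σ / β) * t + A * τ + 8 * B * τ ≤
      100 / β * (A + B) * τ := by
    have e1 : 16 * c0 * σ / β = 16 * c0 * σ * (1 / β) := by ring
    have e2 : 100 / β = 100 * (1 / β) := by ring
    rw [e1, e2, hτdef, hc0]
    have hP : 0 ≤ A * (t * σ) := by positivity
    have hQ : 0 ≤ B * (t * σ) := by positivity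
    have hι0 : 0 ≤ 1 / β := by positivity
    have hPa := mul_nonneg hP (sub_nonneg.mpr hι)
    have hQa := mul_nonneg hQ (sub_nonneg.mpr hι)
    have hPb := mul_nonneg hP hι0
    have hQb := mul_nonneg hQ hι0
    linarith
  rw [hτ, abs_le]
  have hn1 : ‖a R - p‖ * t ≤ 16 * c0 * σ / β * t := mul_le_mul_of_nonneg_right haRp htpos.le
  have hn2 : ‖b R - p‖ * t ≤ (2 * c0 * σ + 16 * c0 * σ / β) * t :=
    mul_le_mul_of_nonneg_right hbRp htpos.le
  have hn3 : 0 ≤ 2 * c0 * σ * t := by positivity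
  constructor
  · linarith
  · linarith

end Vale.Agent.H22.InfHarm
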