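import Mathlib

/-!
# P080, Lipschitz-constant project, row LIP-F

At a point of differentiability the pointwise Lipschitz constant is the norm of the gradient;
and a pointwise Lipschitz constant is nonnegative.

Proof sketch.  `lipAt_nonneg`: `h2` (any `ε`) gives points `y ≠ x` in every neighbourhood of
`x`; at such a point inside the neighbourhood of `h1`, `0 ≤ |u y - u x| ≤ (l + ε) ‖y - x‖`,
so `l + ε ≥ 0` for every `ε > 0`.
`norm_gradient_eq_of_lipAt`: `l ≤ ‖p‖`: eventually `|u y - u x| ≤ (‖p‖ + ε) ‖y - x‖`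
(differentiability), and frequently `(l - ε) ‖y - x‖ ≤ |u y - u x|` with `y ≠ x`.
`‖p‖ ≤ l`: if `p ≠ 0` use `y = x + t • p`, `t → 0+`:
`u y - u x = t ‖p‖ ^ 2 + o(t)` and `|u y - u x| ≤ (l + ε) t ‖p‖`; if `p = 0` use `lipAt_nonneg`.
-/

namespace Vale.Agent.H22.InfHarm

open Filter Topology Set Metric
open scoped RealInnerProductSpace

variable {E : Type*} [NormedAddCommGroup E] [InnerProductSpace ℝ E] [CompleteSpace E]

omit [InnerProductSpace ℝ E] [CompleteSpace E] in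
theorem lipAt_nonneg [NormedSpace ℝ E] {u : E → ℝ} {x : E} {l : ℝ}
    (h1 : ∀ ε > 0, ∀ᶠ y in 𝓝 x, |u y - u x| ≤ (l + ε) * ‖y - x‖)
    (h2 : ∀ ε > 0, ∃ᶠ y in 𝓝[≠] x, (l - ε) * ‖y - x‖ ≤ |u y - u x|) : 0 ≤ l := by
  by_contra hl
  rw [not_le] at hl
  have hε : (0 : ℝ) < -l / 2 := by linarith
  have e1 : ∀ᶠ y in 𝓝[≠] x, |u y - u x| ≤ (l + -l / 2) * ‖y - x‖ :=
    nhdsWithin_le_nhds (h1 _ hε)
  have e2 : ∀ᶠ y in 𝓝[≠] x, y ≠ x := self_mem_nhdsWithin
  obtain ⟨y, ⟨_, hy1⟩, hyx⟩ := (((h2 1 one_pos).and_eventually e1).and_eventually e2).exists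
  have hpos : 0 < ‖y - x‖ := norm_pos_iff.mpr (sub_ne_zero.mpr hyx)
  have hneg : |u y - u x| < 0 := by nlinarith
  linarith [abs_nonneg (u y - u x)]

theorem norm_gradient_eq_of_lipAt {u : E → ℝ} {x p : E} {l : ℝ} (hp : HasGradientAt u p x)
    (h1 : ∀ ε > 0, ∀ᶠ y in 𝓝 x, |u y - u x| ≤ (l + ε) * ‖y - x‖)
    (h2 : ∀ ε > 0, ∃ᶠ y in 𝓝[≠] x, (l - ε) * ‖y - x‖ ≤ |u y - u x|) : ‖p‖ = l := by
  have hlittle : ∀ ε > 0, ∀ᶠ y in 𝓝 x, |u y - u x - ⟪p, y - x⟫| ≤ ε * ‖y - x‖ := by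
    intro ε hε
    have h := hp.hasFDerivAt.isLittleO.bound hε
    filter_upwards [h] with y hy
    simpa [Real.norm_eq_abs] using hy
  have ha : l ≤ ‖p‖ := by
    apply le_of_forall_pos_le_add
    intro ε hε
    have hε2 : 0 < ε / 2 := by linarith
    have e1 : ∀ᶠ y in 𝓝[≠] x, |u y - u x - ⟪p, y - x⟫| ≤ ε / 2 * ‖y - x‖ :=
      nhdsWithin_le_nhds (hlittle _ hε2)
    have e2 : ∀ᶠ y in 𝓝[≠] x, y ≠ x := self_mem_nhdsWithin
    obtain ⟨y, ⟨hy2, hy1⟩, hyx⟩ :=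
      (((h2 (ε / 2) hε2).and_eventually e1).and_eventually e2).exists
    have hpos : 0 < ‖y - x‖ := norm_pos_iff.mpr (sub_ne_zero.mpr hyx)
    have hin : |⟪p, y - x⟫| ≤ ‖p‖ * ‖y - x‖ := abs_real_inner_le_norm p (y - x)
    have h3 : |u y - u x| ≤ (‖p‖ + ε / 2) * ‖y - x‖ := by
      have h4 := abs_sub_abs_le_abs_sub (u y - u x) ⟪p, y - x⟫
      nlinarith
    have h5 : (l - ε / 2) * ‖y - x‖ ≤ (‖p‖ + ε / 2) * ‖y - x‖ := hy2.trans h3
    have h6 := le_of_mul_le_mul_right h5 hpos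
    linarith
  have hb : ‖p‖ ≤ l := by
    by_cases hp0 : p = 0
    · rw [hp0, norm_zero]
      exact lipAt_nonneg h1 h2
    · have hpn : 0 < ‖p‖ := norm_pos_iff.mpr hp0
      apply le_of_forall_pos_le_add
      intro ε hε
      have hε2 : 0 < ε / 2 := by linarith
      obtain ⟨δ, hδ, hball⟩ :=
        Metric.eventually_nhds_iff.mp ((hlittle (ε / 2) hε2).and (h1 (ε / 2) hε2))
      set t : ℝ := δ / (2 * ‖p‖) with ht
      have htpos : 0 < t := by positivity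
      have hyx : (x + t • p) - x = t • p := by abel
      have hnorm : ‖(x + t • p) - x‖ = t * ‖p‖ := by
        rw [hyx, norm_smul, Real.norm_of_nonneg htpos.le]
      have htp : t * ‖p‖ = δ / 2 := by
        rw [ht]
        field_simp
      have hdist : dist (x + t • p) x < δ := by
        rw [dist_eq_norm, hnorm, htp]
        linarith
      obtain ⟨hA, hB⟩ := hball hdist
      have hinner : ⟪p, (x + t • p) - x⟫ = t * ‖p‖ ^ 2 := by
        rw [hyx, inner_smul_right, real_inner_self_eq_norm_sq]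
      rw [hinner, hnorm] at hA
      rw [hnorm] at hB
      have h3 : t * ‖p‖ ^ 2 - ε / 2 * (t * ‖p‖) ≤ u (x + t • p) - u x := by
        linarith [(abs_le.mp hA).1]
      have h4 : u (x + t • p) - u x ≤ (l + ε / 2) * (t * ‖p‖) := (le_abs_self _).trans hB
      have hpos : 0 < t * ‖p‖ := mul_pos htpos hpn
      have h5 : (‖p‖ - ε / 2) * (t * ‖p‖) ≤ (l + ε / 2) * (t * ‖p‖) := by nlinarith
      have h6 := le_of_mul_le_mul_right h5 hpos
      linarith
  exact le_antisymm hb ha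

end Vale.Agent.H22.InfHarm
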