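import Vale.Agent.H22.InfHarm.LipA
import Vale.Agent.H22.InfHarm.LipC
import Vale.Agent.H22.InfHarm.LipD
import Vale.Agent.H22.InfHarm.LipE
import Vale.Agent.H22.InfHarm.LipF

/-!
# P080: Hölder continuity of the pointwise Lipschitz constant gives `C^{1,γ}` regularity

Assembly of the rows `LipA` - `LipF`.  If the pointwise Lipschitz constant `L` of an
infinity-harmonic function `u` is locally Hölder continuous of exponent `β`, then `u` is `C^1`,
`‖∇u‖ = L`, and `∇u` is locally Hölder continuous of exponent `β / (2 + β)`.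
-/

namespace Vale.Agent.H22.InfHarm

open Filter Topology Set Metric
open scoped RealInnerProductSpace

variable {E : Type*} [NormedAddCommGroup E] [InnerProductSpace ℝ E] [CompleteSpace E]

/-- The quantitative local statement: a gradient field with an explicit Hölder bound on an
explicit ball. -/
theorem lip_holder_explicit [FiniteDimensional ℝ E] {u : E → ℝ} {Ω : Set E}
    (hu : IsInfHarmonicOn u Ω) (L : E → ℝ) {β : ℝ} (hβ : 0 < β) (hβ1 : β ≤ 1)
    (hL1 : ∀ x ∈ Ω, ∀ ε > 0, ∀ᶠ y in 𝓝 x, |u y - u x| ≤ (L x + ε) * ‖y - x‖)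
    (hL2 : ∀ x ∈ Ω, ∀ ε > 0, ∃ᶠ y in 𝓝[≠] x, (L x - ε) * ‖y - x‖ ≤ |u y - u x|)
    {x0 : E} {τ H : ℝ} (hτ : 0 < τ) (hτ1 : τ ≤ 1) (hH0 : 0 ≤ H)
    (hballΩ : closedBall x0 τ ⊆ Ω)
    (hH : ∀ x ∈ ball x0 τ, ∀ y ∈ ball x0 τ, |L x - L y| ≤ H * ‖x - y‖ ^ β) :
    ∃ g : E → E, (∀ x ∈ ball x0 ((τ / 4) ^ ((2 + β) / 2) / 4), HasGradientAt u (g x) x) ∧
      ∀ x ∈ ball x0 ((τ / 4) ^ ((2 + β) / 2) / 4), ∀ y ∈ ball x0 ((τ / 4) ^ ((2 + β) / 2) / 4),
        ‖g x - g y‖ ≤ 600 / β * (L x0 / 2 + 3 * H) * ‖x - y‖ ^ (β / (2 + β)) := by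
  have hx0 : x0 ∈ Ω := hballΩ (mem_closedBall_self hτ.le)
  set r1 := τ / 4 with hr1
  have hr1pos : 0 < r1 := by positivity
  have hr1le1 : 4 * r1 ≤ 1 := by rw [hr1]; linarith
  have hr1ρ : 4 * r1 ≤ τ := by rw [hr1]; linarith
  have hL0 : ∀ x ∈ Ω, 0 ≤ L x := fun x hx => lipAt_nonneg (hL1 x hx) (hL2 x hx)
  set A0 := (L x0 + 2 * H) / 2 with hA0def
  set B0 := 2 * H with hB0def
  have hA0 : 0 ≤ A0 := by
    have := hL0 x0 hx0
    rw [hA0def]; positivity
  have hB0 : 0 ≤ B0 := by rw [hB0def]; positivity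
  have key : ∀ x ∈ ball x0 r1, ∀ R, 0 < R → R ≤ r1 → ∃ a b : E, ∀ w : E, ‖w‖ ≤ R →
      u (x + w) - u x ≤ ⟪a, w⟫ + A0 * ‖w‖ ^ 2 / R + B0 * R ^ (1 + β) ∧
      ⟪b, w⟫ - A0 * ‖w‖ ^ 2 / R - B0 * R ^ (1 + β) ≤ u (x + w) - u x := by
    intro x hx R hR hRr
    have hxx0 : dist x x0 < r1 := hx
    have hsub : closedBall x (2 * R) ⊆ ball x0 (4 * r1) := by
      intro z hz
      rw [mem_closedBall] at hz
      rw [mem_ball]
      calc dist z x0 ≤ dist z x + dist x x0 := dist_triangle _ _ _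
        _ < 2 * R + r1 := by linarith
        _ ≤ 4 * r1 := by linarith
    have hsubH : closedBall x (2 * R) ⊆ ball x0 τ :=
      fun z hz => ball_subset_ball hr1ρ (hsub hz)
    have hsubΩ : closedBall x (2 * R) ⊆ Ω :=
      fun z hz => hballΩ (ball_subset_closedBall (hsubH hz))
    have hxH : x ∈ ball x0 τ := ball_subset_ball (by linarith) hx
    have hxΩ : x ∈ Ω := hsubΩ (mem_closedBall_self (by positivity))
    set M := L x + H * (2 * R) ^ β with hM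
    have h2R : 2 * R ≤ 1 := by linarith
    have hpow : (2 * R) ^ β ≤ 1 := Real.rpow_le_one (by positivity) h2R hβ.le
    have hLM : ∀ z ∈ closedBall x (2 * R), L z ≤ M := by
      intro z hz
      have h1 := hH z (hsubH hz) x hxH
      have h2 : ‖z - x‖ ^ β ≤ (2 * R) ^ β :=
        Real.rpow_le_rpow (norm_nonneg _) (by simpa [dist_eq_norm] using hz) hβ.le
      have h3 := (abs_le.1 h1).2
      have h4 : H * ‖z - x‖ ^ β ≤ H * (2 * R) ^ β := mul_le_mul_of_nonneg_left h2 hH0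
      rw [hM]; linarith
    have hLip := lip_on_convex (convex_closedBall x (2 * R)) (hu.1.mono hsubΩ)
      (fun z hz => hL1 z (hsubΩ hz)) hLM
    have hMx : L x ≤ M := by
      have h1 : 0 ≤ H * (2 * R) ^ β := by positivity
      rw [hM]; linarith
    obtain ⟨a, b, hab⟩ := two_sided_bound hu hR hsubΩ (hL2 x hxΩ) (hL0 x hxΩ) hMx hLip
    refine ⟨a, b, fun w hw => ?_⟩
    obtain ⟨h1, h2⟩ := hab w hw
    have hLx : L x ≤ L x0 + H := by
      have h3 := hH x hxH x0 (mem_ball_self hτ)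
      have h4 : ‖x - x0‖ ^ β ≤ 1 :=
        Real.rpow_le_one (norm_nonneg _) (by rw [← dist_eq_norm]; linarith) hβ.le
      have h5 := (abs_le.1 h3).2
      have h6 : H * ‖x - x0‖ ^ β ≤ H * 1 := mul_le_mul_of_nonneg_left h4 hH0
      linarith
    have hM2 : M ≤ L x0 + 2 * H := by
      have h3 : H * (2 * R) ^ β ≤ H * 1 := mul_le_mul_of_nonneg_left hpow hH0
      rw [hM]; linarith
    have e1 : M * ‖w‖ ^ 2 / (2 * R) ≤ A0 * ‖w‖ ^ 2 / R := by
      have h3 : M * ‖w‖ ^ 2 / (2 * R) = (M / 2) * ‖w‖ ^ 2 / R := by field_simp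
      rw [h3]
      have h4 : M / 2 ≤ A0 := by rw [hA0def]; linarith
      gcongr
    have e2 : (M - L x) * R ≤ B0 * R ^ (1 + β) := by
      have h5 : M - L x = H * (2 * R) ^ β := by rw [hM]; ring
      rw [h5, Real.mul_rpow (by norm_num) hR.le]
      have h6 : (2:ℝ) ^ β ≤ 2 := by
        calc (2:ℝ) ^ β ≤ 2 ^ (1:ℝ) := Real.rpow_le_rpow_of_exponent_le (by norm_num) hβ1
          _ = 2 := Real.rpow_one 2
      have h7 : R ^ (1 + β) = R * R ^ β := by rw [Real.rpow_add hR, Real.rpow_one]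
      rw [h7]
      have h8 : 0 ≤ R ^ β := Real.rpow_nonneg hR.le _
      have h9 : H * (2 ^ β * R ^ β) * R = (2:ℝ) ^ β * (H * (R * R ^ β)) := by ring
      have h10 : B0 * (R * R ^ β) = 2 * (H * (R * R ^ β)) := by rw [hB0def]; ring
      rw [h9, h10]
      exact mul_le_mul_of_nonneg_right h6 (by positivity)
    constructor <;> linarith
  have hexp : ∀ x ∈ ball x0 r1, ∃ p : E, ∀ w : E, ‖w‖ ≤ r1 ^ ((2 + β) / 2) →
      |u (x + w) - u x - ⟪p, w⟫| ≤ 100 / β * (A0 + B0) * ‖w‖ ^ (1 + β / (2 + β)) :=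
    fun x hx => expansion_of_two_sided hA0 hB0 hβ hβ1 hr1pos (by linarith) (key x hx)
  choose! g hg using hexp
  set ρ := r1 ^ ((2 + β) / 2) with hρ
  have hρpos : 0 < ρ := Real.rpow_pos_of_pos hr1pos _
  have hρr1 : ρ ≤ r1 := by
    have h1 : r1 ^ ((2 + β) / 2) ≤ r1 ^ (1:ℝ) :=
      Real.rpow_le_rpow_of_exponent_ge hr1pos (by linarith) (by linarith)
    rwa [Real.rpow_one] at h1
  have hγ : 0 < β / (2 + β) := by positivity
  have hγ1 : β / (2 + β) ≤ 1 := by rw [div_le_one (by positivity)]; linarith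
  have hC0 : 0 ≤ 100 / β * (A0 + B0) := by positivity
  obtain ⟨hgrad, hhol⟩ := holder_of_expansion hρpos hC0 hγ hγ1 g hg
  have hsubball : ball x0 (ρ / 4) ⊆ ball x0 r1 := ball_subset_ball (by linarith)
  have hCeq : 6 * (100 / β * (A0 + B0)) = 600 / β * (L x0 / 2 + 3 * H) := by
    rw [hA0def, hB0def]; field_simp; ring
  refine ⟨g, fun x hx => hgrad x (hsubball hx), fun x hx y hy => ?_⟩
  rw [← hCeq]
  refine hhol x (hsubball hx) y (hsubball hy) ?_
  have h1 : dist x x0 < ρ / 4 := hx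
  have h2 : dist y x0 < ρ / 4 := hy
  have h3 := dist_triangle_right x y x0
  rw [← dist_eq_norm]; linarith

/-- **Main theorem.**  Let `u` be infinity-harmonic on the open set `Ω` and let `L x` be its
pointwise Lipschitz constant at `x` (`hL1`, `hL2`).  If `L` is locally Hölder continuous of
exponent `β ∈ (0, 1]` on `Ω`, then `u` is `C^1` on `Ω`, `‖∇u‖ = L`, and `∇u` is locally Hölder
continuous of exponent `β / (2 + β)`, with an explicit interior estimate. -/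
theorem lip_holder_main [FiniteDimensional ℝ E] {u : E → ℝ} {Ω : Set E} (hΩ : IsOpen Ω)
    (hu : IsInfHarmonicOn u Ω) (L : E → ℝ) {β : ℝ} (hβ : 0 < β) (hβ1 : β ≤ 1)
    (hL1 : ∀ x ∈ Ω, ∀ ε > 0, ∀ᶠ y in 𝓝 x, |u y - u x| ≤ (L x + ε) * ‖y - x‖)
    (hL2 : ∀ x ∈ Ω, ∀ ε > 0, ∃ᶠ y in 𝓝[≠] x, (L x - ε) * ‖y - x‖ ≤ |u y - u x|)
    (hH : ∀ x0 ∈ Ω, ∃ r > 0, ∃ H : ℝ, ∀ x ∈ ball x0 r, ∀ y ∈ ball x0 r,
      |L x - L y| ≤ H * ‖x - y‖ ^ β) :
    ContDiffOn ℝ 1 u Ω ∧ (∀ x ∈ Ω, ‖gradient u x‖ = L x) ∧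
    ∀ (τ H : ℝ), 0 < τ → τ ≤ 1 → 0 ≤ H → ∀ x0 : E, closedBall x0 τ ⊆ Ω →
      (∀ x ∈ ball x0 τ, ∀ y ∈ ball x0 τ, |L x - L y| ≤ H * ‖x - y‖ ^ β) →
      ∀ x ∈ ball x0 ((τ / 4) ^ ((2 + β) / 2) / 4),
        ∀ y ∈ ball x0 ((τ / 4) ^ ((2 + β) / 2) / 4),
          ‖gradient u x - gradient u y‖
            ≤ 600 / β * (L x0 / 2 + 3 * H) * ‖x - y‖ ^ (β / (2 + β)) := by
  have hloc : ∀ x0 ∈ Ω, ∃ r > 0, ∃ C : ℝ,
      (∀ x ∈ ball x0 r, HasGradientAt u (gradient u x) x) ∧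
      ∀ x ∈ ball x0 r, ∀ y ∈ ball x0 r,
        ‖gradient u x - gradient u y‖ ≤ C * ‖x - y‖ ^ (β / (2 + β)) := by
    intro x0 hx0
    obtain ⟨rH, hrH, H, hHx⟩ := hH x0 hx0
    obtain ⟨ρΩ, hρΩ, hballΩ⟩ := Metric.nhds_basis_closedBall.mem_iff.1 (hΩ.mem_nhds hx0)
    set τ := min 1 (min ρΩ rH) with hτdef
    have hτ : 0 < τ := by positivity
    have hτ1 : τ ≤ 1 := min_le_left _ _
    have hτρ : τ ≤ ρΩ := (min_le_right _ _).trans (min_le_left _ _)
    have hτH : τ ≤ rH := (min_le_right _ _).trans (min_le_right _ _)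
    have hHH' : ∀ x ∈ ball x0 τ, ∀ y ∈ ball x0 τ, |L x - L y| ≤ max H 0 * ‖x - y‖ ^ β := by
      intro x hx y hy
      exact (hHx x (ball_subset_ball hτH hx) y (ball_subset_ball hτH hy)).trans
        (mul_le_mul_of_nonneg_right (le_max_left _ _) (Real.rpow_nonneg (norm_nonneg _) _))
    obtain ⟨g, hg1, hg2⟩ := lip_holder_explicit hu L hβ hβ1 hL1 hL2 hτ hτ1 (le_max_right H 0)
      ((closedBall_subset_closedBall hτρ).trans hballΩ) hHH'
    have hrpos : 0 < (τ / 4) ^ ((2 + β) / 2) / 4 := by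
      have : 0 < (τ / 4) ^ ((2 + β) / 2) := Real.rpow_pos_of_pos (by positivity) _
      positivity
    have heq : ∀ x ∈ ball x0 ((τ / 4) ^ ((2 + β) / 2) / 4), gradient u x = g x :=
      fun x hx => (hg1 x hx).gradient
    refine ⟨(τ / 4) ^ ((2 + β) / 2) / 4, hrpos, 600 / β * (L x0 / 2 + 3 * max H 0),
      fun x hx => by rw [heq x hx]; exact hg1 x hx, fun x hx y hy => ?_⟩
    rw [heq x hx, heq y hy]
    exact hg2 x hx y hy
  have hgrad : ∀ x ∈ Ω, HasGradientAt u (gradient u x) x := by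
    intro x hx
    obtain ⟨r, hr, C, h1, -⟩ := hloc x hx
    exact h1 x (mem_ball_self hr)
  have hgcont : ContinuousOn (gradient u) Ω := by
    intro x hx
    obtain ⟨r, hr, C, -, h2⟩ := hloc x hx
    apply ContinuousAt.continuousWithinAt
    rw [ContinuousAt, tendsto_iff_norm_sub_tendsto_zero]
    have hγ : 0 < β / (2 + β) := by positivity
    have hcont : Continuous (fun y : E => C * ‖y - x‖ ^ (β / (2 + β))) := by
      refine continuous_const.mul (Continuous.rpow_const (by fun_prop) ?_)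
      intro y; right; exact hγ.le
    have h0 := hcont.tendsto x
    simp only [sub_self, norm_zero] at h0
    rw [Real.zero_rpow hγ.ne', mul_zero] at h0
    refine squeeze_zero' (Eventually.of_forall fun y => norm_nonneg _) ?_ h0
    filter_upwards [Metric.ball_mem_nhds x hr] with y hy
    exact h2 y hy x (mem_ball_self hr)
  refine ⟨?_, ?_, ?_⟩
  · rw [show (1 : WithTop ℕ∞) = 0 + 1 from (zero_add 1).symm,
      contDiffOn_succ_iff_fderiv_of_isOpen hΩ]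
    refine ⟨fun x hx => (hgrad x hx).differentiableAt.differentiableWithinAt, by simp, ?_⟩
    rw [contDiffOn_zero]
    have h1 : ContinuousOn (fun y => InnerProductSpace.toDual ℝ E (gradient u y)) Ω :=
      (LinearIsometryEquiv.continuous _).comp_continuousOn hgcont
    exact h1.congr (fun y hy => (hasGradientAt_iff_hasFDerivAt.1 (hgrad y hy)).fderiv)
  · intro x hx
    exact norm_gradient_eq_of_lipAt (hgrad x hx) (hL1 x hx) (hL2 x hx)
  · intro τ H hτ hτ1 hH0 x0 hballΩ hHx x hx y hy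
    obtain ⟨g, hg1, hg2⟩ := lip_holder_explicit hu L hβ hβ1 hL1 hL2 hτ hτ1 hH0 hballΩ hHx
    rw [(hg1 x hx).gradient, (hg1 y hy).gradient]
    exact hg2 x hx y hy

end Vale.Agent.H22.InfHarm
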