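import Vale.Agent.H22.InfHarm.Convex

/-!
# Semiconvex viscosity supersolutions of the infinity-Laplace equation: subgradients
-/

namespace Vale.Agent.H22.InfHarm

open Filter Topology Set Metric
open scoped RealInnerProductSpace

variable {E : Type*} [NormedAddCommGroup E] [InnerProductSpace ℝ E] [CompleteSpace E]

omit [CompleteSpace E] in
/-- A convex function lying above a downward cone near `x` lies above it everywhere. -/
theorem cone_le_global {F : E → ℝ} {Ω : Set E} (hF : ConvexOn ℝ Ω F)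
    {x : E} (hx : x ∈ Ω) {s r : ℝ} (hr : 0 < r)
    (hcone : ∀ y ∈ ball x r, y ∈ Ω → F x - s * ‖y - x‖ ≤ F y) :
    ∀ y ∈ Ω, F x - s * ‖y - x‖ ≤ F y := by
  intro y hy
  set θ := r / (r + ‖y - x‖ + 1) with hθ
  have hden : 0 < r + ‖y - x‖ + 1 := by positivity
  have hθ0 : 0 < θ := by positivity
  have hθ1 : θ ≤ 1 := by
    rw [hθ, div_le_one hden]; linarith [norm_nonneg (y - x)]
  set w := (1 - θ) • x + θ • y with hw
  have hwx : w - x = θ • (y - x) := by
    rw [hw, smul_sub, sub_smul, one_smul]; abel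
  have hwn : ‖w - x‖ = θ * ‖y - x‖ := by
    rw [hwx, norm_smul, Real.norm_eq_abs, abs_of_pos hθ0]
  have hwball : w ∈ ball x r := by
    rw [mem_ball, dist_eq_norm, hwn, hθ, div_mul_eq_mul_div, div_lt_iff₀ hden]
    nlinarith [norm_nonneg (y - x)]
  have hwΩ : w ∈ Ω := hF.1 hx hy (by linarith) hθ0.le (by ring)
  have h1 := hcone w hwball hwΩ
  have h2 := hF.2 hx hy (by linarith : (0:ℝ) ≤ 1 - θ) hθ0.le (by ring)
  simp only [smul_eq_mul] at h2
  rw [hwn] at h1
  have h3 : θ * (F x - s * ‖y - x‖) ≤ θ * F y := by nlinarith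
  exact le_of_mul_le_mul_left h3 hθ0

/-- Cone sandwich (Hahn–Banach): a convex function lying above a downward cone of slope `s`
with vertex on its graph at `x` has a subgradient of norm at most `s` at `x`. -/
theorem exists_subgrad_of_cone_le {F : E → ℝ} {Ω : Set E} (hF : ConvexOn ℝ Ω F)
    {x : E} (hx : x ∈ Ω) {s r : ℝ} (hs : 0 ≤ s) (hr : 0 < r)
    (hcone : ∀ y ∈ ball x r, y ∈ Ω → F x - s * ‖y - x‖ ≤ F y) :
    ∃ q : E, ‖q‖ ≤ s ∧ ∀ y ∈ Ω, F x + ⟪q, y - x⟫ ≤ F y := by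
  have hglob := cone_le_global hF hx hr hcone
  set A : Set (E × ℝ) := {p | p.2 < F x - s * ‖p.1 - x‖} with hA
  set B : Set (E × ℝ) := {p | p.1 ∈ Ω ∧ F p.1 ≤ p.2} with hB
  have hAopen : IsOpen A := by
    rw [hA]
    exact isOpen_lt continuous_snd (by fun_prop)
  have hAconv : Convex ℝ A := by
    intro p hp q hq a b ha hb hab
    simp only [hA, mem_ofPred_eq, Prod.snd_add, Prod.smul_snd, Prod.fst_add, Prod.smul_fst,
      smul_eq_mul] at hp hq ⊢
    have e1 : a • p.1 + b • q.1 - x = a • (p.1 - x) + b • (q.1 - x) := by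
      rw [smul_sub, smul_sub]
      have : x = a • x + b • x := by rw [← add_smul, hab, one_smul]
      nth_rewrite 1 [this]
      abel
    have h1 : ‖a • p.1 + b • q.1 - x‖ ≤ a * ‖p.1 - x‖ + b * ‖q.1 - x‖ := by
      rw [e1]
      calc ‖a • (p.1 - x) + b • (q.1 - x)‖ ≤ ‖a • (p.1 - x)‖ + ‖b • (q.1 - x)‖ := norm_add_le _ _
        _ = a * ‖p.1 - x‖ + b * ‖q.1 - x‖ := by
          rw [norm_smul, norm_smul, Real.norm_eq_abs, Real.norm_eq_abs, abs_of_nonneg ha,
            abs_of_nonneg hb]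
    have h2 : s * ‖a • p.1 + b • q.1 - x‖ ≤ s * (a * ‖p.1 - x‖ + b * ‖q.1 - x‖) :=
      mul_le_mul_of_nonneg_left h1 hs
    rcases ha.eq_or_lt with ha0 | hapos
    · have hb1 : b = 1 := by linarith
      rw [← ha0, hb1] at h2 ⊢
      simp only [zero_mul, one_mul, zero_add, zero_smul, one_smul] at h2 ⊢
      linarith
    · have h3 : a * p.2 < a * (F x - s * ‖p.1 - x‖) := mul_lt_mul_of_pos_left hp hapos
      have h4 : b * q.2 ≤ b * (F x - s * ‖q.1 - x‖) := mul_le_mul_of_nonneg_left hq.le hb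
      have h5 : a * (F x - s * ‖p.1 - x‖) + b * (F x - s * ‖q.1 - x‖)
          = F x - s * (a * ‖p.1 - x‖ + b * ‖q.1 - x‖) := by
        have : a * F x + b * F x = F x := by rw [← add_mul, hab, one_mul]
        linear_combination this
      linarith
  have hBconv : Convex ℝ B := hF.convex_epigraph
  have hdisj : Disjoint A B := by
    rw [Set.disjoint_left]
    rintro p hpA ⟨hpΩ, hpB⟩
    have := hglob p.1 hpΩ
    simp only [hA, mem_ofPred_eq] at hpA
    linarith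
  obtain ⟨f, c0, hfA, hfB⟩ := geometric_hahn_banach_open hAconv hAopen hBconv hdisj
  set ℓ : E →L[ℝ] ℝ := f.comp (ContinuousLinearMap.inl ℝ E ℝ) with hℓ
  set κ : ℝ := f (0, 1) with hκ
  have hf : ∀ (y : E) (t : ℝ), f (y, t) = ℓ y + t * κ := by
    intro y t
    have e : ((y, t) : E × ℝ) = (y, 0) + t • ((0 : E), (1 : ℝ)) := by
      simp
    rw [e, map_add, map_smul, smul_eq_mul]
    rfl
  have hxB : ((x, F x) : E × ℝ) ∈ B := ⟨hx, le_rfl⟩
  have hxA : ∀ t, t < F x → ((x, t) : E × ℝ) ∈ A := by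
    intro t ht
    simp only [hA, mem_ofPred_eq, sub_self, norm_zero, mul_zero, sub_zero]
    exact ht
  have h1 := hfB _ hxB
  rw [hf] at h1
  have h2 := hfA _ (hxA (F x - 1) (by linarith))
  rw [hf] at h2
  have hκpos : 0 < κ := by nlinarith
  have hc0 : c0 = ℓ x + F x * κ := by
    apply le_antisymm h1
    by_contra hcon
    push Not at hcon
    have h3 := hfA _ (hxA ((c0 - ℓ x) / κ) (by
      rw [div_lt_iff₀ hκpos]; linarith))
    rw [hf, div_mul_cancel₀ _ hκpos.ne'] at h3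
    linarith
  -- the linear functional `L = -ℓ/κ`
  set q : E := (InnerProductSpace.toDual ℝ E).symm ((-κ⁻¹) • ℓ) with hq
  have hqin : ∀ d : E, ⟪q, d⟫ = -κ⁻¹ * ℓ d := by
    intro d
    rw [hq, InnerProductSpace.toDual_symm_apply]
    rfl
  have hbound : ∀ d : E, ℓ d ≤ κ * (s * ‖d‖) := by
    intro d
    by_contra hcon
    push Not at hcon
    -- choose t slightly below F x - s ‖d‖
    set t := F x - s * ‖d‖ - (ℓ d - κ * (s * ‖d‖)) / (2 * κ) with ht
    have htA : ((x + d, t) : E × ℝ) ∈ A := by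
      simp only [hA, mem_ofPred_eq, add_sub_cancel_left]
      rw [ht]
      have : 0 < (ℓ d - κ * (s * ‖d‖)) / (2 * κ) := by
        apply div_pos (by linarith) (by positivity)
      linarith
    have h3 := hfA _ htA
    rw [hf, hc0, map_add] at h3
    have h4 : t * κ = (F x - s * ‖d‖) * κ - (ℓ d - κ * (s * ‖d‖)) / 2 := by
      rw [ht]; field_simp
    rw [h4] at h3
    nlinarith
  refine ⟨q, ?_, ?_⟩
  · have h3 := hbound (-q)
    rw [map_neg, norm_neg] at h3
    have h4 : ‖q‖ ^ 2 = -κ⁻¹ * ℓ q := by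
      rw [← real_inner_self_eq_norm_sq, hqin]
    have h5 : κ * ‖q‖ ^ 2 = -ℓ q := by
      rw [h4]; field_simp
    have h6 : ‖q‖ * ‖q‖ ≤ s * ‖q‖ := by
      have : κ * (‖q‖ * ‖q‖) ≤ κ * (s * ‖q‖) := by nlinarith
      exact le_of_mul_le_mul_left this hκpos
    rcases eq_or_lt_of_le (norm_nonneg q) with h0 | hpos
    · rw [← h0]; exact hs
    · exact le_of_mul_le_mul_right h6 hpos
  · intro y hy
    have h3 := hfB (y, F y) ⟨hy, le_rfl⟩
    rw [hf, hc0] at h3
    rw [hqin, map_sub]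
    have h4 : -κ⁻¹ * (ℓ y - ℓ x) = (ℓ x - ℓ y) / κ := by field_simp; ring
    rw [h4]
    have h5 : (ℓ x - ℓ y) / κ ≤ F y - F x := by
      rw [div_le_iff₀ hκpos]; nlinarith
    linarith

/-- `p` is a `K`-subgradient of `u` at `x` relative to `Ω`
(a subgradient up to the quadratic error `K/2 |y - x|²`). -/
def IsKSubgrad (K : ℝ) (u : E → ℝ) (Ω : Set E) (p x : E) : Prop :=
  ∀ y ∈ Ω, u x + ⟪p, y - x⟫ - K / 2 * ‖y - x‖ ^ 2 ≤ u y

/-- The quadratic test function `φ(y) = c + ⟪r, y - z⟫ + M ⟪e, y - z⟫² - K/2 |y - z|²`. -/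
theorem quadratic_test_K (c : ℝ) (r e z : E) (M K : ℝ) :
    ContDiffAt ℝ 2 (fun y : E => c + ⟪r, y - z⟫ + M * ⟪e, y - z⟫ ^ 2 - K / 2 * ‖y - z‖ ^ 2) z ∧
    infLaplacian (fun y : E => c + ⟪r, y - z⟫ + M * ⟪e, y - z⟫ ^ 2 - K / 2 * ‖y - z‖ ^ 2) z
      = 2 * (M * ⟪e, r⟫ ^ 2 - K / 2 * ‖r‖ ^ 2) := by
  set φ : E → ℝ := fun y : E => c + ⟪r, y - z⟫ + M * ⟪e, y - z⟫ ^ 2 - K / 2 * ‖y - z‖ ^ 2
    with hφdef
  have hsmooth : ContDiffAt ℝ 2 φ z := by
    have h1 : ContDiff ℝ 2 (fun y : E => ⟪r, y - z⟫) :=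
      contDiff_const.inner ℝ (contDiff_id.sub contDiff_const)
    have h2 : ContDiff ℝ 2 (fun y : E => ⟪e, y - z⟫) :=
      contDiff_const.inner ℝ (contDiff_id.sub contDiff_const)
    have h3 : ContDiff ℝ 2 (fun y : E => ‖y - z‖ ^ 2) :=
      (contDiff_id.sub contDiff_const).norm_sq ℝ
    have : ContDiff ℝ 2 φ :=
      ((contDiff_const.add h1).add (contDiff_const.mul (h2.pow 2))).sub (contDiff_const.mul h3)
    exact this.contDiffAt
  have hgrad : HasGradientAt φ r z := by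
    rw [hasGradientAt_iff_hasFDerivAt]
    apply hasFDerivAt_of_sq_bound (C := |M| * ‖e‖ ^ 2 + |K| / 2)
    filter_upwards with y
    have e1 : φ y - φ z - (InnerProductSpace.toDual ℝ E r) (y - z)
        = M * ⟪e, y - z⟫ ^ 2 - K / 2 * ‖y - z‖ ^ 2 := by
      simp [hφdef]
      ring
    rw [e1]
    have h0 : |⟪e, y - z⟫| ^ 2 ≤ (‖e‖ * ‖y - z‖) ^ 2 := by
      have := abs_real_inner_le_norm e (y - z)
      gcongr
    have h1 : |M * ⟪e, y - z⟫ ^ 2| ≤ |M| * ‖e‖ ^ 2 * ‖y - z‖ ^ 2 := by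
      rw [abs_mul, abs_pow]
      calc |M| * |⟪e, y - z⟫| ^ 2 ≤ |M| * (‖e‖ * ‖y - z‖) ^ 2 := by gcongr
        _ = |M| * ‖e‖ ^ 2 * ‖y - z‖ ^ 2 := by ring
    have h2 : |K / 2 * ‖y - z‖ ^ 2| = |K| / 2 * ‖y - z‖ ^ 2 := by
      rw [abs_mul, abs_div, abs_pow, abs_norm]; norm_num
    calc |M * ⟪e, y - z⟫ ^ 2 - K / 2 * ‖y - z‖ ^ 2|
        ≤ |M * ⟪e, y - z⟫ ^ 2| + |K / 2 * ‖y - z‖ ^ 2| := abs_sub _ _
      _ ≤ |M| * ‖e‖ ^ 2 * ‖y - z‖ ^ 2 + |K| / 2 * ‖y - z‖ ^ 2 := by rw [h2]; linarith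
      _ = (|M| * ‖e‖ ^ 2 + |K| / 2) * ‖y - z‖ ^ 2 := by ring
  refine ⟨hsmooth, ?_⟩
  apply infLaplacian_eq_two_mul hsmooth (a := c) (b := ‖r‖ ^ 2)
  rw [hgrad.gradient]
  filter_upwards with t
  simp only [hφdef, add_sub_cancel_left, inner_smul_right, real_inner_self_eq_norm_sq,
    norm_smul, Real.norm_eq_abs, mul_pow, sq_abs]
  ring

/-- A viscosity supersolution has at most one `K`-subgradient at each point. -/
theorem ksubgrad_unique {K : ℝ} {u : E → ℝ} {Ω : Set E} (hΩ : IsOpen Ω)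
    (hsuper : IsInfSuperharmonicOn u Ω) {z p q : E} (hz : z ∈ Ω)
    (hp : IsKSubgrad K u Ω p z) (hq : IsKSubgrad K u Ω q z) : p = q := by
  have key : ∀ t : ℝ, 0 < t → t < 1 → ⟪p - q, t • p + (1 - t) • q⟫ = 0 := by
    intro t ht0 ht1
    obtain ⟨e, he⟩ : ∃ e : E, e = p - q := ⟨_, rfl⟩
    obtain ⟨r, hr⟩ : ∃ r : E, r = t • p + (1 - t) • q := ⟨_, rfl⟩
    rw [← he, ← hr]
    set m := min t (1 - t) with hm
    have hm0 : 0 < m := lt_min ht0 (by linarith)
    have hM : ∀ M : ℝ, 0 < M → M * ⟪e, r⟫ ^ 2 ≤ K / 2 * ‖r‖ ^ 2 := by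
      intro M hMpos
      obtain ⟨hsm, hlap⟩ := quadratic_test_K (u z) r e z M K
      have hloc : IsLocalMin (fun y => u y -
          (u z + ⟪r, y - z⟫ + M * ⟪e, y - z⟫ ^ 2 - K / 2 * ‖y - z‖ ^ 2)) z := by
        have h1 : Ω ∈ 𝓝 z := hΩ.mem_nhds hz
        have h2 : ball z (m / (M * (‖e‖ + 1))) ∈ 𝓝 z := ball_mem_nhds z (by positivity)
        filter_upwards [h1, h2] with y hy hy2
        have hz0 : u z - (u z + ⟪r, z - z⟫ + M * ⟪e, z - z⟫ ^ 2 - K / 2 * ‖z - z‖ ^ 2) = 0 := by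
          simp
        change u z - (u z + ⟪r, z - z⟫ + M * ⟪e, z - z⟫ ^ 2 - K / 2 * ‖z - z‖ ^ 2)
          ≤ u y - (u z + ⟪r, y - z⟫ + M * ⟪e, y - z⟫ ^ 2 - K / 2 * ‖y - z‖ ^ 2)
        rw [hz0]
        have hpy := hp y hy
        have hqy := hq y hy
        obtain ⟨a, ha⟩ : ∃ a : ℝ, a = ⟪e, y - z⟫ := ⟨_, rfl⟩
        have habs : M * |a| ≤ m := by
          have h3 : |a| ≤ ‖e‖ * ‖y - z‖ := by rw [ha]; exact abs_real_inner_le_norm e (y - z)
          have h4 : ‖y - z‖ < m / (M * (‖e‖ + 1)) := by simpa [dist_eq_norm] using hy2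
          have h5 : ‖y - z‖ * (M * (‖e‖ + 1)) < m := by rwa [lt_div_iff₀ (by positivity)] at h4
          have h6 : M * |a| ≤ M * (‖e‖ * ‖y - z‖) := mul_le_mul_of_nonneg_left h3 hMpos.le
          nlinarith [norm_nonneg e, norm_nonneg (y - z)]
        have hrr : ⟪r, y - z⟫ = t * ⟪p, y - z⟫ + (1 - t) * ⟪q, y - z⟫ := by
          rw [hr, inner_add_left, real_inner_smul_left, real_inner_smul_left]
        have haa : a = ⟪p, y - z⟫ - ⟪q, y - z⟫ := by rw [ha, he, inner_sub_left]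
        have hmt : m ≤ t := min_le_left _ _
        have hmt' : m ≤ 1 - t := min_le_right _ _
        rw [hrr, ← ha]
        rcases le_total 0 a with h0 | h0
        · rw [abs_of_nonneg h0] at habs
          have := mul_nonneg h0 (by linarith : (0:ℝ) ≤ 1 - t - M * a)
          nlinarith
        · rw [abs_of_nonpos h0] at habs
          have := mul_nonneg (by linarith : (0:ℝ) ≤ -a) (by linarith : (0:ℝ) ≤ t - M * (-a))
          nlinarith
      have h3 := hsuper z hz _ hsm hloc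
      rw [hlap] at h3
      linarith
    by_contra hne
    have hpos : 0 < ⟪e, r⟫ ^ 2 := by positivity
    have h4 := hM ((K / 2 * ‖r‖ ^ 2 + 1) / ⟪e, r⟫ ^ 2 + 1) (by
      have : 0 ≤ K / 2 * ‖r‖ ^ 2 + 1 ∨ K / 2 * ‖r‖ ^ 2 + 1 < 0 := le_or_gt _ _
      rcases this with h | h
      · positivity
      · have h5 := hM 1 one_pos
        linarith)
    have h5 : ((K / 2 * ‖r‖ ^ 2 + 1) / ⟪e, r⟫ ^ 2 + 1) * ⟪e, r⟫ ^ 2
        = K / 2 * ‖r‖ ^ 2 + 1 + ⟪e, r⟫ ^ 2 := by
      field_simp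
    rw [h5] at h4
    linarith
  have k1 := key (1 / 3) (by norm_num) (by norm_num)
  have k2 := key (2 / 3) (by norm_num) (by norm_num)
  rw [inner_add_right, real_inner_smul_right, real_inner_smul_right] at k1 k2
  have h1 : ⟪p - q, p⟫ = 0 := by linarith
  have h2 : ⟪p - q, q⟫ = 0 := by linarith
  have h3 : ⟪p - q, p - q⟫ = 0 := by rw [inner_sub_right, h1, h2]; ring
  exact sub_eq_zero.1 (inner_self_eq_zero.1 h3)

omit [CompleteSpace E] in
/-- If `u + K/2 |·|²` is convex then so is `u + K/2 |· - x|²` for every centre `x`. -/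
theorem convexOn_shift {K : ℝ} {u : E → ℝ} {Ω : Set E}
    (hu : ConvexOn ℝ Ω (fun y => u y + K / 2 * ‖y‖ ^ 2)) (x : E) :
    ConvexOn ℝ Ω (fun y => u y + K / 2 * ‖y - x‖ ^ 2) := by
  have haff : ConvexOn ℝ Ω (fun y : E => K / 2 * ‖x‖ ^ 2 - K * ⟪y, x⟫) := by
    refine ⟨hu.1, ?_⟩
    intro y1 _ y2 _ a b _ _ hab
    simp only [inner_add_left, real_inner_smul_left, smul_eq_mul]
    have h1 : K / 2 * ‖x‖ ^ 2 = a * (K / 2 * ‖x‖ ^ 2) + b * (K / 2 * ‖x‖ ^ 2) := by
      rw [← add_mul, hab, one_mul]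
    apply le_of_eq
    linear_combination h1
  have h2 := hu.add haff
  refine h2.congr ?_
  intro y _
  simp only [Pi.add_apply]
  rw [norm_sub_sq_real]
  ring

/-- Existence of a `K`-subgradient `q` at `x`, together with a point of the closed ball of
radius `r` where `u` drops by at least `r |q|`. -/
theorem exists_ksubgrad [FiniteDimensional ℝ E] {K : ℝ} (hK : 0 ≤ K) {u : E → ℝ} {Ω : Set E}
    (hΩ : IsOpen Ω) (hu : ConvexOn ℝ Ω (fun y => u y + K / 2 * ‖y‖ ^ 2))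
    (hsuper : IsInfSuperharmonicOn u Ω) {x : E} {r : ℝ} (hr : 0 < r)
    (hball : closedBall x r ⊆ Ω) :
    ∃ q : E, IsKSubgrad K u Ω q x ∧ ∃ z ∈ closedBall x r, u z ≤ u x - r * ‖q‖ := by
  have hxΩ : x ∈ Ω := hball (mem_closedBall_self hr.le)
  have hcontF : ContinuousOn (fun y => u y + K / 2 * ‖y‖ ^ 2) Ω := hu.continuousOn hΩ
  have hcont : ContinuousOn u Ω := by
    have h2 : Continuous (fun y : E => K / 2 * ‖y‖ ^ 2) := by fun_prop
    have h3 := hcontF.sub h2.continuousOn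
    refine h3.congr ?_
    intro y _
    simp
  have hFx := convexOn_shift hu x
  rcases subsingleton_or_nontrivial E with hE | hE
  · refine ⟨0, ?_, x, mem_closedBall_self hr.le, by simp⟩
    intro y _
    rw [Subsingleton.elim y x]
    simp
  · obtain ⟨z0, hz0, hmin⟩ := (isCompact_sphere x r).exists_isMinOn
      (NormedSpace.sphere_nonempty.2 hr.le) (hcont.mono (sphere_subset_closedBall.trans hball))
    obtain ⟨s, hs⟩ : ∃ s : ℝ, s = max 0 ((u x - u z0) / r) := ⟨_, rfl⟩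
    have hs0 : 0 ≤ s := by rw [hs]; exact le_max_left _ _
    have hcone := cone_comparison hcont hsuper hr hs0 hball (s := s) (by
      intro y hy
      have h0 : u z0 ≤ u y := hmin hy
      have h1 : (u x - u z0) / r ≤ s := by rw [hs]; exact le_max_right _ _
      have h2 : u x - u z0 ≤ s * r := by rwa [div_le_iff₀ hr] at h1
      linarith)
    obtain ⟨q, hqs, hq⟩ := exists_subgrad_of_cone_le hFx hxΩ hs0 hr (by
      intro y hy _
      simp only [sub_self, norm_zero]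
      have h1 := hcone y (ball_subset_closedBall hy)
      have h2 : 0 ≤ K / 2 * ‖y - x‖ ^ 2 := by positivity
      linarith)
    refine ⟨q, ?_, ?_⟩
    · intro y hy
      have h1 := hq y hy
      simp only [sub_self, norm_zero] at h1
      linarith
    · rcases le_or_gt ((u x - u z0) / r) 0 with hle | hgt
      · have hs00 : s = 0 := by rw [hs]; exact max_eq_left hle
        have hq0 : ‖q‖ = 0 := le_antisymm (hs00 ▸ hqs) (norm_nonneg _)
        exact ⟨x, mem_closedBall_self hr.le, by rw [hq0]; simp⟩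
      · have hss : s = (u x - u z0) / r := by rw [hs]; exact max_eq_right hgt.le
        refine ⟨z0, sphere_subset_closedBall hz0, ?_⟩
        have h1 : r * ‖q‖ ≤ r * s := mul_le_mul_of_nonneg_left hqs hr.le
        rw [hss, mul_div_cancel₀ _ hr.ne'] at h1
        linarith

/-- The field of `K`-subgradients of a semiconvex viscosity supersolution. -/
theorem exists_kgrad_field [FiniteDimensional ℝ E] {K : ℝ} (hK : 0 ≤ K) {u : E → ℝ}
    {Ω : Set E} (hΩ : IsOpen Ω) (hu : ConvexOn ℝ Ω (fun y => u y + K / 2 * ‖y‖ ^ 2))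
    (hsuper : IsInfSuperharmonicOn u Ω) :
    ∃ g : E → E, (∀ x ∈ Ω, IsKSubgrad K u Ω (g x) x) ∧
      ∀ x r, 0 < r → closedBall x r ⊆ Ω → ∃ z ∈ closedBall x r, u z ≤ u x - r * ‖g x‖ := by
  classical
  have hex : ∀ x ∈ Ω, ∃ p, IsKSubgrad K u Ω p x := by
    intro x hx
    obtain ⟨r, hr, hball⟩ := Metric.nhds_basis_closedBall.mem_iff.1 (hΩ.mem_nhds hx)
    obtain ⟨p, hp, _⟩ := exists_ksubgrad hK hΩ hu hsuper hr hball
    exact ⟨p, hp⟩
  refine ⟨fun x => if h : ∃ p, IsKSubgrad K u Ω p x then h.choose else 0, ?_, ?_⟩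
  · intro x hx
    have h := hex x hx
    simp only [dif_pos h]
    exact h.choose_spec
  · intro x r hr hball
    have hx : x ∈ Ω := hball (mem_closedBall_self hr.le)
    have h := hex x hx
    obtain ⟨p, hp, hp2⟩ := exists_ksubgrad hK hΩ hu hsuper hr hball
    have e : (if h : ∃ p, IsKSubgrad K u Ω p x then h.choose else 0) = p := by
      rw [dif_pos h]
      exact ksubgrad_unique hΩ hsuper hx h.choose_spec hp
    simp only [e]
    exact hp2

end Vale.Agent.H22.InfHarm
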