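import Vale.Agent.H22.InfHarm.Semi1

/-!
# Semiconvex viscosity supersolutions: the direction estimate, the modulus of `|∇u|`
and the one-sided Taylor estimate
-/

namespace Vale.Agent.H22.InfHarm

open Filter Topology Set Metric
open scoped RealInnerProductSpace

variable {E : Type*} [NormedAddCommGroup E] [InnerProductSpace ℝ E]

/-- Direction estimate: if `u` drops by `τ |g|` at a point `z` at distance at most `τ` from `x`,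
then `x - z` is almost parallel to the `K`-subgradient `g`. -/
theorem kgrad_direction {K : ℝ} (hK : 0 ≤ K) {u : E → ℝ} {Ω : Set E} {g x z : E} {τ : ℝ}
    (hτ : 0 ≤ τ) (hg : IsKSubgrad K u Ω g x) (hzΩ : z ∈ Ω) (hz : ‖x - z‖ ≤ τ)
    (hdrop : u z ≤ u x - τ * ‖g‖) :
    ‖‖g‖ • (x - z) - τ • g‖ ^ 2 ≤ ‖g‖ * K * τ ^ 3 := by
  obtain ⟨N, hN⟩ : ∃ N : ℝ, N = ‖g‖ := ⟨_, rfl⟩
  have hN0 : 0 ≤ N := by rw [hN]; exact norm_nonneg _
  obtain ⟨w, hw⟩ : ∃ w : E, w = x - z := ⟨_, rfl⟩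
  have h1 := hg z hzΩ
  have e1 : z - x = -w := by rw [hw]; abel
  rw [e1, inner_neg_right, norm_neg] at h1
  rw [← hw] at hz ⊢
  rw [← hN] at hdrop
  have hw0 := norm_nonneg w
  have hw2 : ‖w‖ ^ 2 ≤ τ ^ 2 := by nlinarith
  have h2 : τ * N - K / 2 * τ ^ 2 ≤ ⟪g, w⟫ := by
    have : K / 2 * ‖w‖ ^ 2 ≤ K / 2 * τ ^ 2 := by gcongr
    linarith
  rw [norm_sub_sq_real, norm_smul, norm_smul, Real.norm_eq_abs, Real.norm_eq_abs,
    real_inner_smul_left, real_inner_smul_right, ← hN, abs_of_nonneg hN0, abs_of_nonneg hτ,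
    real_inner_comm]
  have h3 : N ^ 2 * ‖w‖ ^ 2 ≤ N ^ 2 * τ ^ 2 := mul_le_mul_of_nonneg_left hw2 (sq_nonneg N)
  have h4 : N * τ * (τ * N - K / 2 * τ ^ 2) ≤ N * τ * ⟪g, w⟫ :=
    mul_le_mul_of_nonneg_left h2 (mul_nonneg hN0 hτ)
  nlinarith

/-- One-sided Taylor estimate from above. -/
theorem kgrad_upper {K : ℝ} (hK : 0 ≤ K) {u : E → ℝ} {Ω : Set E} {g : E → E}
    (hg : ∀ x ∈ Ω, IsKSubgrad K u Ω (g x) x)
    (hg2 : ∀ x r, 0 < r → closedBall x r ⊆ Ω → ∃ z ∈ closedBall x r, u z ≤ u x - r * ‖g x‖)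
    {x y : E} {τ σ ω : ℝ} (hτ : 0 < τ) (hx : closedBall x τ ⊆ Ω) (hy : y ∈ Ω)
    (hσ : 0 ≤ σ) (hσ2 : ‖g x‖ * K * τ ≤ σ ^ 2) (hω : 0 ≤ ω) (hω2 : ‖g y‖ ≤ ‖g x‖ + ω) :
    u y ≤ u x + ⟪g x, y - x⟫ + ‖y - x‖ * σ + ‖g x‖ * ‖y - x‖ ^ 2 / (2 * τ)
      + ω * (‖y - x‖ + τ) + K / 2 * (‖y - x‖ + τ) ^ 2 := by
  have hxΩ : x ∈ Ω := hx (mem_closedBall_self hτ.le)
  obtain ⟨z, hzball, hzdrop⟩ := hg2 x τ hτ hx
  have hzΩ : z ∈ Ω := hx hzball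
  have hzn : ‖x - z‖ ≤ τ := by
    rw [mem_closedBall, dist_eq_norm, norm_sub_rev] at hzball; exact hzball
  have hdir := kgrad_direction hK hτ.le (hg x hxΩ) hzΩ hzn hzdrop
  obtain ⟨N, hN⟩ : ∃ N : ℝ, N = ‖g x‖ := ⟨_, rfl⟩
  have hN0 : 0 ≤ N := by rw [hN]; exact norm_nonneg _
  obtain ⟨w, hw⟩ : ∃ w : E, w = x - z := ⟨_, rfl⟩
  obtain ⟨h, hh⟩ : ∃ h : E, h = y - x := ⟨_, rfl⟩
  obtain ⟨δ, hδ⟩ : ∃ δ : ℝ, δ = ‖h‖ := ⟨_, rfl⟩
  have hδ0 : 0 ≤ δ := by rw [hδ]; exact norm_nonneg _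
  rw [← hN] at hσ2 hω2 hzdrop hdir ⊢
  rw [← hw] at hzn hdir
  rw [← hh, ← hδ]
  -- the direction estimate in the form `‖N w - τ g‖ ≤ τ σ`
  have hdir2 : ‖N • w - τ • g x‖ ≤ τ * σ := by
    have h1 : ‖N • w - τ • g x‖ ^ 2 ≤ (τ * σ) ^ 2 := by
      calc ‖N • w - τ • g x‖ ^ 2 ≤ N * K * τ ^ 3 := hdir
        _ = τ ^ 2 * (N * K * τ) := by ring
        _ ≤ τ ^ 2 * σ ^ 2 := by gcongr
        _ = (τ * σ) ^ 2 := by ring
    exact (abs_le_of_sq_le_sq' h1 (by positivity)).2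
  -- `N ⟪h, w⟫ ≤ δ τ σ + τ ⟪g x, h⟫`
  have hin : N * ⟪h, w⟫ ≤ δ * (τ * σ) + τ * ⟪g x, h⟫ := by
    have e1 : N * ⟪h, w⟫ = ⟪h, N • w - τ • g x⟫ + τ * ⟪g x, h⟫ := by
      rw [inner_sub_right, real_inner_smul_right, real_inner_smul_right, real_inner_comm h (g x)]
      ring
    have h2 : ⟪h, N • w - τ • g x⟫ ≤ ‖h‖ * ‖N • w - τ • g x‖ := real_inner_le_norm _ _
    have h3 : ‖h‖ * ‖N • w - τ • g x‖ ≤ δ * (τ * σ) := by
      rw [← hδ]; gcongr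
    linarith
  -- `K`-subgradient inequality at `y`, evaluated at `z`
  have hsub := hg y hy z hzΩ
  have e2 : z - y = -(h + w) := by rw [hh, hw]; abel
  rw [e2, inner_neg_right, norm_neg] at hsub
  have hhw : ‖h + w‖ ≤ δ + τ := by
    calc ‖h + w‖ ≤ ‖h‖ + ‖w‖ := norm_add_le _ _
      _ ≤ δ + τ := by rw [← hδ]; linarith
  have hhw0 := norm_nonneg (h + w)
  have h4 : ⟪g y, h + w⟫ ≤ (N + ω) * ‖h + w‖ := by
    calc ⟪g y, h + w⟫ ≤ ‖g y‖ * ‖h + w‖ := real_inner_le_norm _ _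
      _ ≤ (N + ω) * ‖h + w‖ := by gcongr
  have h5 : ω * ‖h + w‖ ≤ ω * (δ + τ) := by gcongr
  have h6 : K / 2 * ‖h + w‖ ^ 2 ≤ K / 2 * (δ + τ) ^ 2 := by gcongr
  -- `N ‖h + w‖ ≤ N τ + δ σ + ⟪g x, h⟫ + N δ² / (2 τ)`
  have h7 : N * ‖h + w‖ ≤ N * τ + δ * σ + ⟪g x, h⟫ + N * δ ^ 2 / (2 * τ) := by
    have h8 : 2 * τ * ‖h + w‖ ≤ τ ^ 2 + ‖h + w‖ ^ 2 := two_mul_le_add_sq _ _
    have h9 : ‖h + w‖ ^ 2 = ‖h‖ ^ 2 + 2 * ⟪h, w⟫ + ‖w‖ ^ 2 := norm_add_sq_real h w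
    have h10 : ‖w‖ ^ 2 ≤ τ ^ 2 := by
      have := norm_nonneg w
      nlinarith
    have h11 : 2 * τ * (N * ‖h + w‖) ≤ 2 * τ * (N * τ + δ * σ + ⟪g x, h⟫) + N * δ ^ 2 := by
      have h12 : N * (2 * τ * ‖h + w‖) ≤ N * (τ ^ 2 + ‖h + w‖ ^ 2) :=
        mul_le_mul_of_nonneg_left h8 hN0
      have h13 : N * ‖w‖ ^ 2 ≤ N * τ ^ 2 := mul_le_mul_of_nonneg_left h10 hN0
      rw [h9, ← hδ] at h12
      nlinarith
    have h14 : N * τ + δ * σ + ⟪g x, h⟫ + N * δ ^ 2 / (2 * τ)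
        = (2 * τ * (N * τ + δ * σ + ⟪g x, h⟫) + N * δ ^ 2) / (2 * τ) := by
      field_simp
    rw [h14, le_div_iff₀ (by positivity)]
    linarith
  have h15 : (N + ω) * ‖h + w‖ = N * ‖h + w‖ + ω * ‖h + w‖ := by ring
  linarith

/-- Real arithmetic for the modulus estimate: the degenerate case. -/
theorem modulus_arith_degenerate {K r N' δ σ q : ℝ} (hr : 0 < r) (hN' : 0 < N')
    (hδ : 0 ≤ δ) (hσ : 0 ≤ σ) (hσ2 : σ ^ 2 = 2 * K * r * N') (hqr : q * r = δ ^ 2)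
    (hcase : r * N' < 16 * δ * σ) : N' < 512 * K * q := by
  have hpos : 0 < r * N' := by positivity
  have h1 : (r * N') ^ 2 < (16 * δ * σ) ^ 2 := by
    have h0 : 0 ≤ 16 * δ * σ := by positivity
    nlinarith
  have h2 : (16 * δ * σ) ^ 2 = 512 * K * δ ^ 2 * (r * N') := by
    rw [mul_pow, hσ2]; ring
  rw [h2] at h1
  have h3 : r * N' < 512 * K * δ ^ 2 := by
    have : (r * N') * (r * N') < (512 * K * δ ^ 2) * (r * N') := by nlinarith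
    exact lt_of_mul_lt_mul_right this hpos.le
  rw [← hqr] at h3
  have h4 : N' * r < (512 * K * q) * r := by nlinarith
  exact lt_of_mul_lt_mul_right h4 hr.le

/-- Real arithmetic for the modulus estimate: bounds on the radius `ρ`. -/
theorem modulus_arith_rho {r N' δ σ q γ ρ : ℝ} (hN' : 0 < N')
    (hδ : 0 ≤ δ) (hσ : 0 ≤ σ) (hq0 : 0 ≤ q) (hq16 : q ≤ r / 16) (hδr : δ ≤ r / 4)
    (hcase : 16 * δ * σ ≤ r * N') (hγ : |γ| ≤ N' * δ)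
    (hρN : N' * ρ = N' * r + γ - 4 * δ * σ - N' * q) :
    7 * r / 16 ≤ ρ ∧ ρ ≤ 5 * r / 4 := by
  have hγ1 := (abs_le.1 hγ).1
  have hγ2 := (abs_le.1 hγ).2
  have h0 : 0 ≤ 4 * δ * σ := by positivity
  have h00 : 0 ≤ N' * q := by positivity
  have hNq : N' * q ≤ N' * (r / 16) := mul_le_mul_of_nonneg_left hq16 hN'.le
  have hNδ : N' * δ ≤ N' * (r / 4) := mul_le_mul_of_nonneg_left hδr hN'.le
  constructor
  · have h1 : N' * (7 * r / 16) ≤ N' * ρ := by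
      rw [hρN]; nlinarith
    exact le_of_mul_le_mul_left h1 hN'
  · have h1 : N' * ρ ≤ N' * (5 * r / 4) := by
      rw [hρN]; nlinarith
    exact le_of_mul_le_mul_left h1 hN'

/-- Real arithmetic for the modulus estimate: the minimiser lies in the ball around `x`. -/
theorem modulus_arith_ball {r N' δ σ q γ ρ X W : ℝ} (hr : 0 < r) (hN' : 0 < N')
    (hδ : 0 ≤ δ) (hσ : 0 ≤ σ) (hq0 : 0 ≤ q) (hqr : q * r = δ ^ 2)
    (hcase : 16 * δ * σ ≤ r * N') (hq16 : q ≤ r / 16)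
    (_hρ0 : 0 < ρ) (hρ2r : ρ ≤ 2 * r)
    (hρN : N' * ρ = N' * r + γ - 4 * δ * σ - N' * q)
    (hW : W ≤ ρ ^ 2) (hin : ρ * γ - δ * (ρ * σ) ≤ N' * X) :
    δ ^ 2 - 2 * X + W ≤ r ^ 2 := by
  obtain ⟨A, hA⟩ : ∃ A : ℝ, A = N' * r - 4 * δ * σ - N' * q := ⟨_, rfl⟩
  have hNq : N' * q ≤ N' * (r / 16) := mul_le_mul_of_nonneg_left hq16 hN'.le
  have hA0 : 0 ≤ A := by rw [hA]; nlinarith
  have hA1 : A ≤ N' * r := by
    have h0 : 0 ≤ 4 * δ * σ := by positivity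
    have h00 : 0 ≤ N' * q := by positivity
    rw [hA]; linarith
  have hρA : N' * ρ = A + γ := by rw [hρN, hA]; ring
  -- `ρ (A - γ) ≤ N' r² - 4 r δ σ - N' δ²`
  have h1 : ρ * (A - γ) ≤ N' * r ^ 2 - 4 * r * δ * σ - N' * δ ^ 2 := by
    have h2 : N' * (ρ * (A - γ)) ≤ N' * (N' * r ^ 2 - 4 * r * δ * σ - N' * δ ^ 2) := by
      have e1 : N' * (ρ * (A - γ)) = A ^ 2 - γ ^ 2 := by
        have : N' * (ρ * (A - γ)) = (N' * ρ) * (A - γ) := by ring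
        rw [this, hρA]; ring
      have e2 : N' * (N' * r ^ 2 - 4 * r * δ * σ - N' * δ ^ 2) = N' * r * A := by
        rw [hA, ← hqr]; ring
      rw [e1, e2]
      have h3 : A ^ 2 ≤ N' * r * A := by nlinarith
      nlinarith [sq_nonneg γ]
    exact le_of_mul_le_mul_left h2 hN'
  have h4 : 2 * (δ * (ρ * σ)) ≤ 4 * r * δ * σ := by
    have : δ * σ * ρ ≤ δ * σ * (2 * r) := mul_le_mul_of_nonneg_left hρ2r (mul_nonneg hδ hσ)
    nlinarith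
  have h5 : N' * (δ ^ 2 - 2 * X + W) ≤ N' * r ^ 2 := by
    have h6 : N' * W ≤ N' * ρ ^ 2 := mul_le_mul_of_nonneg_left hW hN'.le
    have h7 : N' * ρ ^ 2 - 2 * (ρ * γ) = ρ * (A - γ) := by
      have : N' * ρ ^ 2 = ρ * (N' * ρ) := by ring
      rw [this, hρA]; ring
    nlinarith
  exact le_of_mul_le_mul_left h5 hN'

/-- Modulus of the norm of the `K`-gradient field (with the exact square root). -/
theorem kgrad_norm_modulus_aux {K : ℝ} (hK : 0 ≤ K) {u : E → ℝ} {Ω : Set E} {g : E → E}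
    (hg : ∀ x ∈ Ω, IsKSubgrad K u Ω (g x) x)
    (hg2 : ∀ x r, 0 < r → closedBall x r ⊆ Ω → ∃ z ∈ closedBall x r, u z ≤ u x - r * ‖g x‖)
    {x x' : E} {r : ℝ} (hr : 0 < r) (hx : closedBall x r ⊆ Ω)
    (hx' : closedBall x' (2 * r) ⊆ Ω) (hh : ‖x' - x‖ ≤ r / 4) :
    ‖g x'‖ - ‖g x‖ ≤ 512 * K * ‖x' - x‖ ^ 2 / r + ‖g x'‖ * ‖x' - x‖ ^ 2 / r ^ 2
      + 4 * ‖x' - x‖ * √(2 * K * r * ‖g x'‖) / r + K / 2 * (r + ‖x' - x‖ ^ 2 / r) := by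
  have hxΩ : x ∈ Ω := hx (mem_closedBall_self hr.le)
  have hx'Ω : x' ∈ Ω := hx' (mem_closedBall_self (by positivity))
  obtain ⟨N, hN⟩ : ∃ N : ℝ, N = ‖g x‖ := ⟨_, rfl⟩
  obtain ⟨N', hN'⟩ : ∃ N' : ℝ, N' = ‖g x'‖ := ⟨_, rfl⟩
  have hN0 : 0 ≤ N := by rw [hN]; exact norm_nonneg _
  have hN'0 : 0 ≤ N' := by rw [hN']; exact norm_nonneg _
  obtain ⟨h, hhdef⟩ : ∃ h : E, h = x' - x := ⟨_, rfl⟩
  obtain ⟨δ, hδ⟩ : ∃ δ : ℝ, δ = ‖h‖ := ⟨_, rfl⟩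
  have hδ0 : 0 ≤ δ := by rw [hδ]; exact norm_nonneg _
  rw [← hhdef, ← hδ] at hh ⊢
  rw [← hN, ← hN']
  obtain ⟨σ, hσ⟩ : ∃ σ : ℝ, σ = √(2 * K * r * N') := ⟨_, rfl⟩
  have hσ0 : 0 ≤ σ := by rw [hσ]; exact Real.sqrt_nonneg _
  have hσ2 : σ ^ 2 = 2 * K * r * N' := by
    rw [hσ]; exact Real.sq_sqrt (by positivity)
  rw [← hσ]
  -- the quantity `q = δ² / r`
  obtain ⟨q, hq⟩ : ∃ q : ℝ, q = δ ^ 2 / r := ⟨_, rfl⟩
  have hq0 : 0 ≤ q := by rw [hq]; positivity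
  have hqr : q * r = δ ^ 2 := by rw [hq]; field_simp
  have hq4 : q ≤ δ / 4 := by
    have h1 : q * r ≤ δ / 4 * r := by rw [hqr]; nlinarith
    exact le_of_mul_le_mul_right h1 hr
  have hq16 : q ≤ r / 16 := by linarith
  -- rewrite the goal in terms of `q`
  have hgoal : 512 * K * δ ^ 2 / r + N' * δ ^ 2 / r ^ 2 + 4 * δ * σ / r + K / 2 * (r + δ ^ 2 / r)
      = 512 * K * q + N' * q / r + 4 * δ * σ / r + K / 2 * (r + q) := by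
    rw [hq]; field_simp
  rw [hgoal]
  have hterm1 : 0 ≤ 512 * K * q := by positivity
  have hterm2 : 0 ≤ N' * q / r := by positivity
  have hterm3 : 0 ≤ 4 * δ * σ / r := by positivity
  have hterm4 : 0 ≤ K / 2 * (r + q) := by positivity
  rcases hN'0.eq_or_lt with hN'z | hN'pos
  · rw [← hN'z] at hterm2 ⊢
    linarith
  by_cases hcase : r * N' < 16 * δ * σ
  · have h4 := modulus_arith_degenerate hr hN'pos hδ0 hσ0 hσ2 hqr hcase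
    linarith
  · push Not at hcase
    -- main case
    obtain ⟨γ, hγ⟩ : ∃ γ : ℝ, γ = ⟪g x', h⟫ := ⟨_, rfl⟩
    have hγabs : |γ| ≤ N' * δ := by
      rw [hγ, hN', hδ]; exact abs_real_inner_le_norm _ _
    obtain ⟨ρ, hρ⟩ : ∃ ρ : ℝ, ρ = r + (γ - 4 * δ * σ) / N' - q := ⟨_, rfl⟩
    have hρN : N' * ρ = N' * r + γ - 4 * δ * σ - N' * q := by
      rw [hρ]; field_simp; ring
    obtain ⟨hρlo, hρhi⟩ := modulus_arith_rho hN'pos hδ0 hσ0 hq0 hq16 hh hcase hγabs hρN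
    have hρpos : 0 < ρ := by linarith
    have hρ2r : ρ ≤ 2 * r := by linarith
    have hballρ : closedBall x' ρ ⊆ Ω := (closedBall_subset_closedBall hρ2r).trans hx'
    obtain ⟨z, hzball, hzdrop⟩ := hg2 x' ρ hρpos hballρ
    have hzΩ : z ∈ Ω := hballρ hzball
    have hzn : ‖x' - z‖ ≤ ρ := by
      rw [mem_closedBall, dist_eq_norm, norm_sub_rev] at hzball; exact hzball
    have hdir := kgrad_direction hK hρpos.le (hg x' hx'Ω) hzΩ hzn hzdrop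
    obtain ⟨w, hw⟩ : ∃ w : E, w = x' - z := ⟨_, rfl⟩
    rw [← hN'] at hdir hzdrop
    rw [← hw] at hdir hzn
    have hdir2 : ‖N' • w - ρ • g x'‖ ≤ ρ * σ := by
      have h1 : ‖N' • w - ρ • g x'‖ ^ 2 ≤ (ρ * σ) ^ 2 := by
        calc ‖N' • w - ρ • g x'‖ ^ 2 ≤ N' * K * ρ ^ 3 := hdir
          _ = ρ ^ 2 * (N' * K * ρ) := by ring
          _ ≤ ρ ^ 2 * (N' * K * (2 * r)) := by gcongr
          _ = (ρ * σ) ^ 2 := by rw [mul_pow, hσ2]; ring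
      exact (abs_le_of_sq_le_sq' h1 (by positivity)).2
    have hin : ρ * γ - δ * (ρ * σ) ≤ N' * ⟪h, w⟫ := by
      have e1 : N' * ⟪h, w⟫ = ⟪h, N' • w - ρ • g x'⟫ + ρ * γ := by
        rw [inner_sub_right, real_inner_smul_right, real_inner_smul_right, hγ,
          real_inner_comm h (g x')]
        ring
      have h2 : -(‖h‖ * ‖N' • w - ρ • g x'‖) ≤ ⟪h, N' • w - ρ • g x'⟫ := by
        have := abs_real_inner_le_norm h (N' • w - ρ • g x')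
        exact neg_le_of_abs_le this
      have h3 : ‖h‖ * ‖N' • w - ρ • g x'‖ ≤ δ * (ρ * σ) := by
        rw [← hδ]; gcongr
      linarith
    -- `z` lies in the closed ball of radius `r` around `x`
    have hzx : z - x = h - w := by rw [hhdef, hw]; abel
    have hzx2 : ‖z - x‖ ^ 2 ≤ r ^ 2 := by
      have h1 : ‖z - x‖ ^ 2 = ‖h‖ ^ 2 - 2 * ⟪h, w⟫ + ‖w‖ ^ 2 := by
        rw [hzx]; exact norm_sub_sq_real h w
      have h2 : ‖w‖ ^ 2 ≤ ρ ^ 2 := by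
        have := norm_nonneg w
        nlinarith
      rw [h1, ← hδ]
      exact modulus_arith_ball hr hN'pos hδ0 hσ0 hq0 hqr hcase hq16 hρpos hρ2r hρN h2 hin
    have hzxr : ‖z - x‖ ≤ r := (abs_le_of_sq_le_sq' hzx2 hr.le).2
    -- lower bound at `x`
    have hlow := hg x hxΩ z hzΩ
    have h11 : -(N * r) ≤ ⟪g x, z - x⟫ := by
      have h12 := abs_real_inner_le_norm (g x) (z - x)
      rw [← hN] at h12
      have h13 : N * ‖z - x‖ ≤ N * r := mul_le_mul_of_nonneg_left hzxr hN0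
      have := neg_le_of_abs_le h12
      linarith
    have h14 : K / 2 * ‖z - x‖ ^ 2 ≤ K / 2 * r ^ 2 := by gcongr
    -- `K`-subgradient inequality at `x'`, evaluated at `x`
    have hsub := hg x' hx'Ω x hxΩ
    have e4 : x - x' = -h := by rw [hhdef]; abel
    rw [e4, inner_neg_right, norm_neg, ← hγ, ← hδ] at hsub
    -- chain
    have h15 : N' * ρ - γ - K / 2 * (r ^ 2 + δ ^ 2) ≤ r * N := by
      have : ρ * N' = N' * ρ := by ring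
      linarith
    rw [hρN] at h15
    have h16 : r * (N' - N) ≤ r * (N' * q / r + 4 * δ * σ / r + K / 2 * (r + q)) := by
      have e5 : r * (N' * q / r + 4 * δ * σ / r + K / 2 * (r + q))
          = N' * q + 4 * δ * σ + K / 2 * (r ^ 2 + q * r) := by
        field_simp
      rw [e5, hqr]
      linarith
    have h17 := le_of_mul_le_mul_left h16 hr
    linarith

/-- Modulus of the norm of the `K`-gradient field. -/
theorem kgrad_norm_modulus {K : ℝ} (hK : 0 ≤ K) {u : E → ℝ} {Ω : Set E} {g : E → E}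
    (hg : ∀ x ∈ Ω, IsKSubgrad K u Ω (g x) x)
    (hg2 : ∀ x r, 0 < r → closedBall x r ⊆ Ω → ∃ z ∈ closedBall x r, u z ≤ u x - r * ‖g x‖)
    {x x' : E} {r σ : ℝ} (hr : 0 < r) (hx : closedBall x r ⊆ Ω)
    (hx' : closedBall x' (2 * r) ⊆ Ω) (hh : ‖x' - x‖ ≤ r / 4)
    (hσ : 0 ≤ σ) (hσ2 : 2 * K * r * ‖g x'‖ ≤ σ ^ 2) :
    ‖g x'‖ - ‖g x‖ ≤ 512 * K * ‖x' - x‖ ^ 2 / r + ‖g x'‖ * ‖x' - x‖ ^ 2 / r ^ 2
      + 4 * ‖x' - x‖ * σ / r + K / 2 * (r + ‖x' - x‖ ^ 2 / r) := by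
  have h1 := kgrad_norm_modulus_aux hK hg hg2 hr hx hx' hh
  have h2 : √(2 * K * r * ‖g x'‖) ≤ σ := Real.sqrt_le_iff.2 ⟨hσ, hσ2⟩
  have h3 : 4 * ‖x' - x‖ * √(2 * K * r * ‖g x'‖) / r ≤ 4 * ‖x' - x‖ * σ / r := by
    gcongr
  linarith

end Vale.Agent.H22.InfHarm
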