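import Vale.Agent.H22.InfHarm.Semi2

/-!
# Semiconvex viscosity supersolutions: the `C^{1,1/3}` estimate
-/

namespace Vale.Agent.H22.InfHarm

open Filter Topology Set Metric
open scoped RealInnerProductSpace

variable {E : Type*} [NormedAddCommGroup E] [InnerProductSpace ℝ E]

omit [InnerProductSpace ℝ E] in
/-- Bound of the gradient norm by the oscillation. -/
theorem kgrad_norm_le {u : E → ℝ} {Ω : Set E} {g : E → E}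
    (hg2 : ∀ x r, 0 < r → closedBall x r ⊆ Ω → ∃ z ∈ closedBall x r, u z ≤ u x - r * ‖g x‖)
    {M : ℝ} (hM : ∀ a ∈ Ω, ∀ b ∈ Ω, u a - u b ≤ M) {p : E} {t : ℝ} (ht : 0 < t)
    (hp : closedBall p t ⊆ Ω) : ‖g p‖ ≤ M / t := by
  obtain ⟨z, hz, hdrop⟩ := hg2 p t ht hp
  have h1 := hM p (hp (mem_closedBall_self ht.le)) z (hp hz)
  rw [le_div_iff₀ ht]
  nlinarith

/-- Auxiliary constant in the modulus of `|∇u|`. -/
noncomputable def semiW (K a Λ : ℝ) : ℝ :=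
  32 * K * a + Λ / a ^ 2 + 4 * √(2 * K * a * Λ) / a + 17 / 32 * K * a

/-- Auxiliary constant in the one-sided Taylor estimate. -/
noncomputable def semiA (K a Λ : ℝ) : ℝ :=
  √(Λ * K * a) + Λ / (2 * a) + 5 * a / 4 * semiW K a Λ + 25 / 32 * K * a ^ 2

theorem semiW_nonneg {K a Λ : ℝ} (hK : 0 ≤ K) (ha : 0 < a) (hΛ : 0 ≤ Λ) : 0 ≤ semiW K a Λ := by
  unfold semiW
  positivity

theorem semiA_nonneg {K a Λ : ℝ} (hK : 0 ≤ K) (ha : 0 < a) (hΛ : 0 ≤ Λ) : 0 ≤ semiA K a Λ := by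
  have := semiW_nonneg hK ha hΛ
  unfold semiA
  positivity

/-- Elementary facts about the scales `s ≤ a / 4`. -/
theorem scale_facts {a s : ℝ} (hs : 0 ≤ s) (hsa : s ≤ a / 4) :
    s ^ 2 ≤ a ^ 2 / 16 ∧ s ^ 3 ≤ a * s ^ 2 / 4 ∧ s ^ 3 ≤ a ^ 3 / 64 ∧ s ^ 6 ≤ a ^ 2 * s ^ 4 / 16 := by
  have ha : 0 ≤ a := by linarith
  have h1 : s ^ 2 ≤ a ^ 2 / 16 := by nlinarith
  have h2 : s ^ 3 ≤ a * s ^ 2 / 4 := by
    have : s * s ^ 2 ≤ a / 4 * s ^ 2 := mul_le_mul_of_nonneg_right hsa (sq_nonneg s)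
    nlinarith
  have h3 : s ^ 3 ≤ a ^ 3 / 64 := by
    have : s ^ 3 ≤ (a / 4) ^ 3 := pow_le_pow_left₀ hs hsa 3
    nlinarith
  have h4 : s ^ 6 ≤ a ^ 2 * s ^ 4 / 16 := by
    have : s ^ 2 * s ^ 4 ≤ a ^ 2 / 16 * s ^ 4 := mul_le_mul_of_nonneg_right h1 (by positivity)
    nlinarith
  exact ⟨h1, h2, h3, h4⟩

/-- The modulus of `|∇u|` at scale `s`: `|g y| ≤ |g x| + W s²` if `|y - x| ≤ s³`. -/
theorem semi_modulus_s {K : ℝ} (hK : 0 ≤ K) {u : E → ℝ} {Ω : Set E} {g : E → E}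
    (hg : ∀ x ∈ Ω, IsKSubgrad K u Ω (g x) x)
    (hg2 : ∀ x r, 0 < r → closedBall x r ⊆ Ω → ∃ z ∈ closedBall x r, u z ≤ u x - r * ‖g x‖)
    {x y : E} {a s Λ : ℝ} (ha : 0 < a) (hs : 0 < s) (hsa : s ≤ a / 4) (hΛ : 0 ≤ Λ)
    (hx : closedBall x (a ^ 3) ⊆ Ω) (hxy : ‖y - x‖ ≤ s ^ 3) (hgy : ‖g y‖ ≤ Λ) :
    ‖g y‖ ≤ ‖g x‖ + s ^ 2 * semiW K a Λ := by
  obtain ⟨h1, h2, h3, h4⟩ := scale_facts hs.le hsa
  obtain ⟨r, hr⟩ : ∃ r : ℝ, r = a * s ^ 2 := ⟨_, rfl⟩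
  have hrpos : 0 < r := by rw [hr]; positivity
  have hra : r ≤ a ^ 3 / 16 := by rw [hr]; nlinarith
  obtain ⟨δ, hδ⟩ : ∃ δ : ℝ, δ = ‖y - x‖ := ⟨_, rfl⟩
  have hδ0 : 0 ≤ δ := by rw [hδ]; exact norm_nonneg _
  rw [← hδ] at hxy
  have ha3 : 0 < a ^ 3 := by positivity
  have hxr : closedBall x r ⊆ Ω := (closedBall_subset_closedBall (by linarith)).trans hx
  have hy2r : closedBall y (2 * r) ⊆ Ω := by
    refine (closedBall_subset_closedBall' ?_).trans hx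
    rw [dist_eq_norm, ← hδ]; linarith
  have hδr : δ ≤ r / 4 := by rw [hr]; linarith
  obtain ⟨σ0, hσ0⟩ : ∃ σ0 : ℝ, σ0 = √(2 * K * a * Λ) := ⟨_, rfl⟩
  have hσ00 : 0 ≤ σ0 := by rw [hσ0]; exact Real.sqrt_nonneg _
  have hσ0sq : σ0 ^ 2 = 2 * K * a * Λ := by rw [hσ0]; exact Real.sq_sqrt (by positivity)
  have hσ2 : 2 * K * r * ‖g y‖ ≤ (s * σ0) ^ 2 := by
    rw [mul_pow, hσ0sq, hr]
    have : 2 * K * (a * s ^ 2) * ‖g y‖ ≤ 2 * K * (a * s ^ 2) * Λ := by gcongr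
    nlinarith
  have hmod := kgrad_norm_modulus hK hg hg2 hrpos hxr hy2r (by rw [← hδ]; exact hδr)
    (mul_nonneg hs.le hσ00) hσ2
  rw [← hδ] at hmod
  have hδ2 : δ ^ 2 ≤ s ^ 6 := by
    have : δ ^ 2 ≤ (s ^ 3) ^ 2 := pow_le_pow_left₀ hδ0 hxy 2
    calc δ ^ 2 ≤ (s ^ 3) ^ 2 := this
      _ = s ^ 6 := by ring
  have hgy0 : 0 ≤ ‖g y‖ := norm_nonneg _
  -- the four terms
  have t1 : 512 * K * δ ^ 2 / r ≤ s ^ 2 * (32 * K * a) := by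
    rw [div_le_iff₀ hrpos, hr]
    have : 512 * K * δ ^ 2 ≤ 512 * K * (a ^ 2 * s ^ 4 / 16) := by
      have : δ ^ 2 ≤ a ^ 2 * s ^ 4 / 16 := hδ2.trans h4
      gcongr
    nlinarith
  have t2 : ‖g y‖ * δ ^ 2 / r ^ 2 ≤ s ^ 2 * (Λ / a ^ 2) := by
    rw [div_le_iff₀ (by positivity), hr]
    have e : s ^ 2 * (Λ / a ^ 2) * (a * s ^ 2) ^ 2 = Λ * s ^ 6 := by
      field_simp
    rw [e]
    calc ‖g y‖ * δ ^ 2 ≤ Λ * δ ^ 2 := by gcongr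
      _ ≤ Λ * s ^ 6 := by gcongr
  have t3 : 4 * δ * (s * σ0) / r ≤ s ^ 2 * (4 * σ0 / a) := by
    rw [div_le_iff₀ hrpos, hr]
    have e : s ^ 2 * (4 * σ0 / a) * (a * s ^ 2) = 4 * s ^ 3 * (s * σ0) := by
      field_simp
    rw [e]
    have : 4 * δ * (s * σ0) ≤ 4 * s ^ 3 * (s * σ0) := by gcongr
    exact this
  have t4 : K / 2 * (r + δ ^ 2 / r) ≤ s ^ 2 * (17 / 32 * K * a) := by
    have h5 : δ ^ 2 / r ≤ a * s ^ 2 / 16 := by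
      rw [div_le_iff₀ hrpos, hr]
      have : δ ^ 2 ≤ a ^ 2 * s ^ 4 / 16 := hδ2.trans h4
      nlinarith
    have h6 : K / 2 * (r + δ ^ 2 / r) ≤ K / 2 * (a * s ^ 2 + a * s ^ 2 / 16) := by
      rw [hr] at h5 ⊢
      gcongr
    nlinarith
  have e : s ^ 2 * semiW K a Λ = s ^ 2 * (32 * K * a) + s ^ 2 * (Λ / a ^ 2)
      + s ^ 2 * (4 * σ0 / a) + s ^ 2 * (17 / 32 * K * a) := by
    unfold semiW; rw [hσ0]; ring
  rw [e]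
  linarith

/-- One-sided Taylor estimate at scale `s`: `u y ≤ u x + ⟪g x, y - x⟫ + A s⁴` if
`|y - x| ≤ s³`. -/
theorem semi_upper_quartic {K : ℝ} (hK : 0 ≤ K) {u : E → ℝ} {Ω : Set E} {g : E → E}
    (hg : ∀ x ∈ Ω, IsKSubgrad K u Ω (g x) x)
    (hg2 : ∀ x r, 0 < r → closedBall x r ⊆ Ω → ∃ z ∈ closedBall x r, u z ≤ u x - r * ‖g x‖)
    {x y : E} {a s Λ : ℝ} (ha : 0 < a) (hs0 : 0 ≤ s) (hsa : s ≤ a / 4) (hΛ : 0 ≤ Λ)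
    (hx : closedBall x (a ^ 3) ⊆ Ω) (hxy : ‖y - x‖ ≤ s ^ 3) (hgx : ‖g x‖ ≤ Λ)
    (hgy : ‖g y‖ ≤ Λ) :
    u y ≤ u x + ⟪g x, y - x⟫ + semiA K a Λ * s ^ 4 := by
  rcases hs0.eq_or_lt with hs00 | hs
  · rw [← hs00] at hxy ⊢
    have : y - x = 0 := by
      have h1 : ‖y - x‖ ≤ 0 := by simpa using hxy
      exact norm_le_zero_iff.1 h1
    have hyx : y = x := sub_eq_zero.1 this
    rw [hyx]
    simp
  obtain ⟨h1, h2, h3, h4⟩ := scale_facts hs.le hsa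
  have hW := semiW_nonneg hK ha hΛ
  obtain ⟨W, hWdef⟩ : ∃ W : ℝ, W = semiW K a Λ := ⟨_, rfl⟩
  rw [← hWdef] at hW
  have hmod := semi_modulus_s hK hg hg2 ha hs hsa hΛ hx hxy hgy
  rw [← hWdef] at hmod
  obtain ⟨τ, hτ⟩ : ∃ τ : ℝ, τ = a * s ^ 2 := ⟨_, rfl⟩
  have hτpos : 0 < τ := by rw [hτ]; positivity
  have hτa : τ ≤ a ^ 3 / 16 := by rw [hτ]; nlinarith
  have ha3 : 0 < a ^ 3 := by positivity
  obtain ⟨δ, hδ⟩ : ∃ δ : ℝ, δ = ‖y - x‖ := ⟨_, rfl⟩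
  have hδ0 : 0 ≤ δ := by rw [hδ]; exact norm_nonneg _
  rw [← hδ] at hxy
  have hxτ : closedBall x τ ⊆ Ω := (closedBall_subset_closedBall (by linarith)).trans hx
  have hyΩ : y ∈ Ω := hx (by
    rw [mem_closedBall, dist_eq_norm, ← hδ]; linarith)
  obtain ⟨σ0, hσ0⟩ : ∃ σ0 : ℝ, σ0 = √(Λ * K * a) := ⟨_, rfl⟩
  have hσ00 : 0 ≤ σ0 := by rw [hσ0]; exact Real.sqrt_nonneg _
  have hσ0sq : σ0 ^ 2 = Λ * K * a := by rw [hσ0]; exact Real.sq_sqrt (by positivity)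
  have hσ2 : ‖g x‖ * K * τ ≤ (s * σ0) ^ 2 := by
    rw [mul_pow, hσ0sq, hτ]
    have : ‖g x‖ * K * (a * s ^ 2) ≤ Λ * K * (a * s ^ 2) := by gcongr
    nlinarith
  have hup := kgrad_upper hK hg hg2 hτpos hxτ hyΩ (mul_nonneg hs.le hσ00) hσ2
    (mul_nonneg (sq_nonneg s) hW) hmod
  rw [← hδ] at hup
  have hδ2 : δ ^ 2 ≤ s ^ 6 := by
    have : δ ^ 2 ≤ (s ^ 3) ^ 2 := pow_le_pow_left₀ hδ0 hxy 2
    calc δ ^ 2 ≤ (s ^ 3) ^ 2 := this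
      _ = s ^ 6 := by ring
  have hδτ : δ + τ ≤ 5 * a / 4 * s ^ 2 := by rw [hτ]; linarith
  have hδτ0 : 0 ≤ δ + τ := by positivity
  have t1 : δ * (s * σ0) ≤ σ0 * s ^ 4 := by
    have : δ * (s * σ0) ≤ s ^ 3 * (s * σ0) := by gcongr
    calc δ * (s * σ0) ≤ s ^ 3 * (s * σ0) := this
      _ = σ0 * s ^ 4 := by ring
  have t2 : ‖g x‖ * δ ^ 2 / (2 * τ) ≤ Λ / (2 * a) * s ^ 4 := by
    rw [div_le_iff₀ (by positivity), hτ]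
    have e : Λ / (2 * a) * s ^ 4 * (2 * (a * s ^ 2)) = Λ * s ^ 6 := by
      field_simp
    rw [e]
    calc ‖g x‖ * δ ^ 2 ≤ Λ * δ ^ 2 := by gcongr
      _ ≤ Λ * s ^ 6 := by gcongr
  have t3 : s ^ 2 * W * (δ + τ) ≤ 5 * a / 4 * W * s ^ 4 := by
    have : s ^ 2 * W * (δ + τ) ≤ s ^ 2 * W * (5 * a / 4 * s ^ 2) :=
      mul_le_mul_of_nonneg_left hδτ (by positivity)
    calc s ^ 2 * W * (δ + τ) ≤ s ^ 2 * W * (5 * a / 4 * s ^ 2) := this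
      _ = 5 * a / 4 * W * s ^ 4 := by ring
  have t4 : K / 2 * (δ + τ) ^ 2 ≤ 25 / 32 * K * a ^ 2 * s ^ 4 := by
    have h5 : (δ + τ) ^ 2 ≤ (5 * a / 4 * s ^ 2) ^ 2 := pow_le_pow_left₀ hδτ0 hδτ 2
    have h6 : K / 2 * (δ + τ) ^ 2 ≤ K / 2 * (5 * a / 4 * s ^ 2) ^ 2 := by gcongr
    calc K / 2 * (δ + τ) ^ 2 ≤ K / 2 * (5 * a / 4 * s ^ 2) ^ 2 := h6
      _ = 25 / 32 * K * a ^ 2 * s ^ 4 := by ring
  have e : semiA K a Λ * s ^ 4 = σ0 * s ^ 4 + Λ / (2 * a) * s ^ 4 + 5 * a / 4 * W * s ^ 4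
      + 25 / 32 * K * a ^ 2 * s ^ 4 := by
    unfold semiA; rw [hσ0, hWdef]; ring
  rw [e]
  linarith

/-- The Hölder estimate for nearby points, at scale `s` with `|x - y| = s³`. -/
theorem semi_holder_close {K : ℝ} (hK : 0 ≤ K) {u : E → ℝ} {Ω : Set E} {g : E → E}
    (hg : ∀ x ∈ Ω, IsKSubgrad K u Ω (g x) x)
    (hg2 : ∀ x r, 0 < r → closedBall x r ⊆ Ω → ∃ z ∈ closedBall x r, u z ≤ u x - r * ‖g x‖)
    {M : ℝ} (hM : ∀ a ∈ Ω, ∀ b ∈ Ω, u a - u b ≤ M)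
    {x y : E} {a s : ℝ} (ha : 0 < a) (hs : 0 < s) (hsa : s ≤ a / 4)
    (hx : closedBall x (a ^ 3) ⊆ Ω) (hy : closedBall y (a ^ 3) ⊆ Ω) (hxy : ‖x - y‖ = s ^ 3) :
    ‖g x - g y‖ ≤ (2 * semiA K a (2 * M / a ^ 3) + K * a ^ 2 / 8) * s := by
  obtain ⟨h1, h2, h3, h4⟩ := scale_facts hs.le hsa
  have ha3 : 0 < a ^ 3 := by positivity
  have hxΩ : x ∈ Ω := hx (mem_closedBall_self ha3.le)
  have hyΩ : y ∈ Ω := hy (mem_closedBall_self ha3.le)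
  have hM0 : 0 ≤ M := by
    have := hM x hxΩ x hxΩ
    simpa using this
  obtain ⟨Λ, hΛdef⟩ : ∃ Λ : ℝ, Λ = 2 * M / a ^ 3 := ⟨_, rfl⟩
  have hΛ : 0 ≤ Λ := by rw [hΛdef]; positivity
  rw [← hΛdef]
  have hA := semiA_nonneg hK ha hΛ
  obtain ⟨A, hAdef⟩ : ∃ A : ℝ, A = semiA K a Λ := ⟨_, rfl⟩
  rw [← hAdef] at hA ⊢
  have hbound : ∀ p : E, closedBall p (a ^ 3 / 2) ⊆ Ω → ‖g p‖ ≤ Λ := by
    intro p hp
    have h5 := kgrad_norm_le hg2 hM (by positivity : (0:ℝ) < a ^ 3 / 2) hp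
    have e : M / (a ^ 3 / 2) = Λ := by rw [hΛdef]; field_simp
    rwa [e] at h5
  have hgx : ‖g x‖ ≤ Λ := hbound x ((closedBall_subset_closedBall (by linarith)).trans hx)
  have hgy : ‖g y‖ ≤ Λ := hbound y ((closedBall_subset_closedBall (by linarith)).trans hy)
  rcases eq_or_ne (g x - g y) 0 with h0 | h0
  · rw [h0, norm_zero]; positivity
  obtain ⟨D, hD⟩ : ∃ D : ℝ, D = ‖g x - g y‖ := ⟨_, rfl⟩
  have hDpos : 0 < D := by rw [hD]; exact norm_pos_iff.2 h0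
  rw [← hD]
  obtain ⟨k, hk⟩ : ∃ k : E, k = (s ^ 3 / D) • (g x - g y) := ⟨_, rfl⟩
  have hknorm : ‖k‖ = s ^ 3 := by
    rw [hk, norm_smul, Real.norm_eq_abs, abs_of_nonneg (by positivity), ← hD]
    field_simp
  have hyk : y + k ∈ Ω := hy (by
    rw [mem_closedBall, dist_eq_norm, add_sub_cancel_left, hknorm]; linarith)
  have hgyk : ‖g (y + k)‖ ≤ Λ := by
    apply hbound
    refine (closedBall_subset_closedBall' ?_).trans hy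
    rw [dist_eq_norm, add_sub_cancel_left, hknorm]; linarith
  -- (ii) upper estimate at `y`
  have f2 := semi_upper_quartic hK hg hg2 ha hs.le hsa hΛ hy (x := y) (y := y + k)
    (by rw [add_sub_cancel_left, hknorm]) hgy hgyk
  rw [add_sub_cancel_left, ← hAdef] at f2
  -- (iii) upper estimate at `x`
  have f3 := semi_upper_quartic hK hg hg2 ha hs.le hsa hΛ hx (x := x) (y := y)
    (by rw [norm_sub_rev, hxy]) hgx hgy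
  rw [← hAdef] at f3
  -- (i) the `K`-subgradient inequality at `x`
  have f1 := hg x hxΩ (y + k) hyk
  have hn : ‖y + k - x‖ ≤ 2 * s ^ 3 := by
    calc ‖y + k - x‖ = ‖(y - x) + k‖ := by congr 1; abel
      _ ≤ ‖y - x‖ + ‖k‖ := norm_add_le _ _
      _ = 2 * s ^ 3 := by rw [norm_sub_rev, hxy, hknorm]; ring
  have hn2 : K / 2 * ‖y + k - x‖ ^ 2 ≤ K / 2 * (2 * s ^ 3) ^ 2 := by gcongr
  have e1 : ⟪g x, y + k - x⟫ = ⟪g x, y - x⟫ + ⟪g x, k⟫ := by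
    rw [← inner_add_right]; congr 1; abel
  rw [e1] at f1
  have e2 : ⟪g x, k⟫ - ⟪g y, k⟫ = s ^ 3 * D := by
    rw [← inner_sub_left, hk, real_inner_smul_right, real_inner_self_eq_norm_sq, ← hD]
    field_simp
  have f4 : s ^ 3 * D ≤ 2 * A * s ^ 4 + 2 * K * s ^ 6 := by
    have : K / 2 * (2 * s ^ 3) ^ 2 = 2 * K * s ^ 6 := by ring
    linarith
  have hs3 : 0 < s ^ 3 := by positivity
  have f5 : s ^ 3 * D ≤ s ^ 3 * ((2 * A + K * a ^ 2 / 8) * s) := by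
    have h6 : 2 * K * s ^ 6 ≤ K * a ^ 2 / 8 * s ^ 4 := by
      have : 2 * K * s ^ 6 ≤ 2 * K * (a ^ 2 * s ^ 4 / 16) := by gcongr
      nlinarith
    nlinarith
  exact le_of_mul_le_mul_left f5 hs3

end Vale.Agent.H22.InfHarm
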