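import Vale.Agent.H22.InfHarm.Semi3

/-!
# Semiconvex viscosity supersolutions: differentiability and the Hölder estimate
-/

namespace Vale.Agent.H22.InfHarm

open Filter Topology Set Metric
open scoped RealInnerProductSpace

variable {E : Type*} [NormedAddCommGroup E] [InnerProductSpace ℝ E]

theorem cbrt_pow {δ : ℝ} (hδ : 0 ≤ δ) : (δ ^ (1 / 3 : ℝ)) ^ 3 = δ := by
  rw [← Real.rpow_natCast, ← Real.rpow_mul hδ]
  norm_num

theorem cbrt_nonneg {δ : ℝ} (hδ : 0 ≤ δ) : 0 ≤ δ ^ (1 / 3 : ℝ) := Real.rpow_nonneg hδ _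

/-- The Hölder constant. -/
noncomputable def semiC (K M τ : ℝ) : ℝ :=
  2 * semiA K (τ ^ (1 / 3 : ℝ)) (2 * M / τ) + K * (τ ^ (1 / 3 : ℝ)) ^ 2 / 8
    + 8 * M / (τ * τ ^ (1 / 3 : ℝ))

theorem semiC_nonneg {K M τ : ℝ} (hK : 0 ≤ K) (hM : 0 ≤ M) (hτ : 0 < τ) : 0 ≤ semiC K M τ := by
  have ha : 0 < τ ^ (1 / 3 : ℝ) := Real.rpow_pos_of_pos hτ _
  have hA := semiA_nonneg hK ha (by positivity : (0:ℝ) ≤ 2 * M / τ)
  unfold semiC
  positivity

/-- The interior `C^{0,1/3}` estimate for the `K`-gradient field. -/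
theorem semi_holder {K : ℝ} (hK : 0 ≤ K) {u : E → ℝ} {Ω : Set E} {g : E → E}
    (hg : ∀ x ∈ Ω, IsKSubgrad K u Ω (g x) x)
    (hg2 : ∀ x r, 0 < r → closedBall x r ⊆ Ω → ∃ z ∈ closedBall x r, u z ≤ u x - r * ‖g x‖)
    {M : ℝ} (hM : ∀ a ∈ Ω, ∀ b ∈ Ω, u a - u b ≤ M)
    {x y : E} {τ : ℝ} (hτ : 0 < τ)
    (hx : closedBall x τ ⊆ Ω) (hy : closedBall y τ ⊆ Ω) :
    ‖g x - g y‖ ≤ semiC K M τ * ‖x - y‖ ^ (1 / 3 : ℝ) := by
  have hxΩ : x ∈ Ω := hx (mem_closedBall_self hτ.le)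
  have hM0 : 0 ≤ M := by
    have := hM x hxΩ x hxΩ
    simpa using this
  obtain ⟨a, hadef⟩ : ∃ a : ℝ, a = τ ^ (1 / 3 : ℝ) := ⟨_, rfl⟩
  have ha : 0 < a := by rw [hadef]; exact Real.rpow_pos_of_pos hτ _
  have ha3 : a ^ 3 = τ := by rw [hadef]; exact cbrt_pow hτ.le
  obtain ⟨s, hsdef⟩ : ∃ s : ℝ, s = ‖x - y‖ ^ (1 / 3 : ℝ) := ⟨_, rfl⟩
  have hs0 : 0 ≤ s := by rw [hsdef]; exact cbrt_nonneg (norm_nonneg _)
  have hs3 : s ^ 3 = ‖x - y‖ := by rw [hsdef]; exact cbrt_pow (norm_nonneg _)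
  have hA := semiA_nonneg hK ha (by positivity : (0:ℝ) ≤ 2 * M / τ)
  have hC : semiC K M τ = 2 * semiA K a (2 * M / τ) + K * a ^ 2 / 8 + 8 * M / (τ * a) := by
    unfold semiC; rw [hadef]
  rw [hC, ← hsdef]
  rcases hs0.eq_or_lt with hs00 | hspos
  · have hxy : x = y := by
      have : ‖x - y‖ = 0 := by rw [← hs3, ← hs00]; ring
      exact sub_eq_zero.1 (norm_eq_zero.1 this)
    rw [hxy, sub_self, norm_zero, ← hs00, mul_zero]
  rcases le_or_gt s (a / 4) with hsa | hsa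
  · have h1 := semi_holder_close hK hg hg2 hM ha hspos hsa (by rw [ha3]; exact hx)
      (by rw [ha3]; exact hy) hs3.symm
    rw [ha3] at h1
    have h2 : 0 ≤ 8 * M / (τ * a) * s := by positivity
    calc ‖g x - g y‖ ≤ (2 * semiA K a (2 * M / τ) + K * a ^ 2 / 8) * s := h1
      _ ≤ (2 * semiA K a (2 * M / τ) + K * a ^ 2 / 8 + 8 * M / (τ * a)) * s := by linarith
  · have h1 := kgrad_norm_le hg2 hM hτ hx
    have h2 := kgrad_norm_le hg2 hM hτ hy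
    have h3 : ‖g x - g y‖ ≤ 2 * M / τ := by
      calc ‖g x - g y‖ ≤ ‖g x‖ + ‖g y‖ := norm_sub_le _ _
        _ ≤ M / τ + M / τ := add_le_add h1 h2
        _ = 2 * M / τ := by ring
    have h4 : 2 * M / τ ≤ 8 * M / (τ * a) * s := by
      have e : 8 * M / (τ * a) * s = 2 * M / τ * (4 * s / a) := by field_simp; ring
      rw [e]
      have h5 : 1 ≤ 4 * s / a := by
        rw [le_div_iff₀ ha]; linarith
      have h6 : 0 ≤ 2 * M / τ := by positivity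
      nlinarith
    have h7 : 0 ≤ (2 * semiA K a (2 * M / τ) + K * a ^ 2 / 8) * s := by positivity
    linarith

end Vale.Agent.H22.InfHarm
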