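import Vale.Agent.H22.InfHarm.Semi4

/-!
# Semiconvex viscosity supersolutions: differentiability
-/

namespace Vale.Agent.H22.InfHarm

open Filter Topology Set Metric
open scoped RealInnerProductSpace

variable {E : Type*} [NormedAddCommGroup E] [InnerProductSpace ℝ E] [CompleteSpace E]

theorem lt_of_pow_three_lt {s b : ℝ} (hb : 0 ≤ b) (h : s ^ 3 < b ^ 3) : s ≤ b := by
  by_contra hcon
  push Not at hcon
  have : b ^ 3 ≤ s ^ 3 := pow_le_pow_left₀ hb hcon.le 3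
  linarith

/-- The `K`-gradient field is the gradient. -/
theorem semi_hasGradientAt {K : ℝ} (hK : 0 ≤ K) {u : E → ℝ} {Ω : Set E} {g : E → E}
    (hΩ : IsOpen Ω)
    (hg : ∀ x ∈ Ω, IsKSubgrad K u Ω (g x) x)
    (hg2 : ∀ x r, 0 < r → closedBall x r ⊆ Ω → ∃ z ∈ closedBall x r, u z ≤ u x - r * ‖g x‖)
    {M : ℝ} (hM : ∀ a ∈ Ω, ∀ b ∈ Ω, u a - u b ≤ M)
    {x : E} (hx : x ∈ Ω) : HasGradientAt u (g x) x := by
  have hM0 : 0 ≤ M := by simpa using hM x hx x hx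
  obtain ⟨τ, hτ, hball⟩ := Metric.nhds_basis_closedBall.mem_iff.1 (hΩ.mem_nhds hx)
  obtain ⟨a, hadef⟩ : ∃ a : ℝ, a = τ ^ (1 / 3 : ℝ) := ⟨_, rfl⟩
  have ha : 0 < a := by rw [hadef]; exact Real.rpow_pos_of_pos hτ _
  have ha3 : a ^ 3 = τ := by rw [hadef]; exact cbrt_pow hτ.le
  obtain ⟨Λ, hΛdef⟩ : ∃ Λ : ℝ, Λ = 2 * M / τ := ⟨_, rfl⟩
  have hΛ : 0 ≤ Λ := by rw [hΛdef]; positivity
  have hA := semiA_nonneg hK ha hΛ
  obtain ⟨A, hAdef⟩ : ∃ A : ℝ, A = semiA K a Λ := ⟨_, rfl⟩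
  rw [← hAdef] at hA
  have hbound : ∀ p : E, closedBall p (τ / 2) ⊆ Ω → ‖g p‖ ≤ Λ := by
    intro p hp
    have h5 := kgrad_norm_le hg2 hM (by positivity : (0:ℝ) < τ / 2) hp
    have e : M / (τ / 2) = Λ := by rw [hΛdef]; field_simp
    rwa [e] at h5
  have hgx : ‖g x‖ ≤ Λ := hbound x ((closedBall_subset_closedBall (by linarith)).trans hball)
  rw [hasGradientAt_iff_hasFDerivAt, hasFDerivAt_iff_isLittleO, Asymptotics.isLittleO_iff]
  intro c hc
  have hd1 : (0:ℝ) < (c / (A + 1)) ^ 3 := by positivity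
  have hd2 : (0:ℝ) < c / (K + 1) := by positivity
  have hd3 : (0:ℝ) < (a / 4) ^ 3 := by positivity
  filter_upwards [Metric.ball_mem_nhds x hd1, Metric.ball_mem_nhds x hd2,
    Metric.ball_mem_nhds x hd3] with y hy1 hy2 hy3
  rw [Metric.mem_ball, dist_eq_norm] at hy1 hy2 hy3
  obtain ⟨s, hsdef⟩ : ∃ s : ℝ, s = ‖y - x‖ ^ (1 / 3 : ℝ) := ⟨_, rfl⟩
  have hs0 : 0 ≤ s := by rw [hsdef]; exact cbrt_nonneg (norm_nonneg _)
  have hs3 : s ^ 3 = ‖y - x‖ := by rw [hsdef]; exact cbrt_pow (norm_nonneg _)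
  have hsa : s ≤ a / 4 := lt_of_pow_three_lt (by positivity) (by rw [hs3]; exact hy3)
  have hsc : s ≤ c / (A + 1) := lt_of_pow_three_lt (by positivity) (by rw [hs3]; exact hy1)
  have hyτ : ‖y - x‖ ≤ τ / 2 := by
    have : (a / 4) ^ 3 = τ / 64 := by rw [div_pow, ha3]; norm_num
    linarith
  have hyΩ : y ∈ Ω := hball (by rw [mem_closedBall, dist_eq_norm]; linarith)
  have hgy : ‖g y‖ ≤ Λ := hbound y (by
    refine (closedBall_subset_closedBall' ?_).trans hball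
    rw [dist_eq_norm]; linarith)
  have up := semi_upper_quartic hK hg hg2 ha hs0 hsa hΛ (by rw [ha3]; exact hball) (x := x)
    (y := y) (by rw [hs3]) hgx hgy
  rw [← hAdef] at up
  have low := hg x hx y hyΩ
  rw [Real.norm_eq_abs, InnerProductSpace.toDual_apply_apply, abs_le]
  constructor
  · have : K / 2 * ‖y - x‖ ^ 2 ≤ c * ‖y - x‖ := by
      have h1 : ‖y - x‖ * (K + 1) ≤ c := by
        rw [lt_div_iff₀ (by positivity)] at hy2; exact hy2.le
      nlinarith [norm_nonneg (y - x)]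
    linarith
  · have : A * s ^ 4 ≤ c * ‖y - x‖ := by
      rw [← hs3]
      have h1 : s * (A + 1) ≤ c := by rwa [le_div_iff₀ (by positivity)] at hsc
      have h2 : A * s ≤ c := by nlinarith
      have h3 : A * s ^ 4 = (A * s) * s ^ 3 := by ring
      rw [h3]
      exact mul_le_mul_of_nonneg_right h2 (pow_nonneg hs0 3)
    linarith

end Vale.Agent.H22.InfHarm
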