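import Vale.Agent.H22.InfHarm.Semi5
import Vale.Agent.H22.InfHarm.Convex3

/-!
# Semiconvex or semiconcave infinity-harmonic functions are `C^{1,1/3}`: final assembly
-/

namespace Vale.Agent.H22.InfHarm

open Filter Topology Set Metric
open scoped RealInnerProductSpace

variable {E : Type*} [NormedAddCommGroup E] [InnerProductSpace ℝ E] [CompleteSpace E]

/-- An explicit bound for the Hölder constant. -/
theorem semiC_le {K M τ : ℝ} (hK : 0 ≤ K) (hM : 0 ≤ M) (hτ : 0 < τ) :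
    semiC K M τ ≤ 100 * (K * τ ^ (2 / 3 : ℝ) + M / τ ^ (4 / 3 : ℝ)) := by
  obtain ⟨a, hadef⟩ : ∃ a : ℝ, a = τ ^ (1 / 3 : ℝ) := ⟨_, rfl⟩
  have ha : 0 < a := by rw [hadef]; exact Real.rpow_pos_of_pos hτ _
  have ha3 : a ^ 3 = τ := by rw [hadef]; exact cbrt_pow hτ.le
  have e2 : τ ^ (2 / 3 : ℝ) = a ^ 2 := by
    rw [hadef, ← Real.rpow_natCast, ← Real.rpow_mul hτ.le]; norm_num
  have e4 : τ ^ (4 / 3 : ℝ) = a ^ 4 := by
    rw [hadef, ← Real.rpow_natCast, ← Real.rpow_mul hτ.le]; norm_num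
  rw [e2, e4]
  unfold semiC
  rw [← hadef, ← ha3]
  obtain ⟨X, hX⟩ : ∃ X : ℝ, X = K * a ^ 2 := ⟨_, rfl⟩
  obtain ⟨Y, hY⟩ : ∃ Y : ℝ, Y = M / a ^ 4 := ⟨_, rfl⟩
  have hX0 : 0 ≤ X := by rw [hX]; positivity
  have hY0 : 0 ≤ Y := by rw [hY]; positivity
  have s1 : √(2 * K * a * (2 * M / a ^ 3)) ≤ X + Y := by
    rw [Real.sqrt_le_iff]
    refine ⟨by positivity, ?_⟩
    have : 2 * K * a * (2 * M / a ^ 3) = 4 * X * Y := by rw [hX, hY]; field_simp; ring
    rw [this]; nlinarith [sq_nonneg (X - Y)]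
  have s2 : √(2 * M / a ^ 3 * K * a) ≤ X + Y := by
    rw [Real.sqrt_le_iff]
    refine ⟨by positivity, ?_⟩
    have : 2 * M / a ^ 3 * K * a = 2 * X * Y := by rw [hX, hY]; field_simp
    rw [this]; nlinarith [sq_nonneg (X - Y), mul_nonneg hX0 hY0]
  have hW : semiW K a (2 * M / a ^ 3) ≤ ((36 + 17 / 32) * X + 6 * Y) / a := by
    unfold semiW
    have t1 : 4 * √(2 * K * a * (2 * M / a ^ 3)) / a ≤ 4 * (X + Y) / a := by gcongr
    have t2 : 32 * K * a + 2 * M / a ^ 3 / a ^ 2 + 4 * (X + Y) / a + 17 / 32 * K * a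
        = ((36 + 17 / 32) * X + 6 * Y) / a := by
      rw [hX, hY]; field_simp; ring
    linarith
  have hA : semiA K a (2 * M / a ^ 3) ≤ (47 + 1 / 2) * X + (9 + 1 / 2) * Y := by
    unfold semiA
    have t1 : 5 * a / 4 * semiW K a (2 * M / a ^ 3)
        ≤ 5 * a / 4 * (((36 + 17 / 32) * X + 6 * Y) / a) := by gcongr
    have t2 : 5 * a / 4 * (((36 + 17 / 32) * X + 6 * Y) / a)
        = 5 / 4 * ((36 + 17 / 32) * X + 6 * Y) := by field_simp
    have t3 : 2 * M / a ^ 3 / (2 * a) = Y := by rw [hY]; field_simp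
    have t4 : 25 / 32 * K * a ^ 2 = 25 / 32 * X := by rw [hX]; ring
    linarith
  have t5 : K * a ^ 2 / 8 = X / 8 := by rw [hX]
  have t6 : 8 * M / (a ^ 3 * a) = 8 * Y := by rw [hY]; field_simp
  rw [t5, t6, ← hX, ← hY]
  linarith

omit [InnerProductSpace ℝ E] [CompleteSpace E] in
/-- A field with interior Hölder bounds of exponent `1/3` is continuous. -/
theorem continuousOn_of_holder {Ω : Set E} (hΩ : IsOpen Ω) (g : E → E) (C : ℝ → ℝ)
    (hH : ∀ x y τ, 0 < τ → closedBall x τ ⊆ Ω → closedBall y τ ⊆ Ω →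
        ‖g x - g y‖ ≤ C τ * ‖x - y‖ ^ (1 / 3 : ℝ)) :
    ContinuousOn g Ω := by
  intro x hx
  obtain ⟨τ2, hτ2, hball⟩ := Metric.nhds_basis_closedBall.mem_iff.1 (hΩ.mem_nhds hx)
  apply ContinuousAt.continuousWithinAt
  rw [ContinuousAt, tendsto_iff_norm_sub_tendsto_zero]
  have hcont : Continuous (fun y : E => C (τ2 / 2) * ‖y - x‖ ^ (1 / 3 : ℝ)) := by
    refine continuous_const.mul (Continuous.rpow_const (by fun_prop) ?_)
    intro y; right; norm_num
  have h0 := hcont.tendsto x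
  simp only [sub_self, norm_zero] at h0
  rw [Real.zero_rpow (by norm_num), mul_zero] at h0
  refine squeeze_zero' (Eventually.of_forall fun y => norm_nonneg _) ?_ h0
  filter_upwards [Metric.ball_mem_nhds x (by positivity : (0:ℝ) < τ2 / 2)] with y hy
  rw [Metric.mem_ball] at hy
  have h1 : closedBall y (τ2 / 2) ⊆ Ω := by
    refine (closedBall_subset_closedBall' ?_).trans hball
    linarith
  have h2 : closedBall x (τ2 / 2) ⊆ Ω :=
    (closedBall_subset_closedBall (by linarith)).trans hball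
  exact hH y x (τ2 / 2) (by positivity) h1 h2

/-- Semiconvex viscosity supersolutions with bounded oscillation: gradient field with the
interior Hölder estimate. -/
theorem semiconvex_super_bounded [FiniteDimensional ℝ E] {K : ℝ} (hK : 0 ≤ K) {u : E → ℝ}
    {Ω : Set E} (hΩ : IsOpen Ω) (hu : ConvexOn ℝ Ω (fun y => u y + K / 2 * ‖y‖ ^ 2))
    (hsuper : IsInfSuperharmonicOn u Ω) {M : ℝ} (hM : ∀ a ∈ Ω, ∀ b ∈ Ω, u a - u b ≤ M) :
    ∃ g : E → E, (∀ x ∈ Ω, HasGradientAt u (g x) x) ∧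
      ∀ x y τ, 0 < τ → closedBall x τ ⊆ Ω → closedBall y τ ⊆ Ω →
        ‖g x - g y‖ ≤ semiC K M τ * ‖x - y‖ ^ (1 / 3 : ℝ) := by
  obtain ⟨g, hg, hg2⟩ := exists_kgrad_field hK hΩ hu hsuper
  exact ⟨g, fun x hx => semi_hasGradientAt hK hΩ hg hg2 hM hx,
    fun x y τ hτ hx hy => semi_holder hK hg hg2 hM hτ hx hy⟩

theorem IsInfSuperharmonicOn.mono {u : E → ℝ} {Ω Ω' : Set E} (h : IsInfSuperharmonicOn u Ω)
    (hsub : Ω' ⊆ Ω) : IsInfSuperharmonicOn u Ω' := fun z hz => h z (hsub hz)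

/-- Semiconvex viscosity supersolutions are differentiable with continuous gradient (no bound on
the oscillation needed). -/
theorem semiconvex_super_c1 [FiniteDimensional ℝ E] {K : ℝ} (hK : 0 ≤ K) {u : E → ℝ}
    {Ω : Set E} (hΩ : IsOpen Ω) (hu : ConvexOn ℝ Ω (fun y => u y + K / 2 * ‖y‖ ^ 2))
    (hsuper : IsInfSuperharmonicOn u Ω) :
    (∀ x ∈ Ω, HasGradientAt u (gradient u x) x) ∧ ContinuousOn (gradient u) Ω := by
  have hcontF : ContinuousOn (fun y => u y + K / 2 * ‖y‖ ^ 2) Ω := hu.continuousOn hΩ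
  have hcont : ContinuousOn u Ω := by
    have h2 : Continuous (fun y : E => K / 2 * ‖y‖ ^ 2) := by fun_prop
    have h3 := hcontF.sub h2.continuousOn
    refine h3.congr ?_
    intro y _
    simp
  have hloc : ∀ x ∈ Ω, HasGradientAt u (gradient u x) x ∧ ContinuousAt (gradient u) x := by
    intro x hx
    obtain ⟨ρ, hρ, hball⟩ := Metric.nhds_basis_closedBall.mem_iff.1 (hΩ.mem_nhds hx)
    have hsub : ball x ρ ⊆ Ω := ball_subset_closedBall.trans hball
    obtain ⟨B, hB⟩ := (isCompact_closedBall x ρ).exists_bound_of_continuousOn (hcont.mono hball)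
    have hM : ∀ a ∈ ball x ρ, ∀ b ∈ ball x ρ, u a - u b ≤ 2 * B := by
      intro a ha b hb
      have h1 := hB a (ball_subset_closedBall ha)
      have h2 := hB b (ball_subset_closedBall hb)
      rw [Real.norm_eq_abs] at h1 h2
      have := abs_le.1 h1
      have := abs_le.1 h2
      linarith
    obtain ⟨g, hg1, hg2⟩ := semiconvex_super_bounded hK isOpen_ball
      (hu.subset hsub (convex_ball x ρ)) (hsuper.mono hsub) hM
    have hgc : ContinuousOn g (ball x ρ) :=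
      continuousOn_of_holder isOpen_ball g (fun τ => semiC K (2 * B) τ) hg2
    have hxb : x ∈ ball x ρ := mem_ball_self hρ
    have heq : ∀ y ∈ ball x ρ, gradient u y = g y := fun y hy => (hg1 y hy).gradient
    refine ⟨by rw [heq x hxb]; exact hg1 x hxb, ?_⟩
    have h3 : ContinuousAt g x := hgc.continuousAt (isOpen_ball.mem_nhds hxb)
    refine h3.congr ?_
    filter_upwards [isOpen_ball.mem_nhds hxb] with y hy
    exact (heq y hy).symm
  exact ⟨fun x hx => (hloc x hx).1, fun x hx => (hloc x hx).2.continuousWithinAt⟩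

/-- **Semiconvex supersolutions.** The `C^1` regularity and the interior `C^{1,1/3}` estimate. -/
theorem semiconvex_super_main [FiniteDimensional ℝ E] {K : ℝ} (hK : 0 ≤ K) {u : E → ℝ}
    {Ω : Set E} (hΩ : IsOpen Ω) (hu : ConvexOn ℝ Ω (fun y => u y + K / 2 * ‖y‖ ^ 2))
    (hsuper : IsInfSuperharmonicOn u Ω) :
    ContDiffOn ℝ 1 u Ω ∧
    ∀ (M τ : ℝ), 0 < τ → (∀ a ∈ Ω, ∀ b ∈ Ω, u a - u b ≤ M) →
      ∀ x y, closedBall x τ ⊆ Ω → closedBall y τ ⊆ Ω →
        ‖gradient u x - gradient u y‖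
          ≤ 100 * (K * τ ^ (2 / 3 : ℝ) + M / τ ^ (4 / 3 : ℝ)) * ‖x - y‖ ^ (1 / 3 : ℝ) := by
  obtain ⟨hgrad, hgcont⟩ := semiconvex_super_c1 hK hΩ hu hsuper
  refine ⟨?_, ?_⟩
  · rw [show (1 : WithTop ℕ∞) = 0 + 1 from (zero_add 1).symm,
      contDiffOn_succ_iff_fderiv_of_isOpen hΩ]
    refine ⟨fun x hx => (hgrad x hx).differentiableAt.differentiableWithinAt, by simp, ?_⟩
    rw [contDiffOn_zero]
    have h1 : ContinuousOn (fun y => InnerProductSpace.toDual ℝ E (gradient u y)) Ω :=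
      (LinearIsometryEquiv.continuous _).comp_continuousOn hgcont
    exact h1.congr (fun y hy => (hasGradientAt_iff_hasFDerivAt.1 (hgrad y hy)).fderiv)
  · intro M τ hτ hM x y hbx hby
    have hx : x ∈ Ω := hbx (mem_closedBall_self hτ.le)
    have hy : y ∈ Ω := hby (mem_closedBall_self hτ.le)
    have hM0 : 0 ≤ M := by simpa using hM x hx x hx
    obtain ⟨g, hg1, hg2⟩ := semiconvex_super_bounded hK hΩ hu hsuper hM
    rw [(hg1 x hx).gradient, (hg1 y hy).gradient]
    exact (hg2 x y τ hτ hbx hby).trans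
      (mul_le_mul_of_nonneg_right (semiC_le hK hM0 hτ) (Real.rpow_nonneg (norm_nonneg _) _))

/-- **Main theorem.** A semiconvex or semiconcave viscosity solution of the infinity-Laplace
equation on an open set is `C^1` and its gradient satisfies an interior Hölder estimate of
exponent `1/3` in terms of the semiconvexity constant, the oscillation and the distance to
the boundary. -/
theorem semiconvex_or_semiconcave_main [FiniteDimensional ℝ E] {K : ℝ} (hK : 0 ≤ K)
    {u : E → ℝ} {Ω : Set E} (hΩ : IsOpen Ω) (hu : IsInfHarmonicOn u Ω)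
    (hc : ConvexOn ℝ Ω (fun x => u x + K / 2 * ‖x‖ ^ 2) ∨
      ConcaveOn ℝ Ω (fun x => u x - K / 2 * ‖x‖ ^ 2)) :
    ContDiffOn ℝ 1 u Ω ∧
    ∀ (M τ : ℝ), 0 < τ → (∀ a ∈ Ω, ∀ b ∈ Ω, u a - u b ≤ M) →
      ∀ x y, closedBall x τ ⊆ Ω → closedBall y τ ⊆ Ω →
        ‖gradient u x - gradient u y‖
          ≤ 100 * (K * τ ^ (2 / 3 : ℝ) + M / τ ^ (4 / 3 : ℝ)) * ‖x - y‖ ^ (1 / 3 : ℝ) := by
  rcases hc with hc | hc
  · exact semiconvex_super_main hK hΩ hc hu.2.2
  · have hc' : ConvexOn ℝ Ω (fun y => -u y + K / 2 * ‖y‖ ^ 2) := by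
      refine hc.neg.congr ?_
      intro y _
      simp only [Pi.neg_apply]
      ring
    obtain ⟨h1, h2⟩ := semiconvex_super_main hK hΩ hc' hu.2.1.neg
    refine ⟨?_, ?_⟩
    · have h3 := h1.neg
      simpa using h3
    · intro M τ hτ hM x y hbx hby
      have h4 := h2 M τ hτ (fun a ha b hb => by have := hM b hb a ha; linarith) x y hbx hby
      rw [gradient_fun_neg, gradient_fun_neg] at h4
      have h6 : -gradient u x - -gradient u y = -(gradient u x - gradient u y) := by abel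
      rwa [h6, norm_neg] at h4

end Vale.Agent.H22.InfHarm
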