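import Vale.Agent.H22.InfHarm.Defs

/-!
# Computing the infinity Laplacian of test functions
-/

namespace Vale.Agent.H22.InfHarm

open Filter Topology Set Metric
open scoped RealInnerProductSpace

variable {E : Type*} [NormedAddCommGroup E] [InnerProductSpace ℝ E]

theorem hasDerivAt_line {φ : E → ℝ} {z : E} (hφ : ContDiffAt ℝ 2 φ z) (v : E) :
    ∀ᶠ t in 𝓝 (0:ℝ), HasDerivAt (fun t : ℝ => φ (z + t • v)) (fderiv ℝ φ (z + t • v) v) t := by
  have h1 : ∀ᶠ y in 𝓝 z, DifferentiableAt ℝ φ y := by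
    filter_upwards [hφ.eventually (by simp)] with y hy
    exact hy.differentiableAt (by norm_num)
  have hcont : Tendsto (fun t : ℝ => z + t • v) (𝓝 0) (𝓝 z) := by
    have : Continuous (fun t : ℝ => z + t • v) := by fun_prop
    simpa using this.tendsto 0
  filter_upwards [hcont.eventually h1] with t ht
  have hline : HasDerivAt (fun t : ℝ => z + t • v) v t := by
    simpa using ((hasDerivAt_id t).smul_const v).const_add z
  exact ht.hasFDerivAt.comp_hasDerivAt t hline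

theorem hasDerivAt_fderiv_line {φ : E → ℝ} {z : E} (hφ : ContDiffAt ℝ 2 φ z) (v : E) :
    HasDerivAt (fun t : ℝ => fderiv ℝ φ (z + t • v) v) (fderiv ℝ (fderiv ℝ φ) z v v) 0 := by
  have h2 : DifferentiableAt ℝ (fderiv ℝ φ) z :=
    (hφ.fderiv_right (m := 1) (by norm_num)).differentiableAt (by norm_num)
  have hline : HasDerivAt (fun t : ℝ => z + t • v) v 0 := by
    simpa using ((hasDerivAt_id (0:ℝ)).smul_const v).const_add z
  have h3 : HasDerivAt (fun t : ℝ => fderiv ℝ φ (z + t • v)) (fderiv ℝ (fderiv ℝ φ) z v) 0 := by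
    have hz : z + (0:ℝ) • v = z := by simp
    have h4 : HasFDerivAt (fderiv ℝ φ) (fderiv ℝ (fderiv ℝ φ) z) (z + (0:ℝ) • v) := by
      rw [hz]; exact h2.hasFDerivAt
    exact h4.comp_hasDerivAt 0 hline
  have h5 : HasFDerivAt (fun L : E →L[ℝ] ℝ => L v) (ContinuousLinearMap.apply ℝ ℝ v)
      (fderiv ℝ φ (z + (0:ℝ) • v)) := (ContinuousLinearMap.apply ℝ ℝ v).hasFDerivAt
  exact h5.comp_hasDerivAt 0 h3

variable [CompleteSpace E]

/-- If `φ` restricted to the line through `z` in the direction of its gradient is a quadratic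
polynomial `a + b t + c t²` near `t = 0`, then `Δ_∞ φ (z) = 2 c`. -/
theorem infLaplacian_eq_two_mul {φ : E → ℝ} {z : E} (hφ : ContDiffAt ℝ 2 φ z) {a b c : ℝ}
    (h : ∀ᶠ t in 𝓝 (0:ℝ), φ (z + t • gradient φ z) = a + b * t + c * t ^ 2) :
    infLaplacian φ z = 2 * c := by
  set v := gradient φ z with hv
  have h1 := hasDerivAt_line hφ v
  have h2 := hasDerivAt_fderiv_line hφ v
  have e1 : (fun t : ℝ => fderiv ℝ φ (z + t • v) v) =ᶠ[𝓝 0]
      deriv (fun t : ℝ => φ (z + t • v)) := by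
    filter_upwards [h1] with t ht using ht.deriv.symm
  have e2 : (fun t : ℝ => φ (z + t • v)) =ᶠ[𝓝 0] fun t => a + b * t + c * t ^ 2 := h
  have e3 : deriv (fun t : ℝ => φ (z + t • v)) =ᶠ[𝓝 0]
      deriv (fun t : ℝ => a + b * t + c * t ^ 2) := e2.deriv
  have e4 : deriv (fun t : ℝ => a + b * t + c * t ^ 2) = fun t => b + 2 * c * t := by
    funext t
    have : HasDerivAt (fun t : ℝ => a + b * t + c * t ^ 2) (b + 2 * c * t) t := by
      have h1 : HasDerivAt (fun t : ℝ => b * t) b t := by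
        simpa using (hasDerivAt_id t).const_mul b
      have h2 : HasDerivAt (fun t : ℝ => c * t ^ 2) (2 * c * t) t := by
        have h := (hasDerivAt_pow 2 t).const_mul c
        exact h.congr_deriv (by norm_num; ring)
      exact (h1.const_add a).add h2
    exact this.deriv
  have h5 : HasDerivAt (fun t : ℝ => b + 2 * c * t) (2 * c) 0 := by
    simpa using ((hasDerivAt_id (0:ℝ)).const_mul (2*c)).const_add b
  have h6 : HasDerivAt (fun t : ℝ => fderiv ℝ φ (z + t • v) v) (2 * c) 0 := by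
    refine h5.congr_of_eventuallyEq ?_
    exact e1.trans (e3.trans (by rw [e4]))
  exact h2.unique h6

omit [CompleteSpace E] in
/-- A quadratic bound on the first-order remainder gives Fréchet differentiability. -/
theorem hasFDerivAt_of_sq_bound {f : E → ℝ} {f' : E →L[ℝ] ℝ} {x : E} {C : ℝ}
    (h : ∀ᶠ y in 𝓝 x, |f y - f x - f' (y - x)| ≤ C * ‖y - x‖ ^ 2) : HasFDerivAt f f' x := by
  rw [hasFDerivAt_iff_isLittleO, Asymptotics.isLittleO_iff]
  intro ε hε
  have h2 : ∀ᶠ y in 𝓝 x, ‖y - x‖ < ε / (|C| + 1) := by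
    have : Metric.ball x (ε / (|C| + 1)) ∈ 𝓝 x := Metric.ball_mem_nhds x (by positivity)
    filter_upwards [this] with y hy
    simpa [dist_eq_norm] using hy
  filter_upwards [h, h2] with y hy hy2
  rw [Real.norm_eq_abs]
  calc |f y - f x - f' (y - x)| ≤ C * ‖y - x‖ ^ 2 := hy
    _ ≤ (|C| + 1) * ‖y - x‖ ^ 2 := by gcongr; linarith [le_abs_self C]
    _ = ((|C| + 1) * ‖y - x‖) * ‖y - x‖ := by ring
    _ ≤ ε * ‖y - x‖ := by
        gcongr
        have := hy2.le
        rw [le_div_iff₀ (by positivity)] at this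
        linarith

/-- The quadratic test function `φ(y) = c + ⟪r, y - z⟫ + M ⟪e, y - z⟫²`. -/
theorem quadratic_test (c : ℝ) (r e z : E) (M : ℝ) :
    ContDiffAt ℝ 2 (fun y : E => c + ⟪r, y - z⟫ + M * ⟪e, y - z⟫ ^ 2) z ∧
    infLaplacian (fun y : E => c + ⟪r, y - z⟫ + M * ⟪e, y - z⟫ ^ 2) z
      = 2 * (M * ⟪e, r⟫ ^ 2) := by
  set φ : E → ℝ := fun y : E => c + ⟪r, y - z⟫ + M * ⟪e, y - z⟫ ^ 2 with hφdef
  have hsmooth : ContDiffAt ℝ 2 φ z := by
    have h1 : ContDiff ℝ 2 (fun y : E => ⟪r, y - z⟫) :=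
      contDiff_const.inner ℝ (contDiff_id.sub contDiff_const)
    have h2 : ContDiff ℝ 2 (fun y : E => ⟪e, y - z⟫) :=
      contDiff_const.inner ℝ (contDiff_id.sub contDiff_const)
    have : ContDiff ℝ 2 φ := (contDiff_const.add h1).add (contDiff_const.mul (h2.pow 2))
    exact this.contDiffAt
  have hgrad : HasGradientAt φ r z := by
    rw [hasGradientAt_iff_hasFDerivAt]
    apply hasFDerivAt_of_sq_bound (C := |M| * ‖e‖ ^ 2)
    filter_upwards with y
    have e1 : φ y - φ z - (InnerProductSpace.toDual ℝ E r) (y - z) = M * ⟪e, y - z⟫ ^ 2 := by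
      simp [hφdef]
      ring
    rw [e1, abs_mul, abs_pow]
    have := abs_real_inner_le_norm e (y - z)
    have h0 : |⟪e, y - z⟫| ^ 2 ≤ (‖e‖ * ‖y - z‖) ^ 2 := by gcongr
    calc |M| * |⟪e, y - z⟫| ^ 2 ≤ |M| * (‖e‖ * ‖y - z‖) ^ 2 := by gcongr
      _ = |M| * ‖e‖ ^ 2 * ‖y - z‖ ^ 2 := by ring
  refine ⟨hsmooth, ?_⟩
  apply infLaplacian_eq_two_mul hsmooth (a := c) (b := ‖r‖ ^ 2)
  rw [hgrad.gradient]
  filter_upwards with t
  simp only [hφdef, add_sub_cancel_left, inner_smul_right, real_inner_self_eq_norm_sq]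
  ring

/-- The radial (cone-like) test function `G(y) = A - s ‖y - x‖ + γ ‖y - x‖²` away from `x`. -/
theorem radial_test (A s γ : ℝ) (x y₀ : E) (hne : y₀ ≠ x) :
    ContDiffAt ℝ 2 (fun y : E => A - s * ‖y - x‖ + γ * ‖y - x‖ ^ 2) y₀ ∧
    infLaplacian (fun y : E => A - s * ‖y - x‖ + γ * ‖y - x‖ ^ 2) y₀
      = 2 * (γ * (2 * γ * ‖y₀ - x‖ - s) ^ 2) := by
  set G : E → ℝ := fun y : E => A - s * ‖y - x‖ + γ * ‖y - x‖ ^ 2 with hGdef
  have hne' : y₀ - x ≠ 0 := sub_ne_zero.2 hne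
  have hρ : 0 < ‖y₀ - x‖ := norm_pos_iff.2 hne'
  set ρ := ‖y₀ - x‖ with hρdef
  have hsmooth : ContDiffAt ℝ 2 G y₀ := by
    have h1 : ContDiffAt ℝ 2 (fun y : E => y - x) y₀ := by fun_prop
    have h2 : ContDiffAt ℝ 2 (fun y : E => ‖y - x‖) y₀ := h1.norm ℝ hne'
    have h3 : ContDiffAt ℝ 2 (fun y : E => ‖y - x‖ ^ 2) y₀ := h1.norm_sq ℝ
    exact (contDiffAt_const.sub (contDiffAt_const.mul h2)).add (contDiffAt_const.mul h3)
  set κ : ℝ := 2 * γ - s / ρ with hκ
  have hgrad : HasGradientAt G (κ • (y₀ - x)) y₀ := by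
    rw [hasGradientAt_iff_hasFDerivAt]
    have h1 : HasFDerivAt (fun y : E => y - x) (ContinuousLinearMap.id ℝ E) y₀ :=
      (hasFDerivAt_id y₀).sub_const x
    have h2 : HasFDerivAt (fun y : E => ‖y - x‖ ^ 2)
        (2 • (innerSL ℝ (y₀ - x)).comp (ContinuousLinearMap.id ℝ E)) y₀ := h1.norm_sq
    have h3 : HasFDerivAt (fun y : E => √(‖y - x‖ ^ 2))
        ((1 / (2 * √(‖y₀ - x‖ ^ 2))) • (2 • (innerSL ℝ (y₀ - x)).comp
          (ContinuousLinearMap.id ℝ E))) y₀ := h2.sqrt (by positivity)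
    have h4 : (fun y : E => √(‖y - x‖ ^ 2)) = fun y : E => ‖y - x‖ := by
      funext y; exact Real.sqrt_sq (norm_nonneg _)
    rw [h4, Real.sqrt_sq (norm_nonneg _)] at h3
    have h5 := ((h3.const_mul s).const_sub A).add (h2.const_mul γ)
    refine h5.congr_fderiv ?_
    ext w
    simp only [add_apply, neg_apply,
      smul_apply, ContinuousLinearMap.comp_apply,
      ContinuousLinearMap.id_apply, innerSL_apply_apply, InnerProductSpace.toDual_apply_apply,
      real_inner_smul_left, smul_eq_mul, nsmul_eq_mul]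
    simp only [hκ, ← hρdef]
    field_simp
    ring
  refine ⟨hsmooth, ?_⟩
  have hfinal : infLaplacian G y₀ = 2 * (γ * κ ^ 2 * ρ ^ 2) := by
    apply infLaplacian_eq_two_mul hsmooth (a := A - s * ρ + γ * ρ ^ 2)
      (b := - s * κ * ρ + 2 * γ * κ * ρ ^ 2)
    rw [hgrad.gradient]
    have hev : ∀ᶠ t in 𝓝 (0:ℝ), 0 < 1 + t * κ := by
      have hc : Continuous (fun t : ℝ => 1 + t * κ) := by fun_prop
      have := hc.tendsto 0
      simp only [zero_mul, add_zero] at this
      exact this.eventually (lt_mem_nhds one_pos)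
    filter_upwards [hev] with t ht
    have e1 : y₀ + t • κ • (y₀ - x) - x = (1 + t * κ) • (y₀ - x) := by
      rw [add_smul, one_smul, mul_smul]; abel
    simp only [hGdef]
    rw [e1, norm_smul, Real.norm_eq_abs, abs_of_pos ht, ← hρdef]
    ring
  rw [hfinal, hκ]
  field_simp

end Vale.Agent.H22.InfHarm
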